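import Crest.Agent.R246.B2.Bas

/-!
# Row 246, block B2: Vitali covering of the bad points
-/

set_option autoImplicit false
set_option linter.unusedSectionVars false

open MeasureTheory Metric Filter Topology Set Module
open scoped RealInnerProductSpace ENNReal ContDiff Real

noncomputable section

namespace Crest.Agent.R246.B2

variable {E : Type} [NormedAddCommGroup E] [InnerProductSpace ℝ E] [FiniteDimensional ℝ E]
  [MeasurableSpace E] [BorelSpace E]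

theorem bad_low {d : ℕ} {c : ℝ → ℝ} {Λ ε : ℝ} {u : E → ℝ} (h : Dat d c Λ ε u) {e : E} (he : ‖e‖ = 1) (z : E)
    {ρ a b : ℝ} (hρ : 0 < ρ) {S : Set E} (hS : MeasurableSet S) (ha : ∫ y in Sᶜ, gk d z ρ y ∂mu ε u ≤ a)
    (hb : b ≤ tg d ε u e z ρ) : ENNReal.ofReal (b - a) ≤
      ENNReal.ofReal ((√(2 * π) * ρ)⁻¹ ^ d) * ∫⁻ y in S, ENNReal.ofReal (tl ε u e y) ∂mu ε u := by
  have hi := h.integrable_tl he z hρ
  have h0 : ∀ y, 0 ≤ gk d z ρ y := fun y => by unfold gk; positivity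
  have h1 : ∫ y in Sᶜ, tl ε u e y * gk d z ρ y ∂mu ε u ≤ ∫ y in Sᶜ, gk d z ρ y ∂mu ε u :=
    integral_mono hi.integrableOn (h.integ z ρ hρ).integrableOn fun y =>
      mul_le_of_le_one_left (h0 y) (tl_le_one e y)
  rw [tg, ← integral_add_compl hS hi] at hb
  refine (ENNReal.ofReal_le_ofReal (show _ ≤ ∫ y in S, tl ε u e y * gk d z ρ y ∂mu ε u by linarith)).trans ?_
  rw [ofReal_integral_eq_lintegral_ofReal hi.integrableOn
    (Eventually.of_forall fun y => mul_nonneg (h.tl_nonneg he y) (h0 y)),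
    ← lintegral_const_mul' _ _ ENNReal.ofReal_ne_top]
  refine lintegral_mono fun y => ?_
  rw [← ENNReal.ofReal_mul (by positivity), mul_comm]
  exact ENNReal.ofReal_le_ofReal (mul_le_mul_of_nonneg_right (gk_le d z hρ y) (h.tl_nonneg he y))

theorem bad_up {d : ℕ} {c : ℝ → ℝ} {Λ ε : ℝ} {u : E → ℝ} (h : Dat d c Λ ε u) {e : E} (he : ‖e‖ = 1) (z : E)
    {ρ k : ℝ} (hρ : 0 < ρ) {S : Set E} (hS : MeasurableSet S) (hk : 0 ≤ k) (hb : ∀ y ∈ S, k ≤ gk d z ρ y) :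
    ENNReal.ofReal k * ∫⁻ y in S, ENNReal.ofReal (tl ε u e y) ∂mu ε u ≤ ENNReal.ofReal (tg d ε u e z ρ) := by
  have h0 : ∀ y, 0 ≤ gk d z ρ y := fun y => by unfold gk; positivity
  rw [tg, ofReal_integral_eq_lintegral_ofReal (h.integrable_tl he z hρ)
    (Eventually.of_forall fun y => mul_nonneg (h.tl_nonneg he y) (h0 y)),
    ← lintegral_const_mul' _ _ ENNReal.ofReal_ne_top]
  refine le_trans (setLIntegral_mono' hS fun y hy => ?_) (setLIntegral_le_lintegral S _)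
  rw [← ENNReal.ofReal_mul hk, mul_comm]
  exact ENNReal.ofReal_le_ofReal (mul_le_mul_of_nonneg_left (hb y hy) (h.tl_nonneg he y))

/-- If `tg z ρ > γ` then, by `tail` with `γ/2` (`tl ≤ 1`) and `gk_le`,
`∫_{ball z (Mρ)} tl dμ ≥ (γ/2)(√(2π)ρ)^d`.  Take `ρ₀ = 1/M`.
`Vitali.exists_disjoint_subfamily_covering_enlargement_closedBall`, `mu_ball`, and
`∫_{ball p (L+1)} tl dμ ≤ K tg p (3/2)` (`gk_low`). -/
theorem bad (d : ℕ) (Λ L : ℝ) {η γ : ℝ} (hη : 0 < η) (hγ : 0 < γ) :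
    ∃ ρ₀ δ : ℝ, 0 < ρ₀ ∧ ρ₀ ≤ 1 ∧ 0 < δ ∧
    ∀ (c : ℝ → ℝ) (ε : ℝ) (u : E → ℝ), Dat d c Λ ε u → ∀ p e : E, ‖e‖ = 1 →
      tg d ε u e p (3 / 2) ≤ δ →
        mu ε u (ball p L ∩ {z | ¬ Good d ε u e γ ρ₀ z}) ≤ ENNReal.ofReal η := by
  rcases le_or_gt Λ 0 with hΛ | hΛ
  · exact ⟨1, 1, one_pos, le_rfl, one_pos, fun c ε u h => absurd h.Lpos (not_lt.2 hΛ)⟩
  obtain ⟨M, hM, ht⟩ := tail (E := E) d Λ (half_pos hγ)
  obtain ⟨K, hK, hb⟩ := mu_ball (E := E) d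
  obtain ⟨k, hk, hl⟩ := gk_low (E := E) d (2 / 3 * (L + 1))
  have hM0 : 0 < M := by linarith
  obtain ⟨A, hA, hA'⟩ : ∃ A : ℝ, 0 < A ∧ ∀ ρ : ℝ, 0 < ρ →
      K * Λ * (4 * (M * ρ)) ^ d / (γ / 2) * (√(2 * π) * ρ)⁻¹ ^ d = A * (k * (3 / 2 : ℝ)⁻¹ ^ d) :=
    ⟨K * Λ * (4 * M) ^ d / (γ / 2) * (√(2 * π))⁻¹ ^ d / (k * (3 / 2 : ℝ)⁻¹ ^ d), by positivity, fun ρ hρ => by
      rw [div_mul_cancel₀ _ (by positivity), ← mul_assoc 4, mul_pow _ ρ, mul_inv, mul_pow _ ρ⁻¹, inv_pow ρ]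
      field_simp⟩
  refine ⟨M⁻¹, η / A, by positivity, inv_le_one_of_one_le₀ hM, by positivity, fun c ε u h p e he hp => ?_⟩
  obtain ⟨ν, hν⟩ : ∃ ν : Measure E, ∀ S, MeasurableSet S →
      ν S = ∫⁻ y in S, ENNReal.ofReal (tl ε u e y) ∂mu ε u := ⟨_, fun S hS => withDensity_apply _ hS⟩
  have h1 : ∀ z : E, ∃ ρ : ℝ, 0 < ρ ∧ ρ ≤ M⁻¹ ∧ (¬ Good d ε u e γ M⁻¹ z → γ < tg d ε u e z ρ) := fun z => by
    by_cases hz : Good d ε u e γ M⁻¹ z
    · exact ⟨M⁻¹, by positivity, le_rfl, fun h => absurd hz h⟩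
    · simp only [Good, not_forall, not_le] at hz
      obtain ⟨ρ, h1, h2, h3⟩ := hz
      exact ⟨ρ, h1, h2, fun _ => h3⟩
  choose ρ hρ hρ' hρ'' using h1
  have hr : ∀ z, M * ρ z ≤ 1 := fun z => by rw [← le_div_iff₀' hM0, one_div]; exact hρ' z
  have hr0 : ∀ z, 0 < M * ρ z := fun z => mul_pos hM0 (hρ z)
  have h2 : ∀ z, ¬ Good d ε u e γ M⁻¹ z → mu ε u (closedBall z (4 * (M * ρ z))) ≤
      ENNReal.ofReal (A * (k * (3 / 2 : ℝ)⁻¹ ^ d)) * ν (ball z (M * ρ z)) := fun z hz => by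
    have hz' := hρ z
    have h3 := bad_low h he z hz' measurableSet_ball (ht c ε u h z _ hz') (hρ'' z hz).le
    rw [← hA' _ hz', ENNReal.ofReal_mul (by positivity), mul_assoc, hν _ measurableSet_ball]
    refine (hb c Λ ε u h z _ (by positivity)).trans (le_trans (le_of_eq ?_) (mul_le_mul_right h3 _))
    rw [← ENNReal.ofReal_mul (by positivity), sub_half, div_mul_cancel₀ _ (by positivity)]
  obtain ⟨v, hv, hd, hc⟩ := Vitali.exists_disjoint_subfamily_covering_enlargement_ball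
    (ball p L ∩ {z | ¬ Good d ε u e γ M⁻¹ z}) id (fun z => M * ρ z) 1 (fun z _ => hr z) 4 (by norm_num)
  have hvc : v.Countable := hd.countable_of_isOpen (fun _ _ => isOpen_ball) fun z _ => nonempty_ball.2 (hr0 z)
  calc mu ε u (ball p L ∩ {z | ¬ Good d ε u e γ M⁻¹ z})
      ≤ mu ε u (⋃ z ∈ v, closedBall z (4 * (M * ρ z))) := measure_mono fun z hz => by
        obtain ⟨b, hb, h⟩ := hc z hz
        exact mem_biUnion hb (ball_subset_closedBall (h (mem_ball_self (hr0 z))))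
    _ ≤ ∑' z : v, ENNReal.ofReal (A * (k * (3 / 2 : ℝ)⁻¹ ^ d)) * ν (ball z (M * ρ z)) :=
        (measure_biUnion_le _ hvc _).trans (ENNReal.tsum_le_tsum fun z => h2 z (hv z.2).2)
    _ ≤ ENNReal.ofReal (A * (k * (3 / 2 : ℝ)⁻¹ ^ d)) * ν (ball p (L + 1)) := by
        rw [ENNReal.tsum_mul_left]
        refine mul_le_mul_right ((measure_biUnion hvc hd fun _ _ => measurableSet_ball).symm.trans_le
          (measure_mono (iUnion₂_subset fun z hz => ball_subset_ball' ?_))) _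
        linarith [hr z, mem_ball.1 (hv hz).1, show dist (id z) p = dist z p from rfl]
    _ ≤ ENNReal.ofReal η := by
        rw [ENNReal.ofReal_mul hA.le, mul_assoc, hν _ measurableSet_ball]
        refine (mul_le_mul_right ((bad_up h he p (by norm_num : (0 : ℝ) < 3 / 2) measurableSet_ball
          (by positivity) fun y hy => hl p _ y (by norm_num) ?_).trans (ENNReal.ofReal_le_ofReal hp)) _).trans_eq ?_
        · linarith [mem_ball_iff_norm.1 hy]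
        · rw [← ENNReal.ofReal_mul hA.le, mul_div_cancel₀ _ hA.ne']

end Crest.Agent.R246.B2
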