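import Crest.Agent.R246.B2.Ker

/-!
# Row 246, block B2: basic facts on the energy measure
-/

set_option autoImplicit false
set_option linter.unusedSectionVars false

open MeasureTheory Metric Filter Topology Set Module
open scoped RealInnerProductSpace ENNReal ContDiff Real

noncomputable section

namespace Crest.Agent.R246.B2

variable {E : Type} [NormedAddCommGroup E] [InnerProductSpace ℝ E] [FiniteDimensional ℝ E]
  [MeasurableSpace E] [BorelSpace E]

variable {d : ℕ} {c : ℝ → ℝ} {Λ ε : ℝ} {u : E → ℝ}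

theorem sig_pos : 0 < sig := by
  unfold sig
  positivity

theorem W_nonneg (t : ℝ) : 0 ≤ W t := by
  unfold W
  positivity

/-- continuous off the point `0` -/
theorem meas_u (h : Crit ε u) : Measurable u := by
  exact measurable_of_continuousOn_compl_singleton 0 h.smooth.continuousOn

theorem basa_meas_grad (u : E → ℝ) : Measurable (gradient u) :=
  (InnerProductSpace.toDual ℝ E).symm.continuous.measurable.comp (measurable_fderiv ℝ u)

theorem meas_ed (h : Crit ε u) : Measurable (ed ε u) := by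
  have h1 := meas_u h
  have h2 := basa_meas_grad u
  unfold ed W
  fun_prop

theorem meas_wv (h : Crit ε u) : Measurable (wv ε u) := by
  have h1 := meas_ed h
  have h2 := basa_meas_grad u
  unfold wv
  fun_prop

theorem meas_tl (h : Crit ε u) (e : E) : Measurable (tl ε u e) := by
  exact measurable_const.sub (((meas_wv h).inner measurable_const).pow_const 2)

theorem ed_nonneg (hε : 0 < ε) (y : E) : 0 ≤ ed ε u y := by
  have h1 := sig_pos
  have h2 := W_nonneg (u y)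
  unfold ed
  positivity

theorem mu_eq (h : Crit ε u) :
    mu ε u = (volume : Measure E).withDensity fun y => ENNReal.ofReal (ed ε u y) := by
  unfold mu vA
  rw [Measure.fst_map_prodMk (meas_wv h)]
  exact Measure.map_id

theorem integral_vA (h : Crit ε u) {φ : E × E → ℝ} (hφ : Measurable φ) :
    ∫ z, φ z ∂vA ε u = ∫ y, φ (y, wv ε u y) ∂mu ε u := by
  rw [mu_eq h, vA, integral_map (measurable_id'.prodMk (meas_wv h)).aemeasurable hφ.aestronglyMeasurable]

theorem integral_mu (h : Crit ε u) (hε : 0 < ε) (φ : E → ℝ) :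
    ∫ y, φ y ∂mu ε u = ∫ y, ed ε u y * φ y := by
  rw [mu_eq h, integral_withDensity_eq_integral_toReal_smul (meas_ed h).ennreal_ofReal
    (Eventually.of_forall fun _ => ENNReal.ofReal_lt_top)]
  simp only [ENNReal.toReal_ofReal (ed_nonneg hε _), smul_eq_mul]

theorem Dat.tl_nonneg (h : Dat d c Λ ε u) {e : E} (he : ‖e‖ = 1) (y : E) : 0 ≤ tl ε u e y := by
  have h1 := abs_real_inner_le_norm (wv ε u y) e
  rw [he, mul_one] at h1
  exact sub_nonneg.2 ((sq_le_one_iff_abs_le_one _).2 (h1.trans (h.wv_le y)))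

theorem tl_le_one (e y : E) : tl ε u e y ≤ 1 := by
  exact sub_le_self _ (sq_nonneg _)

theorem Dat.integrable_tl (h : Dat d c Λ ε u) {e : E} (he : ‖e‖ = 1) (z : E) {ρ : ℝ} (hρ : 0 < ρ) :
    Integrable (fun y => tl ε u e y * gk d z ρ y) (mu ε u) := by
  refine (h.integ z ρ hρ).bdd_mul (c := 1) (meas_tl h.crit e).aestronglyMeasurable
    (Eventually.of_forall fun y => ?_)
  rw [Real.norm_of_nonneg (h.tl_nonneg he y)]
  exact tl_le_one e y

/-- `σ ed tl = ε|y|(|∇u|² - ⟪∇u,e⟫²) + (W/(ε|y|) - ε|y||∇u|²/2)` (if `ed = 0` both sides vanish) -/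
theorem sig_ed_tl (hε : 0 < ε) (e : E) {y : E} (hy : y ≠ 0) :
    sig * (ed ε u y * tl ε u e y) =
      ε * ‖y‖ * (‖gradient u y‖ ^ 2 - ⟪gradient u y, e⟫ ^ 2) +
        (W (u y) / (ε * ‖y‖) - ε * ‖y‖ * ‖gradient u y‖ ^ 2 / 2) := by
  have ha : 0 < ε * ‖y‖ := mul_pos hε (norm_pos_iff.2 hy)
  have hs := sig_pos
  have hW := W_nonneg (u y)
  have hD := ed_nonneg (u := u) hε y
  have hE : sig * ed ε u y = ε * ‖y‖ * ‖gradient u y‖ ^ 2 / 2 + W (u y) / (ε * ‖y‖) := by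
    unfold ed
    rw [mul_div_cancel₀ _ hs.ne']
  have hw : ⟪wv ε u y, e⟫ ^ 2 = ε * ‖y‖ / (sig * ed ε u y) * ⟪gradient u y, e⟫ ^ 2 := by
    unfold wv
    rw [real_inner_smul_left, mul_pow, Real.sq_sqrt (by positivity)]
  unfold tl
  rw [hw]
  rcases hD.eq_or_lt with h0 | h0
  · rw [← h0, mul_zero] at hE
    have h1 : 0 ≤ ε * ‖y‖ * ‖gradient u y‖ ^ 2 / 2 := by positivity
    have h2 : 0 ≤ W (u y) / (ε * ‖y‖) := by positivity
    have h3 : ε * ‖y‖ * ‖gradient u y‖ ^ 2 = 0 := by linarith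
    have h4 : gradient u y = 0 := by
      rcases mul_eq_zero.1 h3 with h5 | h5
      · exact absurd h5 ha.ne'
      · exact norm_eq_zero.1 (pow_eq_zero_iff two_ne_zero |>.1 h5)
    have h5 : W (u y) / (ε * ‖y‖) = 0 := by linarith
    rw [← h0, h4, h5]
    simp
  · have h1 : sig * (ed ε u y * (1 - ε * ‖y‖ / (sig * ed ε u y) * ⟪gradient u y, e⟫ ^ 2)) =
        sig * ed ε u y - ε * ‖y‖ * ⟪gradient u y, e⟫ ^ 2 := by
      field_simp
    rw [h1, hE]
    ring

theorem Dat.ed_le (h : Dat d c Λ ε u) {y : E} (hy : y ≠ 0) :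
    ed ε u y ≤ 2 * W (u y) / (sig * (ε * ‖y‖)) := by
  have ha : 0 < ε * ‖y‖ := mul_pos h.pos (norm_pos_iff.2 hy)
  have hs := sig_pos
  have h1 : ε * ‖y‖ * ‖gradient u y‖ ^ 2 / 2 ≤ W (u y) / (ε * ‖y‖) := by
    rw [le_div_iff₀ ha]
    have := h.modica y
    nlinarith
  have h2 : 2 * W (u y) / (sig * (ε * ‖y‖)) = (W (u y) / (ε * ‖y‖) + W (u y) / (ε * ‖y‖)) / sig := by
    field_simp
    ring
  rw [h2]
  unfold ed
  gcongr

theorem Dat.le_ed (h : Dat d c Λ ε u) {e : E} (he : ‖e‖ = 1) {y : E} (hy : y ≠ 0) :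
    2 * W (u y) / (sig * (ε * ‖y‖)) ≤ ed ε u y + ed ε u y * tl ε u e y := by
  have ha : 0 < ε * ‖y‖ := mul_pos h.pos (norm_pos_iff.2 hy)
  have hs := sig_pos
  have h1 := sig_ed_tl (u := u) h.pos e hy
  have hE : sig * ed ε u y = ε * ‖y‖ * ‖gradient u y‖ ^ 2 / 2 + W (u y) / (ε * ‖y‖) := by
    unfold ed
    rw [mul_div_cancel₀ _ hs.ne']
  have h2 : ⟪gradient u y, e⟫ ^ 2 ≤ ‖gradient u y‖ ^ 2 := by
    have := abs_real_inner_le_norm (gradient u y) e
    rw [he, mul_one] at this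
    exact sq_le_sq' (abs_le.1 this).1 (abs_le.1 this).2
  have h3 := mul_nonneg ha.le (sub_nonneg.2 h2)
  have h4 : 2 * W (u y) / (sig * (ε * ‖y‖)) = 2 * (W (u y) / (ε * ‖y‖)) / sig := by
    field_simp
  rw [h4, div_le_iff₀ hs]
  linarith

/-- `gk_low` with `M = 1` and `upper` -/
theorem mu_ball (d : ℕ) : ∃ K : ℝ, 0 < K ∧ ∀ (c : ℝ → ℝ) (Λ ε : ℝ) (u : E → ℝ), Dat d c Λ ε u →
    ∀ (q : E) (ρ : ℝ), 0 < ρ → mu ε u (closedBall q ρ) ≤ ENNReal.ofReal (K * Λ * ρ ^ d) := by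
  obtain ⟨k, hk, hl⟩ := gk_low (E := E) d 1
  refine ⟨k⁻¹, by positivity, fun c Λ ε u h q ρ hρ => ?_⟩
  have h1 : ENNReal.ofReal (k * (ρ⁻¹) ^ d) * mu ε u (closedBall q ρ) ≤ ENNReal.ofReal Λ := by
    rw [← setLIntegral_const]
    refine (setLIntegral_mono' measurableSet_closedBall fun y hy => ENNReal.ofReal_le_ofReal
      (hl q ρ y hρ (by rw [one_mul, ← dist_eq_norm]; exact hy))).trans ?_
    refine (setLIntegral_le_lintegral _ _).trans ?_
    rw [← ofReal_integral_eq_lintegral_ofReal (h.integ q ρ hρ)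
      (Eventually.of_forall fun y => (gk_pos d q hρ y).le)]
    exact ENNReal.ofReal_le_ofReal (h.upper q ρ hρ)
  calc mu ε u (closedBall q ρ)
      = ENNReal.ofReal (k⁻¹ * ρ ^ d) * (ENNReal.ofReal (k * (ρ⁻¹) ^ d) * mu ε u (closedBall q ρ)) := by
        rw [← mul_assoc, ← ENNReal.ofReal_mul (by positivity),
          show k⁻¹ * ρ ^ d * (k * (ρ⁻¹) ^ d) = 1 by rw [inv_pow]; field_simp, ENNReal.ofReal_one, one_mul]
    _ ≤ ENNReal.ofReal (k⁻¹ * ρ ^ d) * ENNReal.ofReal Λ := by gcongr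
    _ = _ := by rw [← ENNReal.ofReal_mul (by positivity), mul_right_comm]

/-- `gk_tail` and `upper` -/
theorem tail (d : ℕ) (Λ : ℝ) {η : ℝ} (hη : 0 < η) : ∃ L : ℝ, 1 ≤ L ∧
    ∀ (c : ℝ → ℝ) (ε : ℝ) (u : E → ℝ), Dat d c Λ ε u → ∀ (q : E) (ρ : ℝ), 0 < ρ →
      ∫ y in (ball q (L * ρ))ᶜ, gk d q ρ y ∂mu ε u ≤ η := by
  obtain ⟨L, hL1, hL⟩ := gk_tail (E := E) d (η := η / (|Λ| + 1)) (by positivity)
  refine ⟨L, hL1, fun c ε u h q ρ hρ => ?_⟩
  have h2 : 0 < 2 * ρ := by positivity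
  calc ∫ y in (ball q (L * ρ))ᶜ, gk d q ρ y ∂mu ε u
      ≤ ∫ y in (ball q (L * ρ))ᶜ, η / (|Λ| + 1) * gk d q (2 * ρ) y ∂mu ε u :=
        setIntegral_mono_on (h.integ q ρ hρ).integrableOn ((h.integ q _ h2).const_mul _).integrableOn
          measurableSet_ball.compl fun y hy => hL q ρ y hρ (by
            rw [mem_compl_iff, mem_ball, dist_eq_norm, not_lt] at hy; exact hy)
    _ ≤ ∫ y, η / (|Λ| + 1) * gk d q (2 * ρ) y ∂mu ε u :=
        setIntegral_le_integral ((h.integ q _ h2).const_mul _) (Eventually.of_forall fun y =>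
          mul_nonneg (by positivity) (gk_pos d q h2 y).le)
    _ ≤ η / (|Λ| + 1) * (|Λ| + 1) := by
        rw [integral_const_mul]
        exact mul_le_mul_of_nonneg_left ((h.upper q _ h2).trans ((le_abs_self _).trans (by linarith)))
          (by positivity)
    _ = η := by field_simp

end Crest.Agent.R246.B2
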