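import Crest.Agent.R246.B2.Id

/-!
# Row 246, block B2: constancy of the density ratio along the plane
-/

set_option autoImplicit false
set_option linter.unusedSectionVars false

open MeasureTheory Metric Filter Topology Set Module
open scoped RealInnerProductSpace ENNReal ContDiff Real

noncomputable section

namespace Crest.Agent.R246.B2

variable {E : Type} [NormedAddCommGroup E] [InnerProductSpace ℝ E] [FiniteDimensional ℝ E]
  [MeasurableSpace E] [BorelSpace E]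

theorem sq_inner_le_tl {w e a : E} (he : ‖e‖ = 1) (hw : ‖w‖ ≤ 1) (ha : ⟪e, a⟫ = 0) :
    ⟪w, a⟫ ^ 2 ≤ ‖a‖ ^ 2 * (1 - ⟪w, e⟫ ^ 2) := by
  have h1 : ⟪w, a⟫ = ⟪w - ⟪w, e⟫ • e, a⟫ := by rw [inner_sub_left, real_inner_smul_left, ha]; ring
  have h2 : ‖w - ⟪w, e⟫ • e‖ ^ 2 = ‖w‖ ^ 2 - ⟪w, e⟫ ^ 2 := by
    rw [norm_sub_sq_real, real_inner_smul_right, norm_smul, he, mul_one, Real.norm_eq_abs, sq_abs]
    ring
  have h3 := abs_real_inner_le_norm (w - ⟪w, e⟫ • e) a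
  have h4 : ‖w‖ ^ 2 ≤ 1 := pow_le_one₀ (norm_nonneg _) hw
  rw [h1, ← sq_abs]
  refine (pow_le_pow_left₀ (abs_nonneg _) h3 2).trans ?_
  rw [mul_pow, h2, mul_comm]
  exact mul_le_mul_of_nonneg_left (by linarith) (sq_nonneg _)

theorem const_deriv (d : ℕ) (L : ℝ) : ∃ K : ℝ, 0 < K ∧
    ∀ (c : ℝ → ℝ) (Λ ε : ℝ) (u : E → ℝ), Dat d c Λ ε u → ∀ p e q a : E, ‖e‖ = 1 → ⟪e, a⟫ = 0 →
      ‖a‖ ≤ L → ‖q - p‖ ≤ L → 1 ≤ 2 * ‖q‖ → ∀ δ : ℝ, tg d ε u e p (3 / 2) ≤ δ →
        |∫ y, ⟪a, y - q⟫ * gk d q 1 y ∂mu ε u| ≤ √(K * δ * (K * Λ)) + L * (Λ / ‖q‖) := by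
  obtain ⟨K₁, hK₁, h₁⟩ := gk_far (E := E) d L
  obtain ⟨K₂, hK₂, h₂⟩ := gk_sq (E := E) d
  refine ⟨L ^ 2 * K₁ + K₂, by positivity, fun c Λ ε u h p e q a he ha haL hq hq1 δ hδ => ?_⟩
  have hL : 0 ≤ L := (norm_nonneg _).trans haL
  have hG := fun y => (gk_pos d q one_pos y).le
  have hδ0 : 0 ≤ δ := le_trans (integral_nonneg fun y => mul_nonneg (h.tl_nonneg he y)
    (gk_pos d p (by norm_num) y).le) hδ
  have hw := meas_wv h.crit
  have hGm := (continuous_gk d q 1).measurable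
  obtain ⟨i1, i2⟩ := h.fv q one_pos (ψ := fun _ => 1) (g := fun _ => 0) (X := fun _ => a)
    (A := 0) (B := L) (C := L) (r := 1) contDiff_const (fun y => hasGradientAt_const y 1)
    (fun y => by simp) (fun y => by simp) contDiff_const
    (fun y => haL.trans (le_mul_of_one_le_right hL (le_add_of_nonneg_right (norm_nonneg _))))
    (fun y => by simpa using hL) one_pos hq1 hL
    (fun y => mul_le_mul_of_nonneg_right haL (hG y))
    (D := fun y => ⟪y - q, wv ε u y⟫ * ⟪wv ε u y, a⟫ * gk d q 1 y - ⟪a, y - q⟫ * gk d q 1 y)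
    (fun y => by rw [divT_const, real_inner_comm (y - q) a]; simp; ring)
  have hb : ∀ (t : ℝ) y, 2 * t * (⟪y - q, wv ε u y⟫ * ⟪wv ε u y, a⟫ * gk d q 1 y) ≤
      t ^ 2 * (L ^ 2 * K₁ * (tl ε u e y * gk d p (3 / 2) y)) + K₂ * gk d q 2 y := fun t y => by
    have a1 := sq_inner_le_tl he (h.wv_le y) ha
    have a2 : ⟪wv ε u y, a⟫ ^ 2 ≤ L ^ 2 * tl ε u e y :=
      a1.trans (mul_le_mul_of_nonneg_right (by gcongr) (h.tl_nonneg he y))
    have a3 : ⟪y - q, wv ε u y⟫ ^ 2 ≤ ‖y - q‖ ^ 2 := by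
      rw [← sq_abs]
      exact pow_le_pow_left₀ (abs_nonneg _) ((abs_real_inner_le_norm _ _).trans
        (mul_le_of_le_one_right (norm_nonneg _) (h.wv_le y))) 2
    have a4 := (h₂ q 1 y one_pos).1
    have a5 := mul_le_mul a2 (h₁ p q y hq) (hG y) (by have := h.tl_nonneg he y; positivity)
    have a6 := mul_le_mul_of_nonneg_left a5 (sq_nonneg t)
    have a7 := mul_le_mul_of_nonneg_right a3 (hG y)
    have a8 := mul_nonneg (hG y) (sq_nonneg (t * ⟪wv ε u y, a⟫ - ⟪y - q, wv ε u y⟫))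
    rw [one_pow, mul_one, mul_one] at a4
    nlinarith
  have j1 := (h.integrable_tl he p (show (0 : ℝ) < 3 / 2 by norm_num)).const_mul (L ^ 2 * K₁)
  have j2 := (h.integ q 2 two_pos).const_mul K₂
  have j3 : Integrable (fun y => ⟪y - q, wv ε u y⟫ * ⟪wv ε u y, a⟫ * gk d q 1 y) (mu ε u) := by
    refine (j1.add j2).mono' (Measurable.aestronglyMeasurable (by fun_prop))
      (Eventually.of_forall fun y => abs_le.2 ⟨?_, ?_⟩)
    · have := hb (-1 / 2) y
      have := mul_nonneg (h.tl_nonneg he y) (gk_pos d p (show (0 : ℝ) < 3 / 2 by norm_num) y).le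
      have : 0 ≤ L ^ 2 * K₁ * (tl ε u e y * gk d p (3 / 2) y) := by positivity
      simp only [Pi.add_apply]
      linarith
    · have := hb (1 / 2) y
      have := mul_nonneg (h.tl_nonneg he y) (gk_pos d p (show (0 : ℝ) < 3 / 2 by norm_num) y).le
      have : 0 ≤ L ^ 2 * K₁ * (tl ε u e y * gk d p (3 / 2) y) := by positivity
      simp only [Pi.add_apply]
      linarith
  have k := cs (P := (L ^ 2 * K₁ + K₂) * δ) (Q := (L ^ 2 * K₁ + K₂) * Λ) j3 j1 j2 hb
    (by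
      rw [integral_const_mul]
      exact mul_le_mul (by linarith) hδ (integral_nonneg fun y => mul_nonneg (h.tl_nonneg he y)
        (gk_pos d p (by norm_num) y).le) (by positivity))
    (by
      rw [integral_const_mul]
      exact mul_le_mul (le_add_of_nonneg_left (by positivity)) (h.upper q 2 two_pos)
        (integral_nonneg fun y => (gk_pos d q two_pos y).le) (by positivity))
  have e1 := integral_sub j3 i1
  simp only [sub_sub_cancel] at e1
  rw [e1]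
  exact (abs_sub _ _).trans (add_le_add k i2)

/-- `gk (p+a) 1 y - gk p 1 y = ∫_0^1 ⟪a, y - q_τ⟫ gk q_τ 1 y dτ`, `q_τ = p + τ a`, Fubini.
`ident` for `X = gk q 1 • a`:
`∫⟪a,y-q⟫G = ∫⟪w,a⟫⟪w,y-q⟫G - ∫(1-|w|²)⟪a,y⟫G/|y|²`; `⟪w,a⟫² ≤ |a|² tl`, Cauchy–Schwarz (or
`2xy ≤ λx² + y²/λ`), `gk_far`, `gk_sq`, `inv` (`‖q‖ ≥ ‖p‖/2`). -/
theorem constancy (d : ℕ) (Λ L : ℝ) {η : ℝ} (hη : 0 < η) : ∃ δ : ℝ, 0 < δ ∧
    ∀ (c : ℝ → ℝ) (ε : ℝ) (u : E → ℝ), Dat d c Λ ε u → ∀ p e : E, ‖e‖ = 1 → 1 ≤ δ * ‖p‖ →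
      tg d ε u e p (3 / 2) ≤ δ → ∀ a : E, ⟪e, a⟫ = 0 → ‖a‖ ≤ L →
        |th d (mu ε u) (p + a) 1 - th d (mu ε u) p 1| ≤ η := by
  obtain ⟨K, hK, hK'⟩ := const_deriv (E := E) d L
  obtain ⟨δ, ⟨h1, h2⟩, hδ⟩ : ∃ δ : ℝ, (√(K * δ * (K * Λ)) + L * (Λ * (2 * δ)) < η ∧
      δ * (2 * L + 2) < 1) ∧ 0 < δ := by
    have c1 : ContinuousAt (fun δ : ℝ => √(K * δ * (K * Λ)) + L * (Λ * (2 * δ))) 0 := by fun_prop
    have c2 : ContinuousAt (fun δ : ℝ => δ * (2 * L + 2)) 0 := by fun_prop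
    exact ((((c1.eventually (gt_mem_nhds (by simpa using hη))).and
      (c2.eventually (gt_mem_nhds (by simp)))).filter_mono (nhdsWithin_le_nhds (s := Ioi 0))).and
        self_mem_nhdsWithin).exists
  refine ⟨δ, hδ, fun c ε u h p e he hp ht' a ha haL => ?_⟩
  have hL : 0 ≤ L := (norm_nonneg _).trans haL
  have hp' : 2 * L + 2 ≤ ‖p‖ := by
    by_contra hh
    nlinarith
  obtain ⟨C, hC, hC'⟩ := C1.gk_dom (E := E) d 1 1 (‖p‖ + 2 * L) one_pos
  have hq : ∀ t ∈ Ioo (-2 : ℝ) 2, ‖p + t • a‖ ≤ ‖p‖ + 2 * L := fun t ht => by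
    refine (norm_add_le _ _).trans (add_le_add le_rfl ?_)
    rw [norm_smul, Real.norm_eq_abs]
    exact mul_le_mul (abs_le.2 ⟨ht.1.le, ht.2.le⟩) haL (norm_nonneg _) zero_le_two
  have hd : ∀ t ∈ Icc (0 : ℝ) 1, HasDerivAt (fun t : ℝ => th d (mu ε u) (p + t • a) 1)
      (∫ y, ⟪a, y - (p + t • a)⟫ * gk d (p + t • a) 1 y ∂mu ε u) t := fun t ht => by
    refine (hasDerivAt_integral_of_dominated_loc_of_deriv_le (s := Ioo (-2) 2)
      (F := fun t : ℝ => gk d (p + t • a) 1)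
      (F' := fun (t : ℝ) y => ⟪a, y - (p + t • a)⟫ * gk d (p + t • a) 1 y)
      (bound := fun y => L * (1 + (‖p‖ + 2 * L)) * C * gk d 0 (2 * 1) y)
      (Ioo_mem_nhds (by linarith [ht.1]) (by linarith [ht.2]))
      (Eventually.of_forall fun t => (continuous_gk _ _ _).aestronglyMeasurable)
      (h.integ _ _ one_pos) (Continuous.aestronglyMeasurable (by
        have := continuous_gk d (p + t • a) 1
        fun_prop)) (Eventually.of_forall fun y s hs => ?_)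
      ((h.integ _ _ (by norm_num)).const_mul _) (Eventually.of_forall fun y s hs => ?_)).2
    · have hG := (gk_pos d (p + s • a) one_pos y).le
      have b1 := hC' _ (hq s hs) 1 le_rfl le_rfl y
      have b2 : ‖y - (p + s • a)‖ ≤ (1 + (‖p‖ + 2 * L)) * (1 + ‖y‖) ^ 1 := by
        have := norm_sub_le y (p + s • a)
        have := hq s hs
        nlinarith [norm_nonneg y, norm_nonneg p]
      rw [norm_mul, Real.norm_of_nonneg hG, mul_assoc, mul_assoc]
      refine (mul_le_mul_of_nonneg_right ((norm_inner_le_norm _ _).trans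
        (mul_le_mul haL b2 (norm_nonneg _) hL)) hG).trans ?_
      rw [mul_assoc, mul_assoc]
      gcongr
    · have e1 : ∀ s : ℝ, gk d (p + s • a) 1 y = gk d y 1 (p + s • a) := fun s => by
        unfold gk
        rw [norm_sub_rev]
      simp only [e1]
      have := (hasGradientAt_gk d y 1 (p + s • a)).hasFDerivAt.comp_hasDerivAt s
        (((hasDerivAt_id' s).smul_const a).const_add p)
      refine this.congr_deriv ?_
      rw [InnerProductSpace.toDual_apply_apply, real_inner_smul_left, one_smul, ← neg_sub y,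
        inner_neg_left, real_inner_comm]
      ring
  have := norm_image_sub_le_of_norm_deriv_le_segment_01' (C := η)
    (fun t ht => (hd t ht).hasDerivWithinAt) fun t ht => by
      have b1 : ‖p + t • a - p‖ ≤ L := by
        rw [add_sub_cancel_left, norm_smul, Real.norm_of_nonneg ht.1]
        exact (mul_le_of_le_one_left (norm_nonneg _) ht.2.le).trans haL
      have b2 : ‖p‖ ≤ 2 * ‖p + t • a‖ := by
        have := norm_sub_norm_le p (p + t • a)
        rw [norm_sub_rev] at this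
        linarith
      refine (hK' c Λ ε u h p e _ a he ha haL b1 (by linarith) δ ht').trans ?_
      refine le_trans (add_le_add le_rfl ?_) h1.le
      refine mul_le_mul_of_nonneg_left ?_ hL
      rw [div_le_iff₀ (by linarith), mul_assoc]
      exact le_mul_of_one_le_right h.Lpos.le (by nlinarith)
  simpa using this

/-- `low`, `mono` from scale `ε‖z‖` to `ρ = s₀/(2L')` and `tail` (`η = c τ/4`) give
`μ(ball z (s₀/2)) ≥ k > 0`; on that ball the height is `≥ s₀/2` and `gk p 2 ≥ k'`. -/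
theorem strip (d : ℕ) (c : ℝ → ℝ) (Λ L : ℝ) {τ s₀ : ℝ} (hτ : 0 < τ) (hs : 0 < s₀) :
    ∃ δ : ℝ, 0 < δ ∧ ∀ (ε : ℝ) (u : E → ℝ), Dat d c Λ ε u → ∀ p e : E, ‖e‖ = 1 → 1 ≤ δ * ‖p‖ →
      ε * ‖p‖ ≤ δ → hx d (mu ε u) p 1 e ≤ δ → ∀ z : E, ‖z - p‖ ≤ L → τ ≤ 1 - u z ^ 2 →
        |⟪e, z - p⟫| ≤ s₀ := by
  by_cases hc : 0 < c τ
  swap
  · exact ⟨1, one_pos, fun ε u h => absurd (h.cpos τ hτ) hc⟩
  obtain ⟨L', hL', htail⟩ := tail (E := E) d Λ (η := c τ / 4) (by positivity)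
  obtain ⟨k, hk, hlow⟩ := gk_low (E := E) d ((L + s₀) / 2)
  obtain ⟨K, hK, hsq⟩ := gk_sq (E := E) d
  set ρ := s₀ / 2 / L' with hρ
  have hρ0 : 0 < ρ := by positivity
  have hρL : L' * ρ = s₀ / 2 := by rw [hρ]; field_simp
  set A := (√(2 * π) * ρ)⁻¹ ^ d / ((s₀ / 2) ^ 2 * (k * 2⁻¹ ^ d)) with hA
  have hA0 : 0 ≤ A := by positivity
  have small : ∀ (X : ℝ) {Y : ℝ}, 0 < Y → ∀ᶠ δ in 𝓝[>] (0 : ℝ), δ * X < Y := fun X Y hY =>
    ((continuous_mul_const X).tendsto' 0 0 (zero_mul X)).eventually (gt_mem_nhds hY) |>.filter_mono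
      nhdsWithin_le_nhds
  obtain ⟨δ, hδ, h1, h2, h3, h4, h5⟩ := (eventually_mem_nhdsWithin.and ((small (2 * L) one_pos).and
    ((small 2 hρ0).and ((small (2 * ρ) one_pos).and ((small (2 * Λ * ρ) (Y := c τ / 4) (by positivity)).and
      (small A (Y := c τ / 4) (by positivity))))))).exists
  have hδ0 : 0 < δ := hδ
  refine ⟨δ, hδ0, fun ε u h p e he hp hε hh z hz hu => ?_⟩
  by_contra hcon
  rw [not_le] at hcon
  have hp0 : 0 < ‖p‖ := (pos_iff_pos_of_mul_pos (one_pos.trans_le hp)).1 hδ0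
  have hLp : 2 * L ≤ ‖p‖ := le_of_mul_le_mul_left (by linarith) hδ0
  have hz1 : ‖p‖ / 2 ≤ ‖z‖ := by
    have := norm_sub_norm_le p z
    rw [norm_sub_rev] at this
    linarith
  have hz2 : ‖z‖ ≤ 2 * ‖p‖ := by
    have := norm_sub_norm_le z p
    linarith
  have hz0 : 0 < ‖z‖ := by linarith
  have hε0 := h.pos
  have a1 := h.low τ hτ z (norm_pos_iff.1 hz0) hu
  have a2 := h.mono z (ε * ‖z‖) ρ (by positivity) (by nlinarith)
    (by linarith [le_of_mul_le_mul_left (by linarith : δ * (2 * ρ) ≤ δ * ‖p‖) hδ0])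
  have a3 : Λ * (ρ / ‖z‖) ≤ c τ / 4 := by
    rw [← mul_div_assoc, div_le_iff₀ hz0]
    have b1 : 1 ≤ δ * (2 * ‖z‖) := by nlinarith
    have b2 := mul_le_mul_of_nonneg_left b1 (mul_pos h.Lpos hρ0).le
    nlinarith
  have hH0 : ∀ y, 0 ≤ ⟪e, y - p⟫ ^ 2 / 1 ^ 2 * gk d p (2 * 1) y := fun y =>
    mul_nonneg (by positivity) (gk_pos d p (by norm_num) y).le
  have hH : Integrable (fun y => ⟪e, y - p⟫ ^ 2 / 1 ^ 2 * gk d p (2 * 1) y) (mu ε u) := by
    refine ((h.integ p (2 * (2 * 1)) (by norm_num)).const_mul (K * (2 * 1) ^ 2)).mono'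
      (Continuous.mul (by fun_prop) (continuous_gk d p _)).aestronglyMeasurable
      (Eventually.of_forall fun y => ?_)
    rw [Real.norm_of_nonneg (hH0 y)]
    refine le_trans (mul_le_mul_of_nonneg_right ?_ (gk_pos d p (by norm_num) y).le)
      (hsq p (2 * 1) y (by norm_num)).1
    have := abs_real_inner_le_norm e (y - p)
    rw [he, one_mul] at this
    rw [one_pow, div_one, ← sq_abs]
    exact pow_le_pow_left₀ (abs_nonneg _) this 2
  have a4 : ∫ y in ball z (L' * ρ), gk d z ρ y ∂mu ε u ≤ A * hx d (mu ε u) p 1 e := by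
    refine le_trans ?_ (mul_le_mul_of_nonneg_left
      (setIntegral_le_integral (s := ball z (L' * ρ)) hH (Eventually.of_forall hH0)) hA0)
    rw [← integral_const_mul]
    refine setIntegral_mono_on (h.integ z ρ hρ0).integrableOn (hH.const_mul A).integrableOn
      measurableSet_ball fun y hy => (gk_le d z hρ0 y).trans ?_
    rw [hρL, mem_ball_iff_norm] at hy
    have b1 : ‖y - p‖ ≤ (L + s₀) / 2 * 2 := by
      have := norm_sub_le_norm_sub_add_norm_sub y z p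
      linarith
    have b2 := hlow p 2 y two_pos b1
    have b3 : s₀ / 2 ≤ |⟪e, y - p⟫| := by
      have c1 := abs_real_inner_le_norm e (y - z)
      rw [he, one_mul] at c1
      have c2 : ⟪e, z - p⟫ = ⟪e, y - p⟫ - ⟪e, y - z⟫ := by
        rw [← inner_sub_right, sub_sub_sub_cancel_left]
      have c3 := abs_sub ⟪e, y - p⟫ ⟪e, y - z⟫
      rw [← c2] at c3
      linarith
    have b4 : (s₀ / 2) ^ 2 ≤ ⟪e, y - p⟫ ^ 2 := by
      rw [← sq_abs ⟪e, y - p⟫]
      exact pow_le_pow_left₀ (by positivity) b3 2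
    rw [one_pow, div_one, mul_one, hA, div_mul_eq_mul_div, le_div_iff₀ (by positivity)]
    exact mul_le_mul_of_nonneg_left (mul_le_mul b4 b2 (by positivity) (by positivity)) (by positivity)
  have a5 := htail c ε u h z ρ hρ0
  have a6 := integral_add_compl (s := ball z (L' * ρ)) measurableSet_ball (h.integ z ρ hρ0)
  have a7 := mul_le_mul_of_nonneg_left hh hA0
  unfold th at a1 a2
  linarith

end Crest.Agent.R246.B2
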