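import Crest.Agent.R246.B2.Id

/-!
# Row 246, block B2: monotonicity with a horizontal cut, the two-point lemma
-/

set_option autoImplicit false
set_option linter.unusedSectionVars false

open MeasureTheory Metric Filter Topology Set Module
open scoped RealInnerProductSpace ENNReal ContDiff Real

noncomputable section

namespace Crest.Agent.R246.B2

variable {E : Type} [NormedAddCommGroup E] [InnerProductSpace ℝ E] [FiniteDimensional ℝ E]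
  [MeasurableSpace E] [BorelSpace E]

theorem norm_sq_le_tl {w e : E} (he : ‖e‖ = 1) (hw : ‖w‖ ≤ 1) :
    ‖e - ⟪e, w⟫ • w‖ ^ 2 ≤ 1 - ⟪w, e⟫ ^ 2 := by
  have h4 : ‖w‖ ^ 2 ≤ 1 := pow_le_one₀ (norm_nonneg _) hw
  rw [norm_sub_sq_real, real_inner_smul_right, norm_smul, he, mul_pow, Real.norm_eq_abs, sq_abs,
    real_inner_comm e w]
  nlinarith [mul_le_mul_of_nonneg_left h4 (sq_nonneg ⟪w, e⟫)]

theorem cut_deriv (d : ℕ) : ∃ K : ℝ, 0 < K ∧
    ∀ (c : ℝ → ℝ) (Λ ε : ℝ) (u : E → ℝ), Dat d c Λ ε u → ∀ (e z z₀ : E) (χ : ℝ → ℝ) (A γ ρ : ℝ),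
      ‖e‖ = 1 → ContDiff ℝ 1 χ → (∀ t, 0 ≤ χ t ∧ χ t ≤ 1) → (∀ t, |deriv χ t| ≤ A) →
      0 < ρ → ρ ≤ ‖z‖ → tg d ε u e z ρ ≤ γ →
      Integrable (fun y => χ ⟪e, y - z₀⟫ * ((‖y - z‖ ^ 2 / ρ ^ 2 - d) / ρ * gk d z ρ y)) (mu ε u) →
        -(K * (A * √(γ * Λ) + Λ / ‖z‖)) ≤
          ∫ y, χ ⟪e, y - z₀⟫ * ((‖y - z‖ ^ 2 / ρ ^ 2 - d) / ρ * gk d z ρ y) ∂mu ε u := by
  obtain ⟨K, hK, h₂⟩ := gk_sq (E := E) d
  refine ⟨K + 1, by positivity, fun c Λ ε u h e z z₀ χ A γ ρ he hχ hχ1 hA hρ hρz hγ hT => ?_⟩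
  have hA0 : 0 ≤ A := (abs_nonneg _).trans (hA 0)
  have hΛ := h.Lpos
  have hG := fun y => (gk_pos d z hρ y).le
  have hγ0 : 0 ≤ γ := le_trans (integral_nonneg fun y => mul_nonneg (h.tl_nonneg he y) (hG y)) hγ
  have hw := meas_wv h.crit
  have hGm := (continuous_gk d z ρ).measurable
  have hχ' := (hχ.continuous_deriv le_rfl).measurable
  obtain ⟨i1, i2⟩ := h.fv z hρ (ψ := fun y => χ ⟪e, y - z₀⟫)
    (g := fun y => deriv χ ⟪e, y - z₀⟫ • e) (X := fun y => y - z)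
    (A := A) (B := 1) (C := K * ρ) (r := 2 * ρ)
    (hχ.comp (contDiff_const.inner ℝ (contDiff_id.sub contDiff_const)))
    (fun y => by
      rw [hasGradientAt_iff_hasFDerivAt, map_smul]
      have h1 : HasFDerivAt (fun y : E => ⟪e, y - z₀⟫) (InnerProductSpace.toDual ℝ E e) y := by
        simp only [inner_sub_right]
        exact (InnerProductSpace.toDual ℝ E e).hasFDerivAt.sub_const _
      exact (hχ.differentiable one_ne_zero _).hasDerivAt.comp_hasFDerivAt y h1)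
    (fun y => abs_le.2 ⟨by linarith [(hχ1 ⟪e, y - z₀⟫).1], (hχ1 _).2⟩)
    (fun y => by rw [norm_smul, he, mul_one]; exact hA _) (contDiff_id.sub contDiff_const)
    (fun y => by simp)
    (fun y => by
      rw [show fderiv ℝ (fun x : E => x - z) y = _ from ((hasFDerivAt_id y).sub_const z).fderiv]
      exact ContinuousLinearMap.norm_id_le)
    (by positivity) (by linarith) (by positivity) (fun y => (h₂ z ρ y hρ).2) (fun y => rfl)
  set S : E → ℝ := fun y => deriv χ ⟪e, y - z₀⟫ * ⟪e - ⟪e, wv ε u y⟫ • wv ε u y, y - z⟫ *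
    gk d z ρ y with hS
  have hb : ∀ (t : ℝ) y, 2 * t * S y ≤
      t ^ 2 * (A * (tl ε u e y * gk d z ρ y)) + A * (K * ρ ^ 2) * gk d z (2 * ρ) y := fun t y => by
    have a1 := two_inner_le t (e - ⟪e, wv ε u y⟫ • wv ε u y) (y - z)
    have a2 := mul_le_mul_of_nonneg_left (norm_sq_le_tl he (h.wv_le y)) (sq_nonneg t)
    have a3 := mul_le_mul (hA ⟪e, y - z₀⟫) (a1.trans (add_le_add a2 le_rfl)) (abs_nonneg _) hA0
    rw [← abs_mul] at a3
    have a4 := mul_le_mul_of_nonneg_right ((le_abs_self _).trans a3) (hG y)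
    have a5 := mul_le_mul_of_nonneg_left (h₂ z ρ y hρ).1 hA0
    simp only [hS, tl]
    linarith
  have j1 := (h.integrable_tl he z hρ).const_mul A
  have j2 := (h.integ z (2 * ρ) (by positivity)).const_mul (A * (K * ρ ^ 2))
  have j3 : Integrable S (mu ε u) := by
    refine (j1.add j2).mono' (Measurable.aestronglyMeasurable (by fun_prop))
      (Eventually.of_forall fun y => ?_)
    have := mul_nonneg hA0 (mul_nonneg (h.tl_nonneg he y) (hG y))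
    have b1 := hb (-1 / 2) y
    have b2 := hb (1 / 2) y
    simp only [Pi.add_apply]
    exact abs_le.2 ⟨by linarith, by linarith⟩
  have k := cs (P := A * γ) (Q := A * (K * ρ ^ 2) * Λ) j3 j1 j2 hb
    (by rw [integral_const_mul]; exact mul_le_mul_of_nonneg_left hγ hA0)
    (by
      rw [integral_const_mul]
      exact mul_le_mul_of_nonneg_left (h.upper z _ (by positivity)) (by positivity))
  have k2 : √(A * γ * (A * (K * ρ ^ 2) * Λ)) ≤ (K + 1) * (A * √(γ * Λ)) * ρ := by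
    rw [Real.sqrt_le_iff, mul_pow, mul_pow, mul_pow, Real.sq_sqrt (by positivity)]
    refine ⟨by positivity, ?_⟩
    have : 0 ≤ (K ^ 2 + K + 1) * (A ^ 2 * (γ * Λ)) * ρ ^ 2 := by positivity
    linarith
  have m := integral_mono (j3.sub i1) (hT.const_mul ρ) fun y => by
    have w1 : ‖wv ε u y‖ ^ 2 ≤ 1 := pow_le_one₀ (norm_nonneg _) (h.wv_le y)
    have p1 := mul_nonneg (mul_nonneg (hG y) (hχ1 ⟪e, y - z₀⟫).1) (sub_nonneg.2 w1)
    have p2 := mul_nonneg (mul_nonneg (hG y) (hχ1 ⟪e, y - z₀⟫).1)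
      (div_nonneg (sq_nonneg ⟪wv ε u y, y - z⟫) (sq_nonneg ρ))
    simp only [Pi.sub_apply, hS, divT_sub_const, h.dim, inner_sub_left e, real_inner_smul_left,
      real_inner_self_eq_norm_sq, real_inner_comm (wv ε u y) (y - z)]
    refine le_of_sub_nonneg ((add_nonneg p1 p2).trans_eq ?_)
    push_cast
    field_simp
    ring
  simp only [Pi.sub_apply] at m
  rw [integral_sub j3 i1, integral_const_mul] at m
  refine le_of_mul_le_mul_left (le_trans ?_ m) hρ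
  have q1 := (abs_le.1 (k.trans k2)).1
  have q2 := (abs_le.1 i2).2
  have : 0 ≤ ρ * (Λ / ‖z‖) := by positivity
  linarith

/-- `gk b - gk a = ∫_a^b ∂_ρ gk` (`hasDerivAt_gk`), Fubini; `ident` for
`X = χ(⟪e,·-z₀⟫) gk z ρ • (· - z)`:
`∫χ(|y-z|²/ρ² - d)G = ∫χ((1-|w|²) + ⟪w,y-z⟫²/ρ²)G + ∫χ'G⟪e - ⟪w,e⟫w, y-z⟫
  - ∫(1-|w|²)χG⟪y-z,y⟫/|y|²`, `|e - ⟪w,e⟫w|² ≤ tl`, Cauchy–Schwarz, `gk_sq`, `inv` at `2ρ`. -/
theorem cut_mono (d : ℕ) : ∃ K : ℝ, 0 < K ∧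
    ∀ (c : ℝ → ℝ) (Λ ε : ℝ) (u : E → ℝ), Dat d c Λ ε u → ∀ (e z z₀ : E) (χ : ℝ → ℝ) (A γ a b : ℝ),
      ‖e‖ = 1 → ContDiff ℝ 1 χ → (∀ t, 0 ≤ χ t ∧ χ t ≤ 1) → (∀ t, |deriv χ t| ≤ A) →
      0 < a → a ≤ b → b ≤ ‖z‖ → (∀ ρ ∈ Icc a b, tg d ε u e z ρ ≤ γ) →
        ∫ y, χ ⟪e, y - z₀⟫ * gk d z a y ∂mu ε u ≤
          ∫ y, χ ⟪e, y - z₀⟫ * gk d z b y ∂mu ε u + K * (A * b * √(γ * Λ) + Λ * (b / ‖z‖)) := by
  obtain ⟨K, hK, hK'⟩ := cut_deriv (E := E) d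
  refine ⟨K, hK, fun c Λ ε u h e z z₀ χ A γ a b he hχ hχ1 hA ha hab hb hγ => ?_⟩
  obtain ⟨C, hC, hC'⟩ := C1.gk_dom (E := E) d 2 (2 * b) ‖z‖ (half_pos ha)
  have hA0 : 0 ≤ A := (abs_nonneg _).trans (hA 0)
  have hΛ := h.Lpos
  have hc : Continuous fun y : E => χ ⟪e, y - z₀⟫ := hχ.continuous.comp (by fun_prop)
  have hn : ∀ t, ‖χ t‖ ≤ 1 := fun t => by rw [Real.norm_of_nonneg (hχ1 t).1]; exact (hχ1 t).2
  have hd : ∀ ρ ∈ Icc a b, Integrable (fun y => χ ⟪e, y - z₀⟫ *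
      ((‖y - z‖ ^ 2 / ρ ^ 2 - d) / ρ * gk d z ρ y)) (mu ε u) ∧
      HasDerivAt (fun ρ : ℝ => ∫ y, χ ⟪e, y - z₀⟫ * gk d z ρ y ∂mu ε u)
      (∫ y, χ ⟪e, y - z₀⟫ * ((‖y - z‖ ^ 2 / ρ ^ 2 - d) / ρ * gk d z ρ y) ∂mu ε u) ρ := by
    intro ρ hρ
    refine hasDerivAt_integral_of_dominated_loc_of_deriv_le (s := Ioo (a / 2) (2 * b))
      (F := fun (ρ : ℝ) y => χ ⟪e, y - z₀⟫ * gk d z ρ y)
      (F' := fun (ρ : ℝ) y => χ ⟪e, y - z₀⟫ * ((‖y - z‖ ^ 2 / ρ ^ 2 - d) / ρ * gk d z ρ y))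
      (bound := fun y => ((1 + ‖z‖) ^ 2 / (a / 2) ^ 2 + d) / (a / 2) * C * gk d 0 (2 * (2 * b)) y)
      (Ioo_mem_nhds (by linarith [hρ.1]) (by linarith [hρ.2]))
      (Eventually.of_forall fun t => (hc.mul (continuous_gk _ _ _)).aestronglyMeasurable)
      ((h.integ _ _ (ha.trans_le hρ.1)).bdd_mul hc.aestronglyMeasurable
        (Eventually.of_forall fun y => hn _))
      (Continuous.aestronglyMeasurable (by
        have := continuous_gk d z ρ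
        fun_prop)) (Eventually.of_forall fun y s hs => ?_)
      ((h.integ _ _ (by linarith)).const_mul _) (Eventually.of_forall fun y s hs =>
        (hasDerivAt_gk d z ((half_pos ha).trans hs.1) y).const_mul _)
    have hs0 := (half_pos ha).trans hs.1
    have hG := (gk_pos d z hs0 y).le
    have b1 := hC' z le_rfl s hs.1.le hs.2.le y
    have b2 : ‖y - z‖ ≤ (1 + ‖z‖) * (1 + ‖y‖) := by
      have := norm_sub_le y z
      nlinarith [norm_nonneg y, norm_nonneg z]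
    have b3 : |‖y - z‖ ^ 2 / s ^ 2 - d| ≤ ((1 + ‖z‖) ^ 2 / (a / 2) ^ 2 + d) * (1 + ‖y‖) ^ 2 := by
      refine (abs_sub _ _).trans ?_
      rw [abs_of_nonneg (by positivity), Nat.abs_cast, add_mul, div_mul_eq_mul_div, ← mul_pow]
      refine add_le_add (by gcongr; exact hs.1.le) (le_mul_of_one_le_right (by positivity) ?_)
      nlinarith [norm_nonneg y]
    rw [norm_mul, norm_mul, Real.norm_of_nonneg hG, norm_div, Real.norm_of_nonneg hs0.le,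
      mul_assoc]
    refine (mul_le_of_le_one_left (by positivity) (hn _)).trans ?_
    refine le_trans ?_ (mul_le_mul_of_nonneg_left b1 (by positivity))
    rw [← mul_assoc, div_mul_eq_mul_div _ _ ((1 + ‖y‖) ^ 2)]
    gcongr
    exacts [b3, hs.1.le]
  have m := (convex_Icc a b).mul_sub_le_image_sub_of_le_deriv
    (fun ρ hρ => (hd ρ hρ).2.continuousAt.continuousWithinAt)
    (fun ρ hρ => (hd ρ (interior_subset hρ)).2.differentiableAt.differentiableWithinAt)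
    (C := -(K * (A * √(γ * Λ) + Λ / ‖z‖))) (fun ρ hρ => by
      have hρ' := interior_subset hρ
      rw [(hd ρ hρ').2.deriv]
      exact hK' c Λ ε u h e z z₀ χ A γ ρ he hχ hχ1 hA (ha.trans_le hρ'.1) (hρ'.2.trans hb)
        (hγ ρ hρ') (hd ρ hρ').1) a (left_mem_Icc.2 hab) b (right_mem_Icc.2 hab) hab
  have : 0 ≤ K * (A * √(γ * Λ) + Λ / ‖z‖) * a := by positivity
  have e1 : K * (A * b * √(γ * Λ) + Λ * (b / ‖z‖)) = K * (A * √(γ * Λ) + Λ / ‖z‖) * b := by ring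
  linarith

theorem cutb_st : ∃ A : ℝ, 0 ≤ A ∧ ∀ t, |deriv Real.smoothTransition t| ≤ A := by
  have hc : Continuous (deriv Real.smoothTransition) :=
    (Real.smoothTransition.contDiff (n := 1)).continuous_deriv le_rfl
  obtain ⟨C, hC⟩ := isCompact_Icc.exists_bound_of_continuousOn (s := Icc (0 : ℝ) 1) hc.continuousOn
  refine ⟨max C 0, le_max_right _ _, fun r => ?_⟩
  by_cases h1 : r < 0
  · have : Real.smoothTransition =ᶠ[𝓝 r] fun _ => 0 := by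
      filter_upwards [Iio_mem_nhds h1] with y hy using Real.smoothTransition.zero_of_nonpos (le_of_lt hy)
    rw [this.deriv_eq]; simp
  by_cases h2 : 1 < r
  · have : Real.smoothTransition =ᶠ[𝓝 r] fun _ => 1 := by
      filter_upwards [Ioi_mem_nhds h2] with y hy using Real.smoothTransition.one_of_one_le (le_of_lt hy)
    rw [this.deriv_eq]; simp
  · exact (hC r ⟨not_lt.1 h1, not_lt.1 h2⟩).trans (le_max_left _ _)

theorem cutb_chi : ∃ A : ℝ, 0 ≤ A ∧ ∀ ℓ : ℝ, ℓ ≠ 0 → ∃ χ : ℝ → ℝ, ContDiff ℝ 1 χ ∧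
    (∀ t, 0 ≤ χ t ∧ χ t ≤ 1) ∧ (∀ t, |deriv χ t| ≤ A / |ℓ|) ∧ (∀ t, |t| ≤ |ℓ| / 3 → χ t = 0) ∧
    ∀ t, |t| ≤ |ℓ| / 3 → χ (t + ℓ) = 1 := by
  obtain ⟨A, hA, hA'⟩ := cutb_st
  refine ⟨3 * A, by positivity, fun ℓ hℓ => ⟨fun t => Real.smoothTransition (3 * t / ℓ - 1),
    Real.smoothTransition.contDiff.comp (by fun_prop),
    fun t => ⟨Real.smoothTransition.nonneg _, Real.smoothTransition.le_one _⟩, fun t => ?_,
    fun t ht => ?_, fun t ht => ?_⟩⟩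
  · have h1 : HasDerivAt (fun t : ℝ => 3 * t / ℓ - 1) (3 * 1 / ℓ) t :=
      (((hasDerivAt_id t).const_mul 3).div_const ℓ).sub_const 1
    have h2 := (((Real.smoothTransition.contDiff (n := 1)).differentiable one_ne_zero)
      (3 * t / ℓ - 1)).hasDerivAt.comp t h1
    rw [show (fun t => Real.smoothTransition (3 * t / ℓ - 1)) =
      Real.smoothTransition ∘ fun t : ℝ => 3 * t / ℓ - 1 from rfl, h2.deriv, abs_mul, abs_div, mul_one,
      abs_of_pos (by norm_num : (0 : ℝ) < 3)]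
    have := mul_le_mul_of_nonneg_right (hA' (3 * t / ℓ - 1)) (by positivity : 0 ≤ 3 / |ℓ|)
    refine this.trans (le_of_eq ?_)
    ring
  · refine Real.smoothTransition.zero_of_nonpos ?_
    have h1 : |3 * t / ℓ| ≤ 1 := by
      rw [abs_div, abs_mul, abs_of_pos (by norm_num : (0 : ℝ) < 3), div_le_one (abs_pos.2 hℓ)]
      linarith
    linarith [(abs_le.1 h1).2]
  · refine Real.smoothTransition.one_of_one_le ?_
    have h1 : |3 * t / ℓ| ≤ 1 := by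
      rw [abs_div, abs_mul, abs_of_pos (by norm_num : (0 : ℝ) < 3), div_le_one (abs_pos.2 hℓ)]
      linarith
    have e : 3 * (t + ℓ) / ℓ = 3 * t / ℓ + 3 := by field_simp
    linarith [(abs_le.1 h1).1]

theorem cutb_int {μ : Measure E} {g φ : E → ℝ} (hg : Integrable g μ) (hφ : Continuous φ)
    (h01 : ∀ y, 0 ≤ φ y ∧ φ y ≤ 1) : Integrable (fun y => φ y * g y) μ :=
  hg.bdd_mul (c := 1) hφ.aestronglyMeasurable (Eventually.of_forall fun y => by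
    rw [Real.norm_of_nonneg (h01 y).1]; exact (h01 y).2)

theorem cutb_low {μ : Measure E} {g φ : E → ℝ} (hg : Integrable g μ) (hg0 : ∀ y, 0 ≤ g y)
    (hφ : Continuous φ) (h01 : ∀ y, 0 ≤ φ y ∧ φ y ≤ 1) {S : Set E} (hS : MeasurableSet S)
    (h1 : ∀ y ∈ S, φ y = 1) : ∫ y in S, g y ∂μ ≤ ∫ y, φ y * g y ∂μ := by
  rw [setIntegral_congr_fun hS (g := fun y => φ y * g y) fun y hy => by simp only [h1 y hy, one_mul]]
  exact setIntegral_le_integral (cutb_int hg hφ h01)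
    (Eventually.of_forall fun y => mul_nonneg (h01 y).1 (hg0 y))

set_option maxHeartbeats 800000 in

/-- `χ₁ t = 1 - smoothTransition (3 t/ℓ - 1)`, `χ₂ = 1 - χ₁` (`z₀ = z`), `cut_mono` from `a_i` to
`θ ρ`, `ρ = M|ℓ|` with `M = max 2 (1/s)` from `gk_shift`, which compares both kernels with
`gk z ρ`. -/
theorem two (d : ℕ) (Λ : ℝ) {η : ℝ} (hη : 0 < η) : ∃ M γ δ : ℝ, 1 ≤ M ∧ 0 < γ ∧ 0 < δ ∧
    ∀ (c : ℝ → ℝ) (ε : ℝ) (u : E → ℝ), Dat d c Λ ε u → ∀ (e z : E) (ℓ a₁ a₂ : ℝ), ‖e‖ = 1 →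
      ℓ ≠ 0 → 0 < a₁ → a₁ ≤ |ℓ| → 0 < a₂ → a₂ ≤ |ℓ| → M * |ℓ| ≤ δ * ‖z‖ →
      Good d ε u e γ (M * |ℓ|) z → Good d ε u e γ (M * |ℓ|) (z + ℓ • e) →
      1 - η ≤ ∫ y in ball z (|ℓ| / 3), gk d z a₁ y ∂mu ε u →
      1 - η ≤ ∫ y in ball (z + ℓ • e) (|ℓ| / 3), gk d (z + ℓ • e) a₂ y ∂mu ε u →
        2 - 5 * η ≤ th d (mu ε u) z (M * |ℓ|) := by
  by_cases hΛ : 0 < Λ
  swap
  · exact ⟨1, 1, 1, le_rfl, one_pos, one_pos, fun c ε u h => absurd h.Lpos hΛ⟩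
  obtain ⟨K, hK, hK'⟩ := cut_mono (E := E) d
  obtain ⟨A, hA, hA'⟩ := cutb_chi
  obtain ⟨θ, s, hθ, hθ1, hs, hsh⟩ := gk_shift (E := E) d (half_pos hη)
  obtain ⟨M, hM2, hMs⟩ : ∃ M : ℝ, 2 ≤ M ∧ 1 ≤ s * M :=
    ⟨max 2 (1 / s), le_max_left _ _, by
      have := mul_le_mul_of_nonneg_left (le_max_right 2 (1 / s)) hs.le
      rwa [mul_one_div_cancel hs.ne'] at this⟩
  have hM0 : 0 < M := by linarith
  obtain ⟨κ, hκ, hκ'⟩ : ∃ κ : ℝ, 0 < κ ∧ K * (A * M * κ) ≤ η / 2 :=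
    ⟨η / (2 * K * (A * M + 1)), by positivity, by
      rw [← mul_div_assoc, ← mul_div_assoc, div_le_div_iff₀ (by positivity) (by norm_num)]
      nlinarith [mul_pos hK hη]⟩
  obtain ⟨δ, hδ, hδ1, hδ'⟩ : ∃ δ : ℝ, 0 < δ ∧ δ ≤ 1 / 2 ∧ K * (Λ * (2 * δ)) ≤ η / 2 :=
    ⟨min (1 / 2) (η / (4 * K * Λ)), by positivity, min_le_left _ _, by
      have := min_le_right (1 / 2) (η / (4 * K * Λ))
      rw [le_div_iff₀ (by positivity)] at this
      linarith⟩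
  refine ⟨M, κ ^ 2 / Λ, δ, by linarith, by positivity, hδ,
    fun c ε u h e z ℓ a₁ a₂ he hℓ ha₁ ha₁' ha₂ ha₂' hz g₁ g₂ l₁ l₂ => ?_⟩
  obtain ⟨χ, hχ, h01, hχ', hχ0, hχ1⟩ := hA' ℓ hℓ
  have hl : 0 < |ℓ| := abs_pos.2 hℓ
  have hsq : √(κ ^ 2 / Λ * Λ) = κ := by rw [div_mul_cancel₀ _ hΛ.ne', Real.sqrt_sq hκ.le]
  have hρ : 0 < M * |ℓ| := by positivity
  have hb1 : |ℓ| ≤ θ * (M * |ℓ|) := by nlinarith [mul_le_mul hθ hM2 (by norm_num) (by linarith)]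
  have hb2 : θ * (M * |ℓ|) ≤ M * |ℓ| := by nlinarith
  have hb0 : 0 < θ * (M * |ℓ|) := by linarith
  have hz0 : 0 < ‖z‖ := by
    by_contra hn
    nlinarith [norm_nonneg z]
  have hle : ‖ℓ • e‖ = |ℓ| := by rw [norm_smul, he, mul_one, Real.norm_eq_abs]
  have hz' : ‖z‖ / 2 ≤ ‖z + ℓ • e‖ := by
    have h1 := norm_sub_le (z + ℓ • e) (ℓ • e)
    rw [add_sub_cancel_right, hle] at h1
    nlinarith
  have err : ∀ p : E, ‖z‖ / 2 ≤ ‖p‖ → θ * (M * |ℓ|) ≤ ‖p‖ ∧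
      K * (A / |ℓ| * (θ * (M * |ℓ|)) * √(κ ^ 2 / Λ * Λ) + Λ * (θ * (M * |ℓ|) / ‖p‖)) ≤ η := by
    intro p hp
    have h1 : θ * (M * |ℓ|) / ‖p‖ ≤ 2 * δ := by
      rw [div_le_iff₀ (by linarith)]; nlinarith
    have h2 : A / |ℓ| * (θ * (M * |ℓ|)) ≤ A * M := by
      have := mul_le_mul_of_nonneg_left hb2 (by positivity : 0 ≤ A / |ℓ|)
      refine this.trans (le_of_eq ?_)
      field_simp
    refine ⟨by nlinarith, ?_⟩
    rw [hsq]
    have h3 := mul_le_mul_of_nonneg_left (mul_le_mul_of_nonneg_right h2 hκ.le) hK.le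
    have h4 := mul_le_mul_of_nonneg_left (mul_le_mul_of_nonneg_left h1 hΛ.le) hK.le
    linarith
  have hin : ∀ p y : E, y ∈ ball p (|ℓ| / 3) → |⟪e, y - p⟫| ≤ |ℓ| / 3 := fun p y hy => by
    have := abs_real_inner_le_norm e (y - p)
    rw [he, one_mul] at this
    rw [mem_ball, dist_eq_norm] at hy
    linarith
  have c₂ : Continuous fun y : E => χ ⟪e, y - z⟫ := hχ.continuous.comp (by fun_prop)
  have c₁ : Continuous fun y : E => 1 - χ ⟪e, y - z⟫ := continuous_const.sub c₂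
  have h01' : ∀ t, 0 ≤ 1 - χ t ∧ 1 - χ t ≤ 1 := fun t => ⟨by linarith [(h01 t).2], by linarith [(h01 t).1]⟩
  have m₁ := hK' c Λ ε u h e z z (fun t => 1 - χ t) (A / |ℓ|) (κ ^ 2 / Λ) a₁ (θ * (M * |ℓ|)) he
    (contDiff_const.sub hχ) h01' (fun t => by rw [deriv_const_sub, abs_neg]; exact hχ' t) ha₁
    (ha₁'.trans hb1) (err z (by linarith)).1 fun ρ hρ => g₁ ρ (ha₁.trans_le hρ.1) (hρ.2.trans hb2)
  have m₂ := hK' c Λ ε u h e (z + ℓ • e) z χ (A / |ℓ|) (κ ^ 2 / Λ) a₂ (θ * (M * |ℓ|)) he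
    hχ h01 hχ' ha₂ (ha₂'.trans hb1) (err _ hz').1 fun ρ hρ => g₂ ρ (ha₂.trans_le hρ.1) (hρ.2.trans hb2)
  have n₁ := cutb_low (h.integ z a₁ ha₁) (fun y => (gk_pos d z ha₁ y).le) c₁ (fun y => h01' _)
    (S := ball z (|ℓ| / 3)) measurableSet_ball fun y hy => by rw [hχ0 _ (hin z y hy), sub_zero]
  have n₂ := cutb_low (h.integ (z + ℓ • e) a₂ ha₂) (fun y => (gk_pos d _ ha₂ y).le) c₂ (fun y => h01 _)
    (S := ball (z + ℓ • e) (|ℓ| / 3)) measurableSet_ball fun y hy => by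
      have e1 : ⟪e, y - z⟫ = ⟪e, y - (z + ℓ • e)⟫ + ℓ := by
        rw [show y - z = y - (z + ℓ • e) + ℓ • e by abel, inner_add_right, real_inner_smul_right,
          real_inner_self_eq_norm_sq, he]
        ring
      rw [e1, hχ1 _ (hin _ y hy)]
  have i₁ := cutb_int (h.integ z _ hb0) c₁ fun y => h01' _
  have i₂ := cutb_int (h.integ (z + ℓ • e) _ hb0) c₂ fun y => h01 _
  have up := integral_mono (i₁.add i₂) ((h.integ z _ hρ).const_mul (1 + η / 2)) fun y => by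
    have s₁ := hsh z z _ y hρ (by rw [sub_self, norm_zero]; positivity)
    have s₂ := hsh (z + ℓ • e) z _ y hρ (by rw [add_sub_cancel_left, hle]; nlinarith)
    have t₁ := mul_le_mul_of_nonneg_left s₁ (h01' ⟪e, y - z⟫).1
    have t₂ := mul_le_mul_of_nonneg_left s₂ (h01 ⟪e, y - z⟫).1
    simp only [Pi.add_apply]
    linarith
  simp only [Pi.add_apply] at up
  rw [integral_add i₁ i₂, integral_const_mul] at up
  have e₁ := (err z (by linarith)).2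
  have e₂ := (err _ hz').2
  have fin : 2 - 4 * η ≤ (1 + η / 2) * th d (mu ε u) z (M * |ℓ|) := by
    unfold th
    linarith
  by_contra hn
  nlinarith [mul_pos hη hη, mul_lt_mul_of_pos_left (not_le.1 hn) (by positivity : 0 < 1 + η / 2)]

end Crest.Agent.R246.B2
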