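import Crest.Agent.R246.Fub

/-!
# Row 246, block B2 (quantisation): definitions
-/

set_option autoImplicit false
set_option linter.unusedSectionVars false

open MeasureTheory Metric Filter Topology Set Module
open scoped RealInnerProductSpace ENNReal ContDiff Real

noncomputable section

namespace Crest.Agent.R246.B2

variable {E : Type} [NormedAddCommGroup E] [InnerProductSpace ℝ E] [FiniteDimensional ℝ E]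
  [MeasurableSpace E] [BorelSpace E]

/-- energy measure -/
abbrev mu (ε : ℝ) (u : E → ℝ) : Measure E := (vA ε u).fst

/-- tilt density (contains the discrepancy) -/
def tl (ε : ℝ) (u : E → ℝ) (e y : E) : ℝ := 1 - ⟪wv ε u y, e⟫ ^ 2

/-- Gaussian tilt excess -/
def tg (d : ℕ) (ε : ℝ) (u : E → ℝ) (e z : E) (ρ : ℝ) : ℝ :=
  ∫ y, tl ε u e y * gk d z ρ y ∂mu ε u

/-- what `StAC` says about one critical point -/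
structure Dat (d : ℕ) (c : ℝ → ℝ) (Λ ε : ℝ) (u : E → ℝ) : Prop where
  dim : finrank ℝ E = d + 1
  two : 2 ≤ d
  cpos : ∀ τ, 0 < τ → 0 < c τ
  pos : 0 < ε
  le1 : ε ≤ 1
  Lpos : 0 < Λ
  crit : Crit ε u
  modica : ∀ y, ε ^ 2 * ‖y‖ ^ 2 * ‖gradient u y‖ ^ 2 ≤ 2 * W (u y)
  wv_le : ∀ y, ‖wv ε u y‖ ≤ 1
  integ : ∀ p r, 0 < r → Integrable (gk d p r) (mu ε u)
  integ' : ∀ p r, 0 < r → Integrable (fun y => gk d p r y / ‖y‖) (mu ε u)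
  ident : ∀ (X : E → E) (L r : ℝ), 0 < r → ContDiff ℝ 1 X → (∀ y, ‖X y‖ ≤ L * gk d 0 r y) →
    (∀ y, ‖fderiv ℝ X y‖ ≤ L * gk d 0 r y) →
    ∫ z, divT X z ∂vA ε u = ∫ z, (1 - ‖z.2‖ ^ 2) * ⟪X z.1, z.1⟫ / ‖z.1‖ ^ 2 ∂vA ε u
  upper : ∀ p r, 0 < r → th d (mu ε u) p r ≤ Λ
  inv : ∀ p r, 0 < r → r ≤ 2 * ‖p‖ → ∫ y, gk d p r y / ‖y‖ ∂mu ε u ≤ Λ / ‖p‖
  low : ∀ τ, 0 < τ → ∀ z, z ≠ 0 → τ ≤ 1 - u z ^ 2 → c τ ≤ th d (mu ε u) z (ε * ‖z‖)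
  mono : ∀ (p : E) (a b : ℝ), 0 < a → a ≤ b → b ≤ ‖p‖ →
    th d (mu ε u) p a ≤ th d (mu ε u) p b + Λ * (b / ‖p‖)

/-- small tilt at all small scales -/
def Good (d : ℕ) (ε : ℝ) (u : E → ℝ) (e : E) (γ ρ₀ : ℝ) (z : E) : Prop :=
  ∀ ρ, 0 < ρ → ρ ≤ ρ₀ → tg d ε u e z ρ ≤ γ

/-- near `z`, at scale `ε ‖z‖`, `u` is close to the heteroclinic profile in the direction `e` -/
def Prof (ε : ℝ) (u : E → ℝ) (e z : E) (R T s : ℝ) : Prop :=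
  ∃ ς t₀ : ℝ, (ς = 1 ∨ ς = -1) ∧ |t₀| ≤ T ∧ ∀ x : E, ‖x‖ ≤ R →
    |u (z + (ε * ‖z‖) • x) - ς * Real.tanh ((⟪e, x⟫ - t₀) / √2)| ≤ s

variable (E) in
/-- `StQ` at scale one -/
def StQ1 : Prop := ∀ (d : ℕ) (c : ℝ → ℝ) (Λ η : ℝ), 0 < η → ∃ δ : ℝ, 0 < δ ∧
  ∀ (ε : ℝ) (u : E → ℝ), Dat d c Λ ε u → ∀ p e : E, 1 ≤ δ * ‖p‖ → ε * ‖p‖ ≤ δ → ‖e‖ = 1 →
    hx d (mu ε u) p 1 e ≤ δ → tg d ε u e p (3 / 2) ≤ δ →
    th d (mu ε u) p 1 ≤ η ∨ 2 - η ≤ th d (mu ε u) p 1 ∨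
      (|th d (mu ε u) p 1 - 1| ≤ η ∧ u (p + e) * u (p - e) < 0)

end Crest.Agent.R246.B2
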