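import Crest.Agent.R246.B2.Bas

/-!
# Row 246, block B2: the energy away from the transition layer is small
-/

set_option autoImplicit false
set_option linter.unusedSectionVars false

open MeasureTheory Metric Filter Topology Set Module
open scoped RealInnerProductSpace ENNReal ContDiff Real

noncomputable section

namespace Crest.Agent.R246.B2

variable {E : Type} [NormedAddCommGroup E] [InnerProductSpace ℝ E] [FiniteDimensional ℝ E]
  [MeasurableSpace E] [BorelSpace E]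

/-- divergence theorem for compactly supported `C¹` fields -/
theorem fara_div {X : E → E} (h1 : ContDiff ℝ 1 X) (h2 : HasCompactSupport X) :
    ∫ y, trc (fderiv ℝ X y) = 0 := by
  have hi : ∀ v : E, Integrable fun y => fderiv ℝ X y v := fun v =>
    ((h1.continuous_fderiv one_ne_zero).clm_apply continuous_const).integrable_of_hasCompactSupport
      (h2.fderiv_apply ℝ v)
  have h0 : ∀ v : E, ∫ y, fderiv ℝ X y v = 0 := fun v => by
    have := integral_smul_fderiv_eq_neg_fderiv_smul_of_integrable (μ := (volume : Measure E))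
      (f := fun _ : E => (1 : ℝ)) (g := X) (v := v) (by simp) (by simpa using hi v)
      (by simpa using h1.continuous.integrable_of_hasCompactSupport h2)
      (fun _ _ => differentiableAt_const _) fun y _ => h1.differentiable one_ne_zero y
    simpa using this
  have e : ∀ y, trc (fderiv ℝ X y) = ∑ i, ⟪stdOrthonormalBasis ℝ E i,
      fderiv ℝ X y (stdOrthonormalBasis ℝ E i)⟫ := fun y =>
    LinearMap.trace_eq_sum_inner _ (stdOrthonormalBasis ℝ E)
  simp only [e]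
  rw [integral_finsetSum _ fun i _ => (hi _).const_inner _]
  exact Finset.sum_eq_zero fun i _ => by rw [integral_inner (hi _), h0, inner_zero_right]

theorem fara_grad {ε : ℝ} {u : E → ℝ} (h : Crit ε u) {y : E} (hy : y ≠ 0) :
    ContDiffAt ℝ 1 (gradient u) y :=
  (InnerProductSpace.toDual ℝ E).symm.contDiff.contDiffAt.comp y
    ((h.smooth.contDiffAt (isOpen_compl_singleton.mem_nhds hy)).fderiv_right (by norm_cast))

/-- weak form of the equation away from the origin (integration by parts,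
`integral_mul_fderiv_eq_neg_fderiv_mul_of_integrable` or a sum over an orthonormal basis;
extend `φ • ∇u` by zero) -/
theorem weak_eq {ε : ℝ} {u : E → ℝ} (hε : 0 < ε) (h : Crit ε u) {φ : E → ℝ} (h1 : ContDiff ℝ 1 φ)
    (h2 : HasCompactSupport φ) (h3 : (0 : E) ∉ tsupport φ) :
    ∫ y, ⟪gradient u y, gradient φ y⟫ + (u y ^ 3 - u y) / (ε ^ 2 * ‖y‖ ^ 2) * φ y = 0 := by
  have h0 : φ =ᶠ[𝓝 0] fun _ => 0 := notMem_tsupport_iff_eventuallyEq.1 h3
  have h0' : (fun y => φ y • gradient u y) =ᶠ[𝓝 0] fun _ => 0 :=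
    h0.mono fun y hy => by simp only [hy, zero_smul]
  have hX : ContDiff ℝ 1 fun y => φ y • gradient u y := contDiff_iff_contDiffAt.2 fun y => by
    rcases eq_or_ne y 0 with rfl | hy
    · exact contDiffAt_const.congr_of_eventuallyEq h0'
    · exact h1.contDiffAt.smul (fara_grad h hy)
  rw [← fara_div hX h2.smul_right]
  refine integral_congr_ae (Eventually.of_forall fun y => ?_)
  rcases eq_or_ne y 0 with rfl | hy
  · simp only [h0'.fderiv_eq, h0.gradient_eq, h0.eq_of_nhds]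
    simp [trc]
  · have e1 := h.eq y hy
    have e2 : trc ((fderiv ℝ φ y).smulRight (gradient u y)) = fderiv ℝ φ y (gradient u y) :=
      LinearMap.trace_smulRight (fderiv ℝ φ y : E →ₗ[ℝ] ℝ) _
    have e3 : ∀ (t : ℝ) (A B : E →L[ℝ] E), trc (t • A + B) = t * trc A + trc B := fun t A B => by
      simp [trc]
    have hn : 0 < ε ^ 2 * ‖y‖ ^ 2 := mul_pos (by positivity) (pow_pos (norm_pos_iff.2 hy) 2)
    simp only
    rw [fderiv_fun_smul (h1.differentiable one_ne_zero y) ((fara_grad h hy).differentiableAt one_ne_zero),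
      e3, e2, ← e1, mul_div_cancel_left₀ _ hn.ne', real_inner_comm, gradient,
      InnerProductSpace.toDual_symm_apply, add_comm, mul_comm]
    rfl

theorem band_zeta : ∃ M : ℝ, 0 ≤ M ∧ ∀ τ : ℝ, 0 < τ → τ ≤ 1 / 6 → ∃ ζ : ℝ → ℝ, ContDiff ℝ 1 ζ ∧
    ∀ t : ℝ, |t| ≤ 1 → |ζ t| ≤ 1 - t ^ 2 ∧ 0 ≤ (t ^ 3 - t) * ζ t ∧ (1 - t ^ 2 < τ → ζ t = t ^ 3 - t) ∧
      (τ ≤ 1 - t ^ 2 ∧ 1 - t ^ 2 < 2 * τ → -M ≤ deriv ζ t) ∧
      (¬(τ ≤ 1 - t ^ 2 ∧ 1 - t ^ 2 < 2 * τ) → 0 ≤ deriv ζ t) := by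
  have hS : ContDiff ℝ 1 Real.smoothTransition := Real.smoothTransition.contDiff (n := 1)
  obtain ⟨M, hM⟩ := (isCompact_Icc (a := (-1 : ℝ)) (b := 1)).exists_bound_of_continuousOn
    (hS.continuous_deriv le_rfl).continuousOn
  have hM0 : 0 ≤ M := (norm_nonneg _).trans (hM 0 (by norm_num))
  refine ⟨8 * M, by positivity, fun τ h0 h1 =>
    ⟨fun t => (t ^ 3 - t) * Real.smoothTransition (3 - 2 * ((1 - t ^ 2) / τ)), by fun_prop, fun t ht => ?_⟩⟩
  have ht2 : t ^ 2 ≤ 1 := (sq_le_one_iff_abs_le_one t).2 ht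
  set x := (1 - t ^ 2) / τ with hx
  have hd : deriv (fun t : ℝ => (t ^ 3 - t) * Real.smoothTransition (3 - 2 * ((1 - t ^ 2) / τ))) t =
      (3 * t ^ 2 - 1) * Real.smoothTransition (3 - 2 * x) -
        4 * t ^ 2 * x * deriv Real.smoothTransition (3 - 2 * x) := by
    have h2 : HasDerivAt (fun t : ℝ => 3 - 2 * ((1 - t ^ 2) / τ)) (4 * t / τ) t :=
      (((((hasDerivAt_pow 2 t).const_sub 1).div_const τ).const_mul 2).const_sub 3).congr_deriv (by
        norm_num
        ring)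
    refine (((hasDerivAt_pow 3 t).sub (hasDerivAt_id t)).mul
      (((hS.differentiable one_ne_zero) (3 - 2 * x)).hasDerivAt.comp t h2)).deriv.trans ?_
    simp only [Function.comp_apply, Pi.sub_apply, id, ← hx]
    rw [hx]
    norm_num
    ring
  have s0 := Real.smoothTransition.nonneg (3 - 2 * x)
  have s1 := Real.smoothTransition.le_one (3 - 2 * x)
  have lt1 : 1 - t ^ 2 < τ → 1 < 3 - 2 * x := fun h => by linarith [(div_lt_one h0).2 h]
  refine ⟨?_, by rw [← mul_assoc]; exact mul_nonneg (mul_self_nonneg _) s0, fun h => ?_, fun h => ?_, fun h => ?_⟩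
  · have e : t ^ 3 - t = -t * (1 - t ^ 2) := by ring
    rw [abs_mul, e, abs_mul, abs_neg, abs_of_nonneg s0, abs_of_nonneg (sub_nonneg.2 ht2)]
    nlinarith [mul_le_mul ht s1 s0 zero_le_one]
  · simp only [← hx]
    rw [Real.smoothTransition.one_of_one_le (lt1 h).le, mul_one]
  · have x1 : 1 ≤ x := (one_le_div h0).2 h.1
    have x2 : x < 2 := (div_lt_iff₀ h0).2 h.2
    have h3 := (le_abs_self _).trans (hM (3 - 2 * x) ⟨by linarith, by linarith⟩)
    have h4 : t ^ 2 * x ≤ 2 := by nlinarith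
    have h5 : 0 ≤ t ^ 2 * x := by positivity
    rw [hd]
    nlinarith [mul_nonneg (show 0 ≤ 3 * t ^ 2 - 1 by linarith [h.2]) s0, mul_le_mul_of_nonneg_left h3 h5,
      mul_le_mul_of_nonneg_right h4 hM0]
  · rw [hd]
    rcases lt_or_ge (1 - t ^ 2) τ with h2 | h2
    · have h3 : Real.smoothTransition =ᶠ[𝓝 (3 - 2 * x)] fun _ => 1 :=
        (lt_mem_nhds (lt1 h2)).mono fun y hy => Real.smoothTransition.one_of_one_le hy.le
      rw [h3.deriv_eq, deriv_const, mul_zero, sub_zero]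
      exact mul_nonneg (by linarith) s0
    · have x2 : 2 ≤ x := (le_div_iff₀ h0).2 (not_lt.1 fun h3 => h ⟨h2, h3⟩)
      have h3 : Real.smoothTransition =ᶠ[𝓝 (3 - 2 * x)] fun _ => 0 :=
        (gt_mem_nhds (show 3 - 2 * x < 0 by linarith)).mono fun y hy => Real.smoothTransition.zero_of_nonpos hy.le
      rw [h3.deriv_eq, deriv_const, h3.eq_of_nhds]
      simp

theorem band_bump {L : ℝ} (hL : 0 < L) : ∃ N : ℝ, 0 ≤ N ∧ ∀ p : E, ∃ φ : E → ℝ, ContDiff ℝ 1 φ ∧
    (∀ y, 0 ≤ φ y ∧ φ y ≤ 1) ∧ (∀ y ∈ ball p L, φ y = 1) ∧ tsupport φ ⊆ closedBall p (3 / 2 * L) ∧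
      ∀ y, ‖fderiv ℝ φ y‖ ≤ N := by
  let χ : ContDiffBump (0 : E) := ⟨L, 3 / 2 * L, hL, by linarith⟩
  have h1 : ContDiff ℝ 1 χ := χ.contDiff (n := 1)
  obtain ⟨N, hN⟩ := (χ.hasCompactSupport.fderiv ℝ).exists_bound_of_continuous (h1.continuous_fderiv one_ne_zero)
  refine ⟨N, (norm_nonneg _).trans (hN 0), fun p => ⟨fun y => χ (y - p), h1.comp (by fun_prop),
    fun y => ⟨χ.nonneg, χ.le_one⟩, fun y hy => χ.one_of_mem_closedBall ?_,
    closure_minimal (fun y hy => ?_) isClosed_closedBall, fun y => ?_⟩⟩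
  · rw [mem_closedBall_zero_iff]
    exact (mem_ball_iff_norm.1 hy).le
  · have h2 : y - p ∈ Function.support χ := hy
    rw [χ.support_eq, mem_ball_zero_iff] at h2
    exact mem_closedBall_iff_norm.2 h2.le
  · rw [fderiv_comp_sub]
    exact hN _

theorem band_i {a b g z f M w : ℝ} (ha : 0 < a) (hb : 0 ≤ b) (h : b ≤ 2 * a) (hM : 0 ≤ M) (hz : -M ≤ z)
    (h0 : 0 ≤ f) (h1 : f ≤ 1) (hw : 0 ≤ w) : -(4 * M * (a * g ^ 2 / 2 + w / a)) ≤ b * (f * (z * g ^ 2)) := by
  have h2 : 0 ≤ M * (w / a) := by positivity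
  have h3 : b * f ≤ 2 * a := by nlinarith
  have h4 : 0 ≤ b * f * g ^ 2 := by positivity
  nlinarith [mul_le_mul_of_nonneg_left hz h4, mul_le_mul_of_nonneg_left h3 (mul_nonneg hM (sq_nonneg g))]

theorem band_ii {a b g z s D N : ℝ} (ha : 0 < a) (hb : 0 ≤ b) (hN : 0 ≤ N) (hz : |z| ≤ s)
    (hD : |D| ≤ N * g) : -(2 * N * b * (a * g ^ 2 / 2 + s ^ 2 / 4 / a)) ≤ b * (z * D) := by
  have h1 : |z * D| ≤ s * (N * g) := by
    rw [abs_mul]
    exact mul_le_mul hz hD (abs_nonneg _) ((abs_nonneg _).trans hz)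
  have h2 : s * g ≤ 2 * (a * g ^ 2 / 2 + s ^ 2 / 4 / a) := by
    have h3 : 0 ≤ ((2 * a * g - s) ^ 2 + s ^ 2) / (4 * a) := by positivity
    have h4 : ((2 * a * g - s) ^ 2 + s ^ 2) / (4 * a) = 2 * (a * g ^ 2 / 2 + s ^ 2 / 4 / a) - s * g := by
      field_simp
      ring
    linarith
  nlinarith [mul_le_mul_of_nonneg_left (abs_le.1 h1).1 hb, mul_le_mul_of_nonneg_left h2 (mul_nonneg hN hb)]

theorem band_iii {a b t X : ℝ} (ha : 0 < a) (h : a ≤ 2 * b) (ht : 5 / 6 ≤ t ^ 2) (hX : X ≤ 2 * W t / a) :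
    5 / 6 * X ≤ b * ((t ^ 3 - t) / a ^ 2 * (t ^ 3 - t)) := by
  have e : b * ((t ^ 3 - t) / a ^ 2 * (t ^ 3 - t)) = 2 * b / a * t ^ 2 * (2 * W t / a) := by
    unfold W
    field_simp
    ring
  have h1 : 1 ≤ 2 * b / a := (one_le_div ha).2 h
  have h2 : 0 ≤ 2 * W t / a := div_nonneg (mul_nonneg zero_le_two (W_nonneg t)) ha.le
  rw [e]
  nlinarith [mul_le_mul_of_nonneg_right (show 5 / 6 ≤ 2 * b / a * t ^ 2 by nlinarith) h2]

theorem band_real {ε : ℝ} {u : E → ℝ} (h : Crit ε u) (hε : 0 < ε) {S : Set E} (hS : MeasurableSet S) :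
    (mu ε u).real S = ∫ y, S.indicator (ed ε u) y := by
  rw [← integral_indicator_one hS, integral_mu h hε]
  refine integral_congr_ae (Eventually.of_forall fun y => ?_)
  by_cases hy : y ∈ S <;> simp [hy]

/-- One band.  Test with `ζ(u) φ`, `φ` a bump (`1` on `ball p L`, support in `ball p (2L)`, a
translate of a fixed `ContDiffBump`), `ζ = W' χ`, `χ t = 1 - smoothTransition ((1-t²)/τ - 1)`;
`ζ' = W''χ + W'χ'`, `W'' ≥ 1` and `W'² ≥ 2W` where `χ ≠ 0` (`τ ≤ 1/6`), `|W'χ'| ≤ K` supported in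
the band; multiply by `ε‖p‖`; `‖y‖/‖p‖ ∈ [1/2, 2]`; `|W'||∇u| ≤ K ed`. -/
theorem band (d : ℕ) (Λ : ℝ) {L : ℝ} (hL : 0 < L) : ∃ K : ℝ, 0 < K ∧
    ∀ (c : ℝ → ℝ) (ε : ℝ) (u : E → ℝ), Dat d c Λ ε u → ∀ p : E, 4 * L ≤ ‖p‖ →
      ∀ τ : ℝ, 0 < τ → τ ≤ 1 / 6 →
        (mu ε u).real (ball p L ∩ {y | 1 - u y ^ 2 < τ}) ≤
          K * ((mu ε u).real (ball p (2 * L) ∩ {y | τ ≤ 1 - u y ^ 2 ∧ 1 - u y ^ 2 < 2 * τ}) +
            ε * ‖p‖) := by
  obtain ⟨M, hM, hζ⟩ := band_zeta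
  obtain ⟨N, hN, hφ⟩ := band_bump (E := E) hL
  obtain ⟨K₀, hK₀, hball⟩ := mu_ball (E := E) d
  refine ⟨5 * M + 3 * N * (K₀ * |Λ| * (2 * L) ^ d) + 1, by positivity, fun c ε u h p hp τ h0 h1 => ?_⟩
  obtain ⟨ζ, hζ1, hζ2⟩ := hζ τ h0 h1
  obtain ⟨φ, hφ1, hφ2, hφ3, hφ4, hφ5⟩ := hφ p
  have hε := h.pos
  have hσ := sig_pos
  have hn : ∀ y ∈ closedBall p (2 * L), ‖p‖ ≤ 2 * ‖y‖ ∧ ‖y‖ ≤ 2 * ‖p‖ ∧ y ≠ 0 := fun y hy => by
    have h2 := abs_le.1 ((abs_norm_sub_norm_le y p).trans (mem_closedBall_iff_norm.1 hy))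
    exact ⟨by linarith [h2.1], by linarith [h2.2], norm_pos_iff.1 (by linarith [h2.1])⟩
  have hu : ∀ y : E, y ≠ 0 → ContDiffAt ℝ 1 u y := fun y hy =>
    (h.crit.smooth.contDiffAt (isOpen_compl_singleton.mem_nhds hy)).of_le (by simp)
  have hs : tsupport (fun y => ζ (u y) * φ y) ⊆ closedBall p (3 / 2 * L) := tsupport_mul_subset_right.trans hφ4
  have hs' : closedBall p (3 / 2 * L) ⊆ ball p (2 * L) := closedBall_subset_ball (by linarith)
  have hψ : ContDiff ℝ 1 fun y => ζ (u y) * φ y := contDiff_iff_contDiffAt.2 fun y => by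
    by_cases hy : y ∈ tsupport fun y => ζ (u y) * φ y
    · exact (hζ1.contDiffAt.comp y (hu y (hn y (ball_subset_closedBall (hs' (hs hy)))).2.2)).mul hφ1.contDiffAt
    · exact (contDiffAt_const (c := 0)).congr_of_eventuallyEq (notMem_tsupport_iff_eventuallyEq.1 hy)
  have hw := weak_eq hε h.crit hψ ((isCompact_closedBall _ _).of_isClosed_subset (isClosed_tsupport _) hs)
    fun h2 => (hn 0 (ball_subset_closedBall (hs' (hs h2)))).2.2 rfl
  set I : E → ℝ := fun y => ⟪gradient u y, gradient (fun y => ζ (u y) * φ y) y⟫ +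
    (u y ^ 3 - u y) / (ε ^ 2 * ‖y‖ ^ 2) * (ζ (u y) * φ y) with hI
  have I0 : ∀ y, y ∉ ball p (2 * L) → I y = 0 := fun y hy => by
    have h2 : (fun y => ζ (u y) * φ y) =ᶠ[𝓝 y] fun _ => 0 :=
      notMem_tsupport_iff_eventuallyEq.1 fun h3 => hy (hs' (hs h3))
    simp only [hI, h2.gradient_eq, h2.eq_of_nhds, gradient_fun_const, inner_zero_right, mul_zero, add_zero]
  have cu : ContinuousOn u (closedBall p (2 * L)) := fun y hy =>
    (hu y (hn y hy).2.2).continuousAt.continuousWithinAt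
  have cg : ContinuousOn (gradient u) (closedBall p (2 * L)) := fun y hy =>
    ((InnerProductSpace.toDual ℝ E).symm.continuous.continuousAt.comp
      ((hu y (hn y hy).2.2).continuousAt_fderiv one_ne_zero)).continuousWithinAt
  have cψ : Continuous (gradient fun y => ζ (u y) * φ y) :=
    (InnerProductSpace.toDual ℝ E).symm.continuous.comp (hψ.continuous_fderiv one_ne_zero)
  have iI : Integrable I := by
    refine (ContinuousOn.integrableOn_compact (isCompact_closedBall p (2 * L)) ?_).integrable_of_forall_notMem_eq_zero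
      fun y hy => I0 y fun h2 => hy (ball_subset_closedBall h2)
    refine (cg.inner cψ.continuousOn).add ((((cu.pow 3).sub cu).div (by fun_prop) fun y hy => ?_).mul
      hψ.continuous.continuousOn)
    have := norm_pos_iff.2 (hn y hy).2.2
    positivity
  have ie : IntegrableOn (ed ε u) (closedBall p (2 * L)) := by
    refine ContinuousOn.integrableOn_compact (isCompact_closedBall p (2 * L)) ?_
    unfold ed W
    refine ContinuousOn.div_const (ContinuousOn.add (by fun_prop)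
      (ContinuousOn.div (by fun_prop) (by fun_prop) fun y hy => ?_)) _
    have := norm_pos_iff.2 (hn y hy).2.2
    positivity
  have mu := meas_u h.crit
  have mA : MeasurableSet (ball p L ∩ {y | 1 - u y ^ 2 < τ}) :=
    measurableSet_ball.inter (measurableSet_lt (by fun_prop) measurable_const)
  have mB : MeasurableSet (ball p (2 * L) ∩ {y | τ ≤ 1 - u y ^ 2 ∧ 1 - u y ^ 2 < 2 * τ}) :=
    measurableSet_ball.inter ((by fun_prop : Measurable fun y => 1 - u y ^ 2) (measurableSet_Ico (a := τ) (b := 2 * τ)))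
  have sA : ball p L ⊆ ball p (2 * L) := ball_subset_ball (by linarith)
  have iA := (integrable_indicator_iff mA).2
    (ie.mono_set (inter_subset_left.trans (sA.trans ball_subset_closedBall)))
  have iB := (integrable_indicator_iff mB).2 (ie.mono_set (inter_subset_left.trans ball_subset_closedBall))
  have iO := (integrable_indicator_iff measurableSet_closedBall).2 ie
  have hb : 0 ≤ ε * ‖p‖ := by positivity
  have key : ∀ y, 5 / 6 * sig * (ball p L ∩ {y | 1 - u y ^ 2 < τ}).indicator (ed ε u) y ≤ ε * ‖p‖ * I y +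
      (4 * M * sig * (ball p (2 * L) ∩ {y | τ ≤ 1 - u y ^ 2 ∧ 1 - u y ^ 2 < 2 * τ}).indicator (ed ε u) y +
        2 * N * (ε * ‖p‖) * sig * (closedBall p (2 * L)).indicator (ed ε u) y) := fun y => by
    by_cases hy : y ∈ ball p (2 * L)
    swap
    · rw [I0 y hy, indicator_of_notMem fun h2 => hy (sA h2.1), indicator_of_notMem fun h2 => hy h2.1]
      have := indicator_nonneg (s := closedBall p (2 * L)) (fun y _ => ed_nonneg (u := u) hε y) y
      simp only [mul_zero, zero_add]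
      positivity
    obtain ⟨n1, n2, n3⟩ := hn y (ball_subset_closedBall hy)
    obtain ⟨z1, z2, z3, z4, z5⟩ := hζ2 (u y) (h.crit.abs_le y)
    have ha : 0 < ε * ‖y‖ := mul_pos hε (norm_pos_iff.2 n3)
    have e1 : sig * ed ε u y = ε * ‖y‖ * ‖gradient u y‖ ^ 2 / 2 + W (u y) / (ε * ‖y‖) :=
      mul_div_cancel₀ _ hσ.ne'
    have e2 : I y = ζ (u y) * fderiv ℝ φ y (gradient u y) + φ y * (deriv ζ (u y) * ‖gradient u y‖ ^ 2) +
        (u y ^ 3 - u y) / (ε * ‖y‖) ^ 2 * (ζ (u y) * φ y) := by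
      have h2 := ((hζ1.differentiable one_ne_zero (u y)).hasDerivAt.comp_hasFDerivAt y
        ((hu y n3).differentiableAt one_ne_zero).hasFDerivAt).mul (hφ1.differentiable one_ne_zero y).hasFDerivAt
      have h3 : fderiv ℝ (fun y => ζ (u y) * φ y) y = _ := h2.fderiv
      simp only [hI]
      rw [real_inner_comm, inner_gradient_left, h3, mul_pow]
      simp only [add_apply, smul_apply, smul_eq_mul, Function.comp_apply, ← inner_gradient_left (f := u),
        real_inner_self_eq_norm_sq]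
    have b2 := band_ii (g := ‖gradient u y‖) (D := fderiv ℝ φ y (gradient u y)) ha hb hN z1
      (((fderiv ℝ φ y).le_opNorm _).trans (mul_le_mul_of_nonneg_right (hφ5 y) (norm_nonneg _)))
    have b1 : -(4 * M * sig * (ball p (2 * L) ∩ {y | τ ≤ 1 - u y ^ 2 ∧ 1 - u y ^ 2 < 2 * τ}).indicator
        (ed ε u) y) ≤ ε * ‖p‖ * (φ y * (deriv ζ (u y) * ‖gradient u y‖ ^ 2)) := by
      by_cases h2 : τ ≤ 1 - u y ^ 2 ∧ 1 - u y ^ 2 < 2 * τ
      · rw [indicator_of_mem (show y ∈ _ ∩ {y | τ ≤ 1 - u y ^ 2 ∧ 1 - u y ^ 2 < 2 * τ} from ⟨hy, h2⟩),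
          mul_assoc _ sig, e1]
        exact band_i ha hb (by nlinarith) hM (z4 h2) (hφ2 y).1 (hφ2 y).2 (W_nonneg _)
      · rw [indicator_of_notMem fun h3 => h2 h3.2, mul_zero, neg_zero]
        exact mul_nonneg hb (mul_nonneg (hφ2 y).1 (mul_nonneg (z5 h2) (sq_nonneg _)))
    have b3 : 5 / 6 * sig * (ball p L ∩ {y | 1 - u y ^ 2 < τ}).indicator (ed ε u) y ≤
        ε * ‖p‖ * ((u y ^ 3 - u y) / (ε * ‖y‖) ^ 2 * (ζ (u y) * φ y)) := by
      by_cases h2 : y ∈ ball p L ∩ {y | 1 - u y ^ 2 < τ}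
      · have h3 : 1 - u y ^ 2 < τ := h2.2
        rw [indicator_of_mem h2, hφ3 y h2.1, z3 h3, mul_one, mul_assoc]
        refine band_iii ha (by nlinarith) (by linarith) ?_
        have h4 := mul_le_mul_of_nonneg_left (h.ed_le n3) hσ.le
        rwa [mul_div_assoc', mul_div_mul_left _ _ hσ.ne'] at h4
      · rw [indicator_of_notMem h2, mul_zero, div_mul_eq_mul_div, ← mul_assoc (u y ^ 3 - u y)]
        exact mul_nonneg hb (div_nonneg (mul_nonneg z2 (hφ2 y).1) (sq_nonneg _))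
    rw [indicator_of_mem (ball_subset_closedBall hy), mul_assoc _ sig (ed ε u y), e1, e2, W]
    linarith
  have h2 := integral_mono (iA.const_mul _) ((iI.const_mul _).add ((iB.const_mul _).add (iO.const_mul _))) key
  rw [integral_add' (iI.const_mul _) ((iB.const_mul _).add (iO.const_mul _)),
    integral_add' (iB.const_mul _) (iO.const_mul _)] at h2
  simp only [integral_const_mul] at h2
  rw [hw, ← band_real h.crit hε mA, ← band_real h.crit hε mB,
    ← band_real h.crit hε measurableSet_closedBall] at h2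
  have h3 : (B2.mu ε u).real (closedBall p (2 * L)) ≤ K₀ * |Λ| * (2 * L) ^ d := by
    rw [abs_of_pos h.Lpos]
    have := h.Lpos
    exact ENNReal.toReal_le_of_le_ofReal (by positivity) (hball c Λ ε u h p _ (by positivity))
  generalize (B2.mu ε u).real (closedBall p (2 * L)) = O at h2 h3
  have h4 := measureReal_nonneg (μ := B2.mu ε u)
    (s := ball p (2 * L) ∩ {y | τ ≤ 1 - u y ^ 2 ∧ 1 - u y ^ 2 < 2 * τ})
  generalize (B2.mu ε u).real (ball p (2 * L) ∩ {y | τ ≤ 1 - u y ^ 2 ∧ 1 - u y ^ 2 < 2 * τ}) = B at h2 h4 ⊢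
  generalize (B2.mu ε u).real (ball p L ∩ {y | 1 - u y ^ 2 < τ}) = A at h2 ⊢
  have hQ : 0 ≤ K₀ * |Λ| * (2 * L) ^ d := by positivity
  generalize K₀ * |Λ| * (2 * L) ^ d = Q at h3 hQ ⊢
  generalize ε * ‖p‖ = b at h2 hb ⊢
  have h5 : 5 / 6 * A ≤ 4 * M * B + 2 * N * b * O := le_of_mul_le_mul_left (by linarith) hσ
  nlinarith [mul_le_mul_of_nonneg_left h3 (mul_nonneg hN hb), mul_nonneg hM h4, mul_nonneg hM hb,
    mul_nonneg (mul_nonneg hN hQ) h4, mul_nonneg (mul_nonneg hN hQ) hb]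

/-- pigeonhole over the disjoint bands `τ_j = τ₀ 2^{-j}`, `j < J` (`mu_ball`) -/
theorem far (d : ℕ) (Λ : ℝ) {L η : ℝ} (hL : 0 < L) (hη : 0 < η) :
    ∃ τ₁ δ : ℝ, 0 < τ₁ ∧ 0 < δ ∧
    ∀ (c : ℝ → ℝ) (ε : ℝ) (u : E → ℝ), Dat d c Λ ε u → ∀ p : E, 1 ≤ δ * ‖p‖ → ε * ‖p‖ ≤ δ →
      ∃ τ, τ₁ ≤ τ ∧ τ ≤ 1 / 6 ∧ mu ε u (ball p L ∩ {y | 1 - u y ^ 2 < τ}) ≤ ENNReal.ofReal η := by
  obtain ⟨K, hK, hb⟩ := band (E := E) d Λ hL
  obtain ⟨K', -, hm⟩ := mu_ball (E := E) d
  obtain ⟨J, hJ⟩ := exists_nat_gt (|K' * Λ * (2 * L) ^ d| / (η / (2 * K)))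
  have hJ0 : (0 : ℝ) < J := lt_of_le_of_lt (by positivity) hJ
  rw [div_lt_iff₀ (by positivity)] at hJ
  refine ⟨1 / 6 / 2 ^ J, min (η / (2 * K)) (1 / (4 * L)), by positivity, by positivity,
    fun c ε u h p h1 h2 => ?_⟩
  have h3 : 4 * L ≤ ‖p‖ := by
    have := h1.trans (mul_le_mul_of_nonneg_right (min_le_right _ _) (norm_nonneg p))
    rwa [div_mul_eq_mul_div, one_mul, le_div_iff₀ (by positivity), one_mul] at this
  have hM := hm c Λ ε u h p (2 * L) (by positivity)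
  have hfin : ∀ S ⊆ ball p (2 * L), mu ε u S ≠ ⊤ := fun S hS =>
    ((measure_mono (hS.trans ball_subset_closedBall)).trans_lt (hM.trans_lt ENNReal.ofReal_lt_top)).ne
  have hu := meas_u h.crit
  have hw : Measurable fun y => 1 - u y ^ 2 := by fun_prop
  let B : ℕ → Set E := fun j =>
    ball p (2 * L) ∩ {y | 1 / 6 / 2 ^ j ≤ 1 - u y ^ 2 ∧ 1 - u y ^ 2 < 2 * (1 / 6 / 2 ^ j)}
  have hlt : ∀ i j, i < j → Disjoint (B i) (B j) := fun i j hij => Set.disjoint_left.2 fun y hi hj => by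
    have h4 : (2 : ℝ) * (1 / 6 / 2 ^ j) ≤ 1 / 6 / 2 ^ i := by
      have h5 : (2 : ℝ) ^ (i + 1) ≤ 2 ^ j := pow_le_pow_right₀ one_le_two hij
      rw [← mul_div_assoc, div_le_div_iff₀ (by positivity) (by positivity)]
      rw [pow_succ] at h5
      linarith
    linarith [hi.2.1, hj.2.2]
  have hsum : ∑ j ∈ Finset.range J, (mu ε u).real (B j) ≤ ∑ _j ∈ Finset.range J, η / (2 * K) := by
    rw [← measureReal_biUnion_finset (fun i _ j _ hij => (lt_or_gt_of_ne hij).elim (hlt i j)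
      fun h' => (hlt j i h').symm) (fun j _ => measurableSet_ball.inter
        ((measurableSet_le measurable_const hw).inter (measurableSet_lt hw measurable_const)))
      fun j _ => hfin _ inter_subset_left, Finset.sum_const, Finset.card_range, nsmul_eq_mul]
    refine le_trans (ENNReal.toReal_le_of_le_ofReal (abs_nonneg _) ?_) hJ.le
    refine le_trans (measure_mono (iUnion₂_subset fun j _ =>
      inter_subset_left.trans ball_subset_closedBall)) (hM.trans (ENNReal.ofReal_le_ofReal (le_abs_self _)))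
  obtain ⟨j, hj, hj'⟩ := Finset.exists_le_of_sum_le
    (Finset.nonempty_range_iff.2 (Nat.cast_pos.1 hJ0).ne') hsum
  have hτ : (1 : ℝ) / 6 / 2 ^ j ≤ 1 / 6 := div_le_self (by norm_num) (one_le_pow₀ one_le_two)
  refine ⟨1 / 6 / 2 ^ j, ?_, hτ, ?_⟩
  · exact div_le_div_of_nonneg_left (by norm_num) (by positivity)
      (pow_le_pow_right₀ one_le_two (Finset.mem_range.1 hj).le)
  · rw [← ofReal_measureReal (hfin _ (inter_subset_left.trans (ball_subset_ball (by linarith))))]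
    refine ENNReal.ofReal_le_ofReal ((hb c ε u h p h3 _ (by positivity) hτ).trans ?_)
    calc K * ((mu ε u).real (B j) + ε * ‖p‖) ≤ K * (η / (2 * K) + η / (2 * K)) := by
          gcongr
          exact h2.trans (min_le_left _ _)
      _ = η := by field_simp; ring

end Crest.Agent.R246.B2
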