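import Crest.Agent.R246.B2.Ker

/-!
# Row 246, block B2: almost harmonic functions with almost unit vertical gradient
-/

set_option autoImplicit false
set_option linter.unusedSectionVars false

open MeasureTheory Metric Filter Topology Set Module
open scoped RealInnerProductSpace ENNReal ContDiff Real

noncomputable section

namespace Crest.Agent.R246.B2

variable {E : Type} [NormedAddCommGroup E] [InnerProductSpace ℝ E] [FiniteDimensional ℝ E]
  [MeasurableSpace E] [BorelSpace E]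

theorem habs_int {F : Type} [NormedAddCommGroup F] {f : E → F} {K : Set E} (hK : IsCompact K)
    (hf : ContinuousOn f K) (h0 : ∀ x, x ∉ K → f x = 0) : Integrable f :=
  (hf.integrableOn_compact hK).integrable_of_forall_notMem_eq_zero h0

theorem habs_inner_grad (f : E → ℝ) (y v : E) : ⟪gradient f y, v⟫ = fderiv ℝ f y v := by
  simp [gradient]

theorem habs_grad_zero {φ : E → ℝ} {x : E} (hx : x ∉ tsupport φ) : gradient φ x = 0 := by
  have : fderiv ℝ φ x = 0 := by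
    by_contra h
    exact hx (support_fderiv_subset ℝ h)
  simp [gradient, this]

theorem habs_cont_grad {φ : E → ℝ} (h1 : ContDiff ℝ 1 φ) : Continuous (gradient φ) :=
  (InnerProductSpace.toDual ℝ E).symm.continuous.comp (h1.continuous_fderiv one_ne_zero)

theorem habs_contDiffOn_grad {Ψ : E → ℝ} {U : Set E} (hU : IsOpen U) (hΨ : ContDiffOn ℝ 2 Ψ U) :
    ContDiffOn ℝ 1 (gradient Ψ) U :=
  (InnerProductSpace.toDual ℝ E).symm.toContinuousLinearEquiv.contDiff.comp_contDiffOn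
    (hΨ.fderiv_of_isOpen hU (by norm_num))

theorem habs_cont_trc : Continuous (trc : (E →L[ℝ] E) → ℝ) := by
  have : (trc : (E →L[ℝ] E) → ℝ) =
      fun A => ∑ i, ⟪stdOrthonormalBasis ℝ E i, A (stdOrthonormalBasis ℝ E i)⟫ := by
    funext A
    exact LinearMap.trace_eq_sum_inner _ _
  rw [this]
  fun_prop

/-- divergence theorem for a `C¹` field against a test function -/
theorem habs_div {Y : E → E} {φ : E → ℝ} {U : Set E} (hU : IsOpen U) (hY : ContDiffOn ℝ 1 Y U)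
    (h1 : ContDiff ℝ 1 φ) (h2 : HasCompactSupport φ) (h3 : tsupport φ ⊆ U) :
    ∫ x, ⟪Y x, gradient φ x⟫ + trc (fderiv ℝ Y x) * φ x = 0 := by
  set b := stdOrthonormalBasis ℝ E
  have hYc : ContinuousOn Y (tsupport φ) := hY.continuousOn.mono h3
  have hDc : ContinuousOn (fderiv ℝ Y) (tsupport φ) :=
    (hY.continuousOn_fderiv_of_isOpen hU le_rfl).mono h3
  have hφc : Continuous φ := h1.continuous
  have hφ' : Continuous (fderiv ℝ φ) := h1.continuous_fderiv one_ne_zero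
  have hz : ∀ x, x ∉ tsupport φ → φ x = 0 := fun x hx => image_eq_zero_of_notMem_tsupport hx
  have hz' : ∀ x, x ∉ tsupport φ → fderiv ℝ φ x = 0 := fun x hx => by
    by_contra h
    exact hx (support_fderiv_subset ℝ h)
  have i1 : ∀ i, Integrable fun x => fderiv ℝ φ x (b i) * ⟪b i, Y x⟫ := fun i =>
    habs_int h2 ((hφ'.clm_apply continuous_const).continuousOn.mul
      (ContinuousOn.inner (𝕜 := ℝ) continuousOn_const hYc)) fun x hx => by simp [hz' x hx]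
  have i2 : ∀ i, Integrable fun x => φ x * ⟪b i, fderiv ℝ Y x (b i)⟫ := fun i =>
    habs_int h2 (hφc.continuousOn.mul
      (ContinuousOn.inner (𝕜 := ℝ) continuousOn_const (hDc.clm_apply continuousOn_const))) fun x hx => by
        simp [hz x hx]
  have i3 : ∀ i, Integrable fun x => φ x * ⟪b i, Y x⟫ := fun i =>
    habs_int h2 (hφc.continuousOn.mul (ContinuousOn.inner (𝕜 := ℝ) continuousOn_const hYc)) fun x hx => by
      simp [hz x hx]
  have key : ∀ i, ∫ x, φ x * ⟪b i, fderiv ℝ Y x (b i)⟫ =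
      -∫ x, fderiv ℝ φ x (b i) * ⟪b i, Y x⟫ := fun i => by
    have := integral_bilinear_hasFDerivAt_right_eq_neg_left_of_integrable (μ := volume)
      (f := φ) (f' := fderiv ℝ φ) (g := fun x => ⟪b i, Y x⟫)
      (g' := fun x => (innerSL ℝ (b i)).comp (fderiv ℝ Y x)) (v := b i)
      (B := ContinuousLinearMap.mul ℝ ℝ) (i1 i) (i2 i) (i3 i)
      (fun x _ => (h1.differentiable one_ne_zero x).hasFDerivAt)
      (fun x hx => (innerSL ℝ (b i)).hasFDerivAt.comp x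
        ((hY.contDiffAt (hU.mem_nhds (h3 hx))).differentiableAt one_ne_zero).hasFDerivAt)
    exact this
  have e1 : ∀ x, ⟪Y x, gradient φ x⟫ + trc (fderiv ℝ Y x) * φ x =
      ∑ i, (fderiv ℝ φ x (b i) * ⟪b i, Y x⟫ + φ x * ⟪b i, fderiv ℝ Y x (b i)⟫) := fun x => by
    rw [Finset.sum_add_distrib, ← Finset.mul_sum, mul_comm]
    congr 1
    · rw [real_inner_comm, ← b.sum_inner_mul_inner]
      simp only [habs_inner_grad]
    · congr 1
      exact LinearMap.trace_eq_sum_inner _ _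
  simp only [e1]
  have i4 : ∀ i, Integrable fun x => fderiv ℝ φ x (b i) * ⟪b i, Y x⟫ +
      φ x * ⟪b i, fderiv ℝ Y x (b i)⟫ := fun i => (i1 i).add (i2 i)
  rw [integral_finsetSum _ fun i _ => i4 i]
  refine Finset.sum_eq_zero fun i _ => ?_
  rw [integral_add (i1 i) (i2 i), key i, add_neg_cancel]

/-- Green's identity on a ball -/
theorem green {Ψ φ : E → ℝ} {U : Set E} (hU : IsOpen U) (hΨ : ContDiffOn ℝ 2 Ψ U)
    (h1 : ContDiff ℝ 1 φ) (h2 : HasCompactSupport φ) (h3 : tsupport φ ⊆ U) :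
    ∫ x, ⟪gradient Ψ x, gradient φ x⟫ + lap Ψ x * φ x = 0 := by
  exact habs_div hU (habs_contDiffOn_grad hU hΨ) h1 h2 h3

theorem habs1_ip (f : E → ℝ) (y v : E) : ⟪gradient f y, v⟫ = fderiv ℝ f y v :=
  InnerProductSpace.toDual_symm_apply

theorem habs1_cg {f : E → ℝ} (hf : ContDiff ℝ 1 f) : Continuous (gradient f) :=
  (InnerProductSpace.toDual ℝ E).symm.continuous.comp (hf.continuous_fderiv one_ne_zero)

theorem habs1_cl {f : E → ℝ} (hf : ContDiff ℝ 2 f) : Continuous (lap f) := by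
  have h1 : ContDiff ℝ 1 (gradient f) :=
    (InnerProductSpace.toDual ℝ E).symm.contDiff.comp (hf.fderiv_right (m := 1) (by norm_num))
  exact (((LinearMap.trace ℝ E).comp (ContinuousLinearMap.coeLM ℝ)).continuous_of_finiteDimensional).comp
    (h1.continuous_fderiv one_ne_zero)

theorem habs1_ion {f : E → ℝ} (hf : Continuous f) (r : ℝ) : IntegrableOn f (ball 0 r) :=
  (hf.continuousOn.integrableOn_compact (isCompact_closedBall 0 r)).mono_set ball_subset_closedBall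

theorem habs1_dir {f k : E → ℝ} (hf : Continuous f) (hk : ContDiff ℝ 1 k) (hc : HasCompactSupport k)
    (x v : E) (t : ℝ) : HasDerivAt (fun r : ℝ => ∫ y, f y * k (x + r • v - y))
      (∫ y, f y * fderiv ℝ k (x + t • v - y) v) t := by
  have h := (hc.hasFDerivAt_convolution_right (μ := volume) (ContinuousLinearMap.mul ℝ ℝ) hf.locallyIntegrable hk
    (x + t • v)).comp_hasDerivAt t (((hasDerivAt_id' t).smul_const v).const_add x)
  rw [one_smul, convolution_precompR_apply _ hf.locallyIntegrable (hc.fderiv ℝ)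
    (hk.continuous_fderiv one_ne_zero)] at h
  exact h

theorem habs1_core {Ψ φ : E → ℝ} {e : E} {R ρ A τ : ℝ} (hR : 0 < R) (hρ : 0 ≤ ρ) (hρR : ρ < R) (he : ‖e‖ = 1)
    (hΨ : ContDiff ℝ 2 Ψ) (hc : HasCompactSupport Ψ) (hφ : ContDiff ℝ 1 φ) (hφc : HasCompactSupport φ)
    (hs : Function.support φ ⊆ ball 0 ρ) (h0 : ∀ y, 0 ≤ φ y) (h1 : ∫ y, φ y = 1)
    (hA : ∀ y, ‖φ y‖ ≤ A) (hA' : ∀ y, ‖fderiv ℝ φ y‖ ≤ A)
    (hL : ∀ y ∈ ball (0 : E) (3 * R), ‖gradient Ψ y‖ ≤ 2)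
    (hT : ∫ y in ball (0 : E) (3 * R), (‖gradient Ψ y - ⟪gradient Ψ y, e⟫ • e‖ + |lap Ψ y|) ≤ τ) :
    ∃ α : ℝ, ∀ x : E, ‖x‖ ≤ 2 * R → |Ψ x - Ψ 0 - α * ⟪e, x⟫| ≤ 4 * ρ + A * τ * (4 * R + 4 * R ^ 2) := by
  have hΨ1 : ContDiff ℝ 1 Ψ := hΨ.of_le one_le_two
  have hG := habs1_cg hΨ1
  have hl := habs1_cl hΨ
  have hD := hφ.continuous_fderiv one_ne_zero
  have hφ0 := hφ.continuous
  have hA0 : 0 ≤ A := (norm_nonneg _).trans (hA 0)
  have hτ : 0 ≤ τ := (integral_nonneg fun y => by positivity).trans hT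
  have bd : ∀ (F : E → ℝ) (c : ℝ), 0 ≤ c → (∀ y ∉ ball (0 : E) (3 * R), F y = 0) →
      (∀ y, ‖F y‖ ≤ c * (‖gradient Ψ y - ⟪gradient Ψ y, e⟫ • e‖ + |lap Ψ y|)) → ‖∫ y, F y‖ ≤ c * τ := by
    intro F c hc h1 h2
    rw [← setIntegral_eq_integral_of_forall_compl_eq_zero h1]
    refine (norm_integral_le_of_norm_le ((habs1_ion (by fun_prop) _).const_mul c)
      (Eventually.of_forall h2)).trans ?_
    rw [integral_const_mul]
    exact mul_le_mul_of_nonneg_left hT hc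
  have hz : ∀ z : E, ‖z‖ ≤ 2 * R → ∀ y ∉ ball (0 : E) (3 * R), φ (z - y) = 0 ∧ fderiv ℝ φ (z - y) = 0 := by
    intro z hz y hy
    have h2 : z - y ∉ tsupport φ := fun h => by
      have h3 := mem_closedBall_zero_iff.1 (closure_ball_subset_closedBall (closure_mono hs h))
      have h4 := norm_sub_norm_le y z
      rw [norm_sub_rev] at h4
      rw [mem_ball_zero_iff, not_lt] at hy
      linarith
    exact ⟨image_eq_zero_of_notMem_tsupport h2, fderiv_of_notMem_tsupport ℝ h2⟩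
  have swap : ∀ z v : E, ∫ y, φ y * fderiv ℝ Ψ (z - y) v = ∫ y, ⟪gradient Ψ y, v⟫ * φ (z - y) := fun z v => by
    rw [← integral_sub_left_eq_self (fun y => ⟪gradient Ψ y, v⟫ * φ (z - y)) volume z]
    simp only [sub_sub_cancel, mul_comm, habs1_ip]
  have ha : ∀ z : E, ‖z‖ ≤ 2 * R → |(∫ y, φ y * Ψ (z - y)) - Ψ z| ≤ 2 * ρ := fun z hz => by
    refine dist_convolution_le (μ := volume) (x₀ := z) (by positivity) hs h0 h1
      hΨ.continuous.aestronglyMeasurable fun x hx => ?_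
    rw [mem_ball, dist_eq_norm] at hx
    have h2 := norm_sub_norm_le x z
    rw [dist_eq_norm]
    refine ((convex_ball (0 : E) (3 * R)).norm_image_sub_le_of_norm_fderiv_le (𝕜 := ℝ) (C := 2)
      (fun y _ => hΨ1.differentiable one_ne_zero y)
      (fun y hy => ((InnerProductSpace.toDual ℝ E).symm.norm_map _).ge.trans (hL y hy))
      (mem_ball_zero_iff.2 (by linarith)) (mem_ball_zero_iff.2 (by linarith))).trans (by linarith)
  have hb : ∀ z : E, ‖z‖ ≤ 2 * R → ∀ a : E, ⟪e, a⟫ = 0 →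
      ‖∫ y, ⟪gradient Ψ y, a⟫ * φ (z - y)‖ ≤ A * ‖a‖ * τ := fun z hz' a ha => by
    refine bd _ _ (by positivity) (fun y hy => by rw [(hz z hz' y hy).1, mul_zero]) fun y => ?_
    have e1 : ⟪gradient Ψ y, a⟫ = ⟪gradient Ψ y - ⟪gradient Ψ y, e⟫ • e, a⟫ := by
      rw [inner_sub_left, real_inner_smul_left, ha, mul_zero, sub_zero]
    rw [norm_mul, e1]
    refine (mul_le_mul (norm_inner_le_norm _ _) (hA _) (norm_nonneg _) (by positivity)).trans ?_
    nlinarith [mul_nonneg (mul_nonneg hA0 (norm_nonneg a)) (abs_nonneg (lap Ψ y))]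
  have hd : ∀ z : E, ‖z‖ ≤ 2 * R → ‖∫ y, ⟪gradient Ψ y, e⟫ * fderiv ℝ φ (z - y) e‖ ≤ A * τ := fun z hz' => by
    have cs : ∀ F : E → ℝ, (∀ y ∉ ball (0 : E) (3 * R), F y = 0) → HasCompactSupport F := fun F hF =>
      HasCompactSupport.intro (isCompact_closedBall 0 (3 * R)) fun y hy =>
        hF y fun h => hy (ball_subset_closedBall h)
    have h2 := green isOpen_univ hΨ.contDiffOn (φ := fun y => φ (z - y)) (hφ.comp (f := fun y => z - y) (by fun_prop))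
      (cs _ fun y hy => (hz z hz' y hy).1) (subset_univ _)
    have e1 : ∀ y, ⟪gradient Ψ y, gradient (fun y => φ (z - y)) y⟫ = -fderiv ℝ φ (z - y) (gradient Ψ y) := fun y => by
      have h3 : HasFDerivAt (fun y => φ (z - y)) _ y :=
        (hφ.differentiable one_ne_zero (z - y)).hasFDerivAt.comp y ((hasFDerivAt_id y).const_sub z)
      rw [real_inner_comm, habs1_ip, h3.fderiv]
      simp
    simp only [e1] at h2
    have i1 : Integrable fun y => ⟪gradient Ψ y, e⟫ * fderiv ℝ φ (z - y) e :=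
      Continuous.integrable_of_hasCompactSupport (by fun_prop) (cs _ fun y hy => by simp [(hz z hz' y hy).2])
    have i2 : Integrable fun y => -fderiv ℝ φ (z - y) (gradient Ψ y) + lap Ψ y * φ (z - y) :=
      Continuous.integrable_of_hasCompactSupport (by fun_prop) (cs _ fun y hy => by simp [hz z hz' y hy])
    rw [← add_zero (∫ y, _), ← h2, ← integral_add i1 i2]
    refine bd _ _ hA0 (fun y hy => by simp [hz z hz' y hy]) fun y => ?_
    have e2 : ⟪gradient Ψ y, e⟫ * fderiv ℝ φ (z - y) e + (-fderiv ℝ φ (z - y) (gradient Ψ y) + lap Ψ y * φ (z - y)) =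
        lap Ψ y * φ (z - y) - fderiv ℝ φ (z - y) (gradient Ψ y - ⟪gradient Ψ y, e⟫ • e) := by
      rw [map_sub, map_smul, smul_eq_mul]
      ring
    rw [e2, mul_add, add_comm, mul_comm A]
    refine (norm_sub_le _ _).trans (add_le_add ?_ ((fderiv ℝ φ (z - y)).le_of_opNorm_le (hA' _) _))
    rw [norm_mul]
    exact mul_le_mul_of_nonneg_left (hA _) (abs_nonneg _)
  have hm : ∀ r ∈ closedBall (0 : ℝ) (2 * R), ‖(0 : E) + r • e‖ ≤ 2 * R := fun r hr => by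
    rwa [zero_add, norm_smul, he, mul_one, ← mem_closedBall_zero_iff]
  have h00 : (0 : ℝ) ∈ closedBall (0 : ℝ) (2 * R) := mem_closedBall_self (by positivity)
  obtain ⟨α, hα⟩ : ∃ α, α = ∫ y, ⟪gradient Ψ y, e⟫ * φ (0 + (0 : ℝ) • e - y) := ⟨_, rfl⟩
  have hg : ∀ r ∈ closedBall (0 : ℝ) (2 * R),
      ‖(∫ y, φ y * fderiv ℝ Ψ (0 + r • e - y) e) - α‖ ≤ A * τ * (2 * R) := fun r hr => by
    rw [swap, hα]
    refine ((convex_closedBall (0 : ℝ) (2 * R)).norm_image_sub_le_of_norm_hasDerivWithin_le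
      (fun r _ => (habs1_dir (f := fun y => ⟪gradient Ψ y, e⟫) (by fun_prop) hφ hφc 0 e r).hasDerivWithinAt)
      (fun r hr => hd _ (hm r hr)) h00 hr).trans ?_
    rw [sub_zero]
    exact mul_le_mul_of_nonneg_left (mem_closedBall_zero_iff.1 hr) (by positivity)
  refine ⟨α, fun x hx => ?_⟩
  have ht : ‖⟪e, x⟫‖ ≤ 2 * R := (norm_inner_le_norm _ _).trans (by rwa [he, one_mul])
  have ht' := hm _ (mem_closedBall_zero_iff.2 ht)
  rw [zero_add] at ht'
  have b1 := (convex_closedBall (0 : ℝ) (2 * R)).norm_image_sub_le_of_norm_hasDerivWithin_le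
    (fun r _ => ((habs1_dir hφ0 hΨ1 hc 0 e r).fun_sub ((hasDerivAt_id' r).const_mul α)).hasDerivWithinAt)
    (fun r hr => by rw [mul_one]; exact hg r hr) h00 (mem_closedBall_zero_iff.2 ht)
  have b2 := (convex_Icc (0 : ℝ) 1).norm_image_sub_le_of_norm_hasDerivWithin_le
    (fun r _ => (habs1_dir hφ0 hΨ1 hc (⟪e, x⟫ • e) (x - ⟪e, x⟫ • e) r).hasDerivWithinAt)
    (C := A * (4 * R) * τ) (fun r hr => by
      rw [swap]
      refine (hb _ (mem_closedBall_zero_iff.1 ((convex_closedBall (0 : E) (2 * R)).add_smul_sub_mem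
        (mem_closedBall_zero_iff.2 ht') (mem_closedBall_zero_iff.2 hx) hr)) _ ?_).trans ?_
      · rw [inner_sub_right, real_inner_smul_right, real_inner_self_eq_norm_sq, he]
        ring
      · have := norm_sub_le x (⟪e, x⟫ • e)
        gcongr
        linarith) (left_mem_Icc.2 zero_le_one) (right_mem_Icc.2 zero_le_one)
  simp only [zero_add, zero_smul, one_smul, add_sub_cancel, add_zero, sub_zero, mul_zero, norm_one, mul_one,
    Real.norm_eq_abs] at b1 b2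
  have b3 := abs_le.1 (ha x hx)
  have b4 := abs_le.1 (ha 0 (by rw [norm_zero]; positivity))
  have b5 := abs_le.1 (b1.trans (mul_le_mul_of_nonneg_left ht (by positivity)))
  have b6 := abs_le.1 b2
  rw [abs_le]
  constructor <;> linarith

theorem habs1_cut {R : ℝ} (hR : 0 < R) {Ψ : E → ℝ} (hΨ : ContDiffOn ℝ 2 Ψ (ball 0 (4 * R))) :
    ∃ Φ : E → ℝ, ContDiff ℝ 2 Φ ∧ HasCompactSupport Φ ∧ ∀ y ∈ ball (0 : E) (3 * R), Φ =ᶠ[𝓝 y] Ψ := by
  let χ : ContDiffBump (0 : E) := ⟨3 * R, 7 / 2 * R, by positivity, by linarith⟩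
  refine ⟨fun y => χ y * Ψ y, contDiff_iff_contDiffAt.2 fun y => ?_, χ.hasCompactSupport.mul_right, fun y hy => ?_⟩
  · by_cases hy : y ∈ ball (0 : E) (4 * R)
    · exact (χ.contDiff (n := 2)).contDiffAt.mul (hΨ.contDiffAt (isOpen_ball.mem_nhds hy))
    · have h : y ∉ tsupport χ := by
        rw [χ.tsupport_eq]
        exact fun h => hy (closedBall_subset_ball (show 7 / 2 * R < 4 * R by linarith) h)
      refine (contDiffAt_const (c := (0 : ℝ))).congr_of_eventuallyEq ?_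
      filter_upwards [notMem_tsupport_iff_eventuallyEq.1 h] with w hw
      rw [hw, Pi.zero_apply, zero_mul]
  · filter_upwards [χ.eventuallyEq_one_of_mem_ball hy] with w hw
    rw [hw, Pi.one_apply, one_mul]

theorem habs1_int {R γ : ℝ} (hR : 0 < R) {f g : E → ℝ} (hf : Continuous f)
    (he : ∀ y ∈ ball (0 : E) (3 * R), f y = g y) (hγ : 0 ≤ γ)
    (h : ∫⁻ x in ball (0 : E) (4 * R), ‖g x‖ₑ ≤ ENNReal.ofReal γ) : ∫ y in ball (0 : E) (3 * R), |f y| ≤ γ := by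
  refine (integral_norm_eq_lintegral_enorm hf.aestronglyMeasurable).trans_le
    (ENNReal.toReal_le_of_le_ofReal hγ (le_trans ?_ h))
  rw [setLIntegral_congr_fun measurableSet_ball (g := fun x => ‖g x‖ₑ) fun y hy => by simp only [he y hy]]
  exact lintegral_mono_set (ball_subset_ball (by linarith))

theorem habs1_pt {G e : E} {κ : ℝ} (he : ‖e‖ = 1) (hκ : 0 < κ) (hκ1 : κ ≤ 1) (hG : ‖G‖ ≤ 1 + κ ^ 2) :
    ‖G - ⟪G, e⟫ • e‖ ≤ 4 * κ + |1 - ⟪G, e⟫ ^ 2| / κ := by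
  have e1 : ‖G - ⟪G, e⟫ • e‖ ^ 2 = ‖G‖ ^ 2 - ⟪G, e⟫ ^ 2 := by
    rw [norm_sub_sq_real, real_inner_smul_right, norm_smul, he, mul_one, Real.norm_eq_abs, sq_abs]
    ring
  have h1 := pow_le_pow_left₀ (norm_nonneg _) hG 2
  have h2 : κ ^ 2 ≤ 1 := by nlinarith
  have h3 := mul_le_mul_of_nonneg_left h2 (sq_nonneg κ)
  rw [← sub_le_iff_le_add', le_div_iff₀ hκ]
  nlinarith [le_abs_self (1 - ⟪G, e⟫ ^ 2), sq_nonneg (‖G - ⟪G, e⟫ • e‖ - κ), sq_nonneg ‖G - ⟪G, e⟫ • e‖, sq_nonneg κ]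

/-- Step 1: `Ψ` is close to an affine function `α⟪e,x⟫`.  Mollify: `M = φ_ρ * Ψ`
(`M x = ∫ φ(y - x) Ψ y`), `|M - Ψ| ≤ 2ρ`; the tangential part `∇'Ψ = ∇Ψ - ⟪∇Ψ,e⟫e` has
`|∇'Ψ|² ≤ 3γ + |1 - ⟪∇Ψ,e⟫²|`, so it is small in `L²` and `L¹`; `∇'M`, `∂_a∂_e M` (`a ⊥ e`) and
`∂_e∂_e M = φ*ΔΨ - Σ_a ∂_a∂_a M` are uniformly small on `ball 0 (3R)`.
Alternatively argue by contradiction with an ultrafilter limit (equi-Lipschitz functions): the limit
is invariant along `e^⊥` and weakly harmonic, so its mollifications are affine. -/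
theorem habs1 {R s : ℝ} (hR : 0 < R) (hs : 0 < s) : ∃ γ : ℝ, 0 < γ ∧
    ∀ (Ψ : E → ℝ) (e : E), ‖e‖ = 1 → ContDiffOn ℝ 2 Ψ (ball 0 (4 * R)) →
      (∀ x ∈ ball (0 : E) (4 * R), ‖gradient Ψ x‖ ≤ 1 + γ) →
      ∫⁻ x in ball (0 : E) (4 * R), ‖lap Ψ x‖ₑ ≤ ENNReal.ofReal γ →
      ∫⁻ x in ball (0 : E) (4 * R), ‖1 - ⟪gradient Ψ x, e⟫ ^ 2‖ₑ ≤ ENNReal.ofReal γ →
      ∃ α : ℝ, ∀ x : E, ‖x‖ ≤ 2 * R → |Ψ x - Ψ 0 - α * ⟪e, x⟫| ≤ s := by
  obtain ⟨ρ, hρ, hρ1, hρ2⟩ : ∃ ρ : ℝ, 0 < ρ ∧ ρ ≤ R / 2 ∧ ρ ≤ s / 8 :=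
    ⟨min (R / 2) (s / 8), by positivity, min_le_left _ _, min_le_right _ _⟩
  let β : ContDiffBump (0 : E) := ⟨ρ / 2, ρ, half_pos hρ, half_lt_self hρ⟩
  have hφ : ContDiff ℝ 1 (β.normed volume) := β.contDiff_normed (n := 1)
  have hφc : HasCompactSupport (β.normed volume) := β.hasCompactSupport_normed
  obtain ⟨A₁, hA₁⟩ := hφc.exists_bound_of_continuous hφ.continuous
  obtain ⟨A₂, hA₂⟩ := (hφc.fderiv ℝ).exists_bound_of_continuous (hφ.continuous_fderiv one_ne_zero)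
  obtain ⟨V, hV⟩ : ∃ V, V = volume.real (ball (0 : E) (3 * R)) := ⟨_, rfl⟩
  have hV0 : 0 ≤ V := hV ▸ measureReal_nonneg
  have hA0 : 0 ≤ max A₁ A₂ := ((norm_nonneg _).trans (hA₁ 0)).trans (le_max_left _ _)
  obtain ⟨K, hK⟩ : ∃ K, K = max A₁ A₂ * (4 * V + 2) * (4 * R + 4 * R ^ 2) := ⟨_, rfl⟩
  have hK0 : 0 ≤ K := by rw [hK]; positivity
  obtain ⟨κ, hκ, hκ1, hκ2⟩ : ∃ κ : ℝ, 0 < κ ∧ κ ≤ 1 ∧ κ * K ≤ s / 2 := by
    refine ⟨min 1 (s / 2 / (K + 1)), by positivity, min_le_left _ _, ?_⟩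
    have := (le_div_iff₀ (by positivity)).1 (min_le_right 1 (s / 2 / (K + 1)))
    have h2 : 0 ≤ min 1 (s / 2 / (K + 1)) := by positivity
    linarith
  have hγ : κ ^ 2 ≤ κ := by nlinarith
  refine ⟨κ ^ 2, by positivity, fun Ψ e he hΨ h1 h2 h3 => ?_⟩
  obtain ⟨Φ, hΦ, hΦc, hev⟩ := habs1_cut hR hΨ
  have hsub : ball (0 : E) (3 * R) ⊆ ball 0 (4 * R) := ball_subset_ball (by linarith)
  have hg : ∀ y ∈ ball (0 : E) (3 * R), gradient Φ y = gradient Ψ y := fun y hy => (hev y hy).gradient_eq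
  have hG := habs1_cg (hΦ.of_le one_le_two)
  have hl := habs1_cl hΦ
  have hq : Continuous fun y => 1 - ⟪gradient Φ y, e⟫ ^ 2 := by fun_prop
  have i1 := habs1_int hR hl (fun y hy => by rw [lap, hess, (hev y hy).gradient.fderiv_eq]; rfl) (sq_nonneg κ) h2
  have i2 := habs1_int hR hq (fun y hy => by rw [hg y hy]) (sq_nonneg κ) h3
  have j1 := habs1_ion hl.abs (3 * R)
  have j2 := (habs1_ion hq.abs (3 * R)).div_const κ
  have j3 := habs1_ion (E := E) (continuous_const (y := 4 * κ)) (3 * R)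
  have j4 : IntegrableOn (fun y => 4 * κ + |1 - ⟪gradient Φ y, e⟫ ^ 2| / κ) (ball (0 : E) (3 * R)) := j3.add j2
  have hT : ∫ y in ball (0 : E) (3 * R), (‖gradient Φ y - ⟪gradient Φ y, e⟫ • e‖ + |lap Φ y|) ≤
      κ * (4 * V + 2) := by
    refine (setIntegral_mono_on (habs1_ion (by fun_prop) _) (j4.add j1) measurableSet_ball
      fun y hy => add_le_add_left (habs1_pt he hκ hκ1 (hg y hy ▸ h1 y (hsub hy))) _).trans ?_
    simp only [Pi.add_apply]
    rw [integral_add j4 j1, integral_add j3 j2, integral_div, setIntegral_const, ← hV, smul_eq_mul]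
    have := (div_le_iff₀ hκ).2 (i2.trans_eq (sq κ))
    linarith
  obtain ⟨α, hα⟩ := habs1_core hR hρ.le (by linarith) he hΦ hΦc hφ hφc β.support_normed_eq.subset
    β.nonneg_normed β.integral_normed (fun y => (hA₁ y).trans (le_max_left A₁ A₂))
    (fun y => (hA₂ y).trans (le_max_right _ _))
    (fun y hy => by rw [hg y hy]; linarith [h1 y (hsub hy)]) hT
  refine ⟨α, fun x hx => ?_⟩
  have := hα x hx
  rw [(hev x (mem_ball_zero_iff.2 (by linarith))).eq_of_nhds,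
    (hev 0 (mem_ball_self (by positivity))).eq_of_nhds] at this
  refine this.trans ?_
  have e1 : max A₁ A₂ * (κ * (4 * V + 2)) * (4 * R + 4 * R ^ 2) = κ * K := by rw [hK]; ring
  linarith

theorem habs_lint {f φ : E → ℝ} {U : Set E} {γ : ℝ} (hU : IsOpen U) (hf : ContinuousOn f U)
    (h1 : Continuous φ) (h2 : HasCompactSupport φ) (h3 : tsupport φ ⊆ U) (h4 : ∀ x, 0 ≤ φ x)
    (h5 : ∀ x, φ x ≤ 1) (hγ : 0 ≤ γ) (hl : ∫⁻ x in U, ‖f x‖ₑ ≤ ENNReal.ofReal γ) :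
    Integrable (fun x => |f x| * φ x) ∧ ∫ x, |f x| * φ x ≤ γ := by
  have hz : ∀ x, x ∉ tsupport φ → φ x = 0 := fun x hx => image_eq_zero_of_notMem_tsupport hx
  have hi : Integrable (fun x => |f x| * φ x) :=
    habs_int h2 ((hf.mono h3).abs.mul h1.continuousOn) fun x hx => by simp [hz x hx]
  refine ⟨hi, ?_⟩
  rw [integral_eq_lintegral_of_nonneg_ae
    (Eventually.of_forall fun x => mul_nonneg (abs_nonneg _) (h4 x)) hi.aestronglyMeasurable]
  refine ENNReal.toReal_le_of_le_ofReal hγ (le_trans ?_ hl)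
  rw [← lintegral_indicator hU.measurableSet]
  refine lintegral_mono fun x => ?_
  by_cases hx : x ∈ U
  · simp only [indicator_of_mem hx]
    rw [← ofReal_norm, Real.norm_eq_abs]
    exact ENNReal.ofReal_le_ofReal (mul_le_of_le_one_right (abs_nonneg _) (h5 x))
  · simp [hz x fun h => hx (h3 h)]

theorem habs_core {γ s' α : ℝ} {Ψ φ : E → ℝ} {e : E} {U : Set E} (hU : IsOpen U) (he : ‖e‖ = 1)
    (hΨ : ContDiffOn ℝ 2 Ψ U) (h1 : ContDiff ℝ 1 φ) (h2 : HasCompactSupport φ)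
    (h3 : tsupport φ ⊆ U) (h4 : ∀ x, 0 ≤ φ x) (h5 : ∀ x, φ x ≤ 1) (hγ0 : 0 ≤ γ) (hγ1 : γ ≤ 1)
    (hs' : 0 ≤ s') (hg : ∀ x ∈ U, ‖gradient Ψ x‖ ≤ 1 + γ)
    (hl : ∫⁻ x in U, ‖lap Ψ x‖ₑ ≤ ENNReal.ofReal γ)
    (hq : ∫⁻ x in U, ‖1 - ⟪gradient Ψ x, e⟫ ^ 2‖ₑ ≤ ENNReal.ofReal γ)
    (hu : ∀ x ∈ tsupport φ, |Ψ x - Ψ 0 - α * ⟪e, x⟫| ≤ s') :
    |1 - α ^ 2| * ∫ x, φ x ≤ 3 * γ * (∫ x, φ x) + γ + s' * (2 + |α|) * (∫ x, ‖gradient φ x‖) +
      s' * γ := by
  set u : E → ℝ := fun x => Ψ x - Ψ 0 - α * ⟪e, x⟫ with hu_def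
  have hG := habs_contDiffOn_grad hU hΨ
  have huC : ContDiffOn ℝ 1 u U :=
    ((hΨ.of_le (by norm_num)).sub contDiffOn_const).sub
      (contDiffOn_const.mul (innerSL ℝ e).contDiff.contDiffOn)
  have huG : ∀ x ∈ U, HasGradientAt u (gradient Ψ x - α • e) x := fun x hx => by
    have a1 : HasFDerivAt Ψ (fderiv ℝ Ψ x) x :=
      ((hΨ.contDiffAt (hU.mem_nhds hx)).differentiableAt (by norm_num)).hasFDerivAt
    have a2 := (a1.sub_const (Ψ 0)).sub ((innerSL ℝ e).hasFDerivAt (x := x).const_mul α)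
    rw [hasGradientAt_iff_hasFDerivAt]
    have a3 : (InnerProductSpace.toDual ℝ E) (gradient Ψ x - α • e) =
        fderiv ℝ Ψ x - α • innerSL ℝ e := by
      ext v
      simp
    rw [a3]
    exact a2
  set Y : E → E := fun x => u x • (gradient Ψ x + α • e) with hY_def
  have hY : ContDiffOn ℝ 1 Y U := huC.smul (hG.add contDiffOn_const)
  have hT : ∀ x ∈ U, trc (fderiv ℝ Y x) = u x * lap Ψ x + (‖gradient Ψ x‖ ^ 2 - α ^ 2) :=
    fun x hx => by
    have a1 : DifferentiableAt ℝ (gradient Ψ) x :=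
      (hG.contDiffAt (hU.mem_nhds hx)).differentiableAt one_ne_zero
    have a2 := divT_smul (X := fun x => gradient Ψ x + α • e) 0 (huG x hx) (a1.add_const _)
    simp only [divT, inner_zero_left, sub_zero, inner_zero_right, zero_mul, fderiv_add_const] at a2
    rw [hY_def, a2]
    congr 1
    rw [inner_sub_left, inner_add_right, inner_add_right, real_inner_self_eq_norm_sq,
      real_inner_self_eq_norm_sq, real_inner_comm, norm_smul, he, Real.norm_eq_abs, mul_one, sq_abs]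
    ring
  have hz : ∀ x, x ∉ tsupport φ → φ x = 0 := fun x hx => image_eq_zero_of_notMem_tsupport hx
  have hd := habs_div hU hY h1 h2 h3
  have hφc : Continuous φ := h1.continuous
  have hφg := habs_cont_grad h1
  have hlc : ContinuousOn (lap Ψ) U :=
    habs_cont_trc.comp_continuousOn (hG.continuousOn_fderiv_of_isOpen hU le_rfl)
  obtain ⟨j1, k1⟩ := habs_lint hU hlc hφc h2 h3 h4 h5 hγ0 hl
  obtain ⟨j2, k2⟩ := habs_lint (f := fun x => 1 - ⟪gradient Ψ x, e⟫ ^ 2) hU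
    (continuousOn_const.sub
      ((ContinuousOn.inner (𝕜 := ℝ) hG.continuousOn continuousOn_const).pow 2))
    hφc h2 h3 h4 h5 hγ0 hq
  have j3 : Integrable φ := hφc.integrable_of_hasCompactSupport h2
  have j4 : Integrable fun x => ‖gradient φ x‖ :=
    habs_int h2 hφg.norm.continuousOn fun x hx => by simp [habs_grad_zero hx]
  have j5 : Integrable fun x => ⟪Y x, gradient φ x⟫ + trc (fderiv ℝ Y x) * φ x :=
    habs_int h2 ((ContinuousOn.inner (𝕜 := ℝ) (hY.continuousOn.mono h3) hφg.continuousOn).add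
      ((habs_cont_trc.comp_continuousOn
        ((hY.continuousOn_fderiv_of_isOpen hU le_rfl).mono h3)).mul hφc.continuousOn))
      fun x hx => by simp [habs_grad_zero hx, hz x hx]
  have e1 : (1 - α ^ 2) * ∫ x, φ x =
      ∫ x, (1 - α ^ 2) * φ x - (⟪Y x, gradient φ x⟫ + trc (fderiv ℝ Y x) * φ x) := by
    rw [integral_sub (j3.const_mul _) j5, hd, sub_zero, integral_const_mul]
  have hI : 0 ≤ ∫ x, φ x := integral_nonneg h4
  have j6 : Integrable fun x => 3 * γ * φ x + |1 - ⟪gradient Ψ x, e⟫ ^ 2| * φ x :=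
    (j3.const_mul _).add j2
  have j7 : Integrable fun x => 3 * γ * φ x + |1 - ⟪gradient Ψ x, e⟫ ^ 2| * φ x +
      s' * (2 + |α|) * ‖gradient φ x‖ := j6.add (j4.const_mul _)
  have j8 : Integrable fun x => 3 * γ * φ x + |1 - ⟪gradient Ψ x, e⟫ ^ 2| * φ x +
      s' * (2 + |α|) * ‖gradient φ x‖ + s' * (|lap Ψ x| * φ x) := j7.add (j1.const_mul _)
  have e2 : ‖∫ x, (1 - α ^ 2) * φ x - (⟪Y x, gradient φ x⟫ + trc (fderiv ℝ Y x) * φ x)‖ ≤
      ∫ x, 3 * γ * φ x + |1 - ⟪gradient Ψ x, e⟫ ^ 2| * φ x +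
        s' * (2 + |α|) * ‖gradient φ x‖ + s' * (|lap Ψ x| * φ x) := by
    refine norm_integral_le_of_norm_le j8 (Eventually.of_forall fun x => ?_)
    by_cases hx : x ∈ tsupport φ
    swap
    · simp [habs_grad_zero hx, hz x hx]
    have hxU := h3 hx
    have b1 : |u x| ≤ s' := hu x hx
    have b2 := hg x hxU
    have b3 : |⟪Y x, gradient φ x⟫| ≤ s' * (2 + |α|) * ‖gradient φ x‖ := by
      refine (abs_real_inner_le_norm _ _).trans (mul_le_mul_of_nonneg_right ?_ (norm_nonneg _))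
      rw [hY_def]
      simp only [norm_smul, Real.norm_eq_abs]
      refine mul_le_mul b1 ((norm_add_le _ _).trans ?_) (norm_nonneg _) hs'
      rw [norm_smul, he, Real.norm_eq_abs]
      linarith
    have b4 : |1 - ‖gradient Ψ x‖ ^ 2| ≤ 3 * γ + |1 - ⟪gradient Ψ x, e⟫ ^ 2| := by
      have c1 : |⟪gradient Ψ x, e⟫| ≤ ‖gradient Ψ x‖ := by
        simpa [he] using abs_real_inner_le_norm (gradient Ψ x) e
      have c2 : ⟪gradient Ψ x, e⟫ ^ 2 ≤ ‖gradient Ψ x‖ ^ 2 := by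
        rw [← sq_abs]
        exact pow_le_pow_left₀ (abs_nonneg _) c1 2
      have c3 : ‖gradient Ψ x‖ ^ 2 ≤ (1 + γ) ^ 2 := pow_le_pow_left₀ (norm_nonneg _) b2 2
      have c4 := le_abs_self (1 - ⟪gradient Ψ x, e⟫ ^ 2)
      have c5 := abs_nonneg (1 - ⟪gradient Ψ x, e⟫ ^ 2)
      rw [abs_le]
      constructor <;> nlinarith
    have b5 : |u x * lap Ψ x * φ x| ≤ s' * (|lap Ψ x| * φ x) := by
      rw [abs_mul, abs_mul, abs_of_nonneg (h4 x), mul_assoc]
      exact mul_le_mul_of_nonneg_right b1 (mul_nonneg (abs_nonneg _) (h4 x))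
    have b6 : |(1 - ‖gradient Ψ x‖ ^ 2) * φ x| ≤
        3 * γ * φ x + |1 - ⟪gradient Ψ x, e⟫ ^ 2| * φ x := by
      rw [abs_mul, abs_of_nonneg (h4 x), ← add_mul]
      exact mul_le_mul_of_nonneg_right b4 (h4 x)
    rw [hT x hxU, Real.norm_eq_abs]
    have b7 : (1 - α ^ 2) * φ x - (⟪Y x, gradient φ x⟫ +
        (u x * lap Ψ x + (‖gradient Ψ x‖ ^ 2 - α ^ 2)) * φ x) =
        (1 - ‖gradient Ψ x‖ ^ 2) * φ x - ⟪Y x, gradient φ x⟫ - u x * lap Ψ x * φ x := by ring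
    rw [b7]
    rw [abs_le] at b3 b5 b6 ⊢
    constructor <;> linarith [b3.1, b3.2, b5.1, b5.2, b6.1, b6.2]
  rw [← e1, Real.norm_eq_abs, abs_mul, abs_of_nonneg hI, integral_add j7 (j1.const_mul _),
    integral_add j6 (j4.const_mul _), integral_add (j3.const_mul _) j2, integral_const_mul,
    integral_const_mul, integral_const_mul] at e2
  have := mul_le_mul_of_nonneg_left k1 hs'
  linarith

/-- Step 2: `|α| ≈ 1`.  With `Ψ̃ = Ψ - Ψ 0 - α⟪e,·⟫` and a bump `φ` supported in `ball 0 (2R)`,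
`green` for `(Ψ̃, Ψ̃ φ)` and `(Ψ̃²/2 …)` (or Cauchy–Schwarz with `φ²`) gives
`∫φ²|∇Ψ - αe|² ≤ K(s'² + s'γ)`; hence `|1 - α²|∫φ² ≤ γ + K√…` (`|α| ≤ 3`). -/
theorem habs {R s : ℝ} (hR : 0 < R) (hs : 0 < s) : ∃ γ : ℝ, 0 < γ ∧
    ∀ (Ψ : E → ℝ) (e : E), ‖e‖ = 1 → ContDiffOn ℝ 2 Ψ (ball 0 (4 * R)) →
      (∀ x ∈ ball (0 : E) (4 * R), ‖gradient Ψ x‖ ≤ 1 + γ) →
      ∫⁻ x in ball (0 : E) (4 * R), ‖lap Ψ x‖ₑ ≤ ENNReal.ofReal γ →
      ∫⁻ x in ball (0 : E) (4 * R), ‖1 - ⟪gradient Ψ x, e⟫ ^ 2‖ₑ ≤ ENNReal.ofReal γ →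
      ∃ ς : ℝ, (ς = 1 ∨ ς = -1) ∧ ∀ x : E, ‖x‖ ≤ R → |Ψ x - Ψ 0 - ς * ⟪e, x⟫| ≤ s := by
  let φ : ContDiffBump (0 : E) := ⟨R, 2 * R, hR, by linarith⟩
  have hts : tsupport φ = closedBall 0 (2 * R) := φ.tsupport_eq
  set I := ∫ x, φ x with hI_def
  set K := ∫ x, ‖gradient φ x‖ with hK_def
  have hI : 0 < I := φ.integral_pos
  have hK : 0 ≤ K := integral_nonneg fun x => norm_nonneg _
  obtain ⟨η, hη0, hη1, hη2⟩ : ∃ η : ℝ, 0 < η ∧ η ≤ 1 ∧ η * R ≤ s / 2 := by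
    refine ⟨min 1 (s / (2 * R)), by positivity, min_le_left _ _, ?_⟩
    calc min 1 (s / (2 * R)) * R ≤ s / (2 * R) * R :=
          mul_le_mul_of_nonneg_right (min_le_right _ _) hR.le
      _ = s / 2 := by field_simp
  obtain ⟨s', hs0, hs1, hs2⟩ : ∃ s' : ℝ, 0 < s' ∧ s' ≤ s / 2 ∧ s' * (K + 1) ≤ η * I / 16 := by
    refine ⟨min (s / 2) (η * I / 16 / (K + 1)), by positivity, min_le_left _ _, ?_⟩
    calc min (s / 2) (η * I / 16 / (K + 1)) * (K + 1) ≤ η * I / 16 / (K + 1) * (K + 1) :=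
          mul_le_mul_of_nonneg_right (min_le_right _ _) (by positivity)
      _ = η * I / 16 := by field_simp
  obtain ⟨γ₁, hγ₁, H⟩ := habs1 (E := E) hR hs0
  refine ⟨min (min γ₁ 1) (min (η / 24) (η * I / 16)), by positivity, ?_⟩
  set γ := min (min γ₁ 1) (min (η / 24) (η * I / 16)) with hγ
  have g0 : 0 < γ := by positivity
  have g1 : γ ≤ γ₁ := (min_le_left _ _).trans (min_le_left _ _)
  have g2 : γ ≤ 1 := (min_le_left _ _).trans (min_le_right _ _)
  have g3 : γ ≤ η / 24 := (min_le_right _ _).trans (min_le_left _ _)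
  have g4 : γ ≤ η * I / 16 := (min_le_right _ _).trans (min_le_right _ _)
  clear_value γ
  intro Ψ e he hΨ hg hl hq
  obtain ⟨α, hα⟩ := H Ψ e he hΨ (fun x hx => (hg x hx).trans (by linarith))
    (hl.trans (ENNReal.ofReal_le_ofReal g1)) (hq.trans (ENNReal.ofReal_le_ofReal g1))
  have hc := habs_core (α := α) (φ := φ) isOpen_ball he hΨ φ.contDiff φ.hasCompactSupport
    (by rw [hts]; exact closedBall_subset_ball (by linarith)) (fun x => φ.nonneg)
    (fun x => φ.le_one) g0.le g2 hs0.le hg hl hq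
    (fun x hx => hα x (by rw [hts] at hx; simpa using hx))
  rw [← hI_def, ← hK_def] at hc
  have ha := abs_nonneg α
  have c1 : s' * K ≤ η * I / 16 := by nlinarith
  have c2 : s' ≤ η * I / 16 := by nlinarith [mul_nonneg hs0.le hK]
  have c3 : |1 - α ^ 2| * I ≤ (η / 2 + η * |α| / 4) * I := by
    have d1 : 3 * γ * I ≤ η * I / 8 := by nlinarith
    have d2 : s' * γ ≤ s' := by nlinarith
    have d3 : s' * K * |α| ≤ η * I / 16 * |α| := mul_le_mul_of_nonneg_right c1 ha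
    have d4 : 0 ≤ η * I * |α| := by positivity
    have d5 : 0 ≤ η * I := by positivity
    nlinarith
  have c4 : |1 - α ^ 2| ≤ η / 2 + η * |α| / 4 := le_of_mul_le_mul_right c3 hI
  have c5 : |α| ≤ 2 := by
    by_contra h
    push Not at h
    have d1 := neg_abs_le (1 - α ^ 2)
    have d2 : η * |α| ≤ |α| := by nlinarith
    have d3 := sq_abs α
    nlinarith
  have c6 : |1 - α ^ 2| ≤ η := by nlinarith
  obtain ⟨ς, hς, hς'⟩ : ∃ ς : ℝ, (ς = 1 ∨ ς = -1) ∧ |α - ς| ≤ η := by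
    rw [abs_le] at c6
    rcases le_total 0 α with h | h
    · refine ⟨1, Or.inl rfl, abs_le.2 ⟨?_, ?_⟩⟩ <;> nlinarith [c6.1, c6.2]
    · refine ⟨-1, Or.inr rfl, abs_le.2 ⟨?_, ?_⟩⟩ <;> nlinarith [c6.1, c6.2]
  refine ⟨ς, hς, fun x hx => ?_⟩
  have d1 := hα x (by linarith)
  have d2 : |(α - ς) * ⟪e, x⟫| ≤ η * R := by
    rw [abs_mul]
    refine mul_le_mul hς' ?_ (abs_nonneg _) hη0.le
    refine (abs_real_inner_le_norm _ _).trans ?_
    rw [he, one_mul]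
    exact hx
  have d3 : Ψ x - Ψ 0 - ς * ⟪e, x⟫ = (Ψ x - Ψ 0 - α * ⟪e, x⟫) + (α - ς) * ⟪e, x⟫ := by ring
  rw [d3]
  refine (abs_add_le _ _).trans ?_
  linarith

end Crest.Agent.R246.B2
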