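import Crest.Agent.R246.B2.Bas
import Crest.Agent.R246.C1.Gk

/-!
# Row 246, block B2: first variation with Gaussian weights, Cauchy–Schwarz
-/

set_option autoImplicit false
set_option linter.unusedSectionVars false

open MeasureTheory Metric Filter Topology Set Module
open scoped RealInnerProductSpace ENNReal ContDiff Real

noncomputable section

namespace Crest.Agent.R246.B2

variable {E : Type} [NormedAddCommGroup E] [InnerProductSpace ℝ E] [FiniteDimensional ℝ E]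
  [MeasurableSpace E] [BorelSpace E]

variable {d : ℕ} {c : ℝ → ℝ} {Λ ε : ℝ} {u : E → ℝ}

/-- Cauchy–Schwarz by the discriminant -/
theorem cs {μ : Measure E} {T a b : E → ℝ} {P Q : ℝ} (hT : Integrable T μ) (ha : Integrable a μ)
    (hb : Integrable b μ) (h : ∀ (t : ℝ) y, 2 * t * T y ≤ t ^ 2 * a y + b y)
    (hP : ∫ y, a y ∂μ ≤ P) (hQ : ∫ y, b y ∂μ ≤ Q) : |∫ y, T y ∂μ| ≤ √(P * Q) := by
  have h1 : discrim P (-(2 * ∫ y, T y ∂μ)) Q ≤ 0 := discrim_le_zero fun t => by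
    have h2 := integral_mono (hT.const_mul (2 * t)) ((ha.const_mul (t ^ 2)).add hb) (h t)
    simp only [Pi.add_apply] at h2
    rw [integral_add (ha.const_mul _) hb, integral_const_mul, integral_const_mul] at h2
    nlinarith [mul_le_mul_of_nonneg_left hP (sq_nonneg t)]
  rw [discrim] at h1
  exact Real.abs_le_sqrt (by nlinarith)

theorem two_inner_le (t : ℝ) (v x : E) : |2 * t * ⟪v, x⟫| ≤ t ^ 2 * ‖v‖ ^ 2 + ‖x‖ ^ 2 := by
  have h := abs_real_inner_le_norm v x
  rw [abs_mul, abs_mul, abs_two, ← sq_abs t]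
  nlinarith [sq_nonneg (|t| * ‖v‖ - ‖x‖), mul_le_mul_of_nonneg_left h (abs_nonneg t)]

/-- first variation for `X = ψ gk X₀` -/
theorem Dat.fv (h : Dat d c Λ ε u) (z : E) {ρ : ℝ} (hρ : 0 < ρ) {ψ : E → ℝ} {g X : E → E}
    {A B C r : ℝ} (hψ : ContDiff ℝ 1 ψ) (hg : ∀ y, HasGradientAt ψ (g y) y) (hψ1 : ∀ y, |ψ y| ≤ 1)
    (hgA : ∀ y, ‖g y‖ ≤ A) (hX : ContDiff ℝ 1 X) (hX0 : ∀ y, ‖X y‖ ≤ B * (1 + ‖y - z‖))
    (hX1 : ∀ y, ‖fderiv ℝ X y‖ ≤ B) (hr : 0 < r) (hrz : r ≤ 2 * ‖z‖) (hC : 0 ≤ C)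
    (hXC : ∀ y, ‖X y‖ * gk d z ρ y ≤ C * gk d z r y) {D : E → ℝ}
    (hD : ∀ y, D y = gk d z ρ y * (ψ y * divT X (y, wv ε u y) +
      (⟪g y, X y⟫ - ⟪g y, wv ε u y⟫ * ⟪wv ε u y, X y⟫) -
        ψ y / ρ ^ 2 * (⟪y - z, X y⟫ - ⟪y - z, wv ε u y⟫ * ⟪wv ε u y, X y⟫))) :
    Integrable D (mu ε u) ∧ |∫ y, D y ∂mu ε u| ≤ C * (Λ / ‖z‖) := by
  have hG := fun y => (gk_pos d z hρ y).le
  set Y : E → E := fun y => (ψ y * gk d z ρ y) • X y with hY
  have hYc : ContDiff ℝ 1 Y := (hψ.mul (contDiff_gk d z ρ)).smul hX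
  have hB : 0 ≤ B := (norm_nonneg _).trans (hX1 0)
  have hA : 0 ≤ A := (norm_nonneg _).trans (hgA 0)
  have hφ : ∀ y, HasGradientAt (fun y => ψ y * gk d z ρ y)
      (ψ y • ((-(gk d z ρ y) / ρ ^ 2) • (y - z)) + gk d z ρ y • g y) y := fun y => by
    rw [hasGradientAt_iff_hasFDerivAt, map_add, map_smul, map_smul _ (gk d z ρ y)]
    exact (hg y).hasFDerivAt.mul (hasGradientAt_gk d z ρ y).hasFDerivAt
  have hDY : D = fun y => divT Y (y, wv ε u y) := by
    funext y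
    rw [hD, divT_smul _ (hφ y) (hX.differentiable one_ne_zero y)]
    simp only [inner_add_left, real_inner_smul_left]
    ring
  obtain ⟨L, hL⟩ := gk_dom d z hρ
  have h0 : ∀ y, ‖Y y‖ ≤ ‖X y‖ * gk d z ρ y := fun y => by
    rw [hY, norm_smul, Real.norm_eq_abs, abs_mul, abs_of_nonneg (hG y), mul_comm]
    exact mul_le_mul_of_nonneg_left (mul_le_of_le_one_left (hG y) (hψ1 y)) (norm_nonneg _)
  obtain ⟨K, hK⟩ : ∃ K : ℝ, K = B * (1 + A + (ρ ^ 2)⁻¹) := ⟨_, rfl⟩
  have hK0 : 0 ≤ K := by rw [hK]; positivity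
  have h1 : ∀ y, ‖Y y‖ ≤ K * L * gk d 0 (2 * ρ) y := fun y => by
    refine (h0 y).trans ?_
    rw [mul_assoc]
    refine le_trans ?_ (mul_le_mul_of_nonneg_left (hL y) hK0)
    rw [← mul_assoc]
    refine mul_le_mul_of_nonneg_right ((hX0 y).trans (mul_le_mul ?_ ?_ (by positivity) hK0)) (hG y)
    · rw [hK]
      exact le_mul_of_one_le_right hB (by have : 0 ≤ (ρ ^ 2)⁻¹ := by positivity
                                          linarith)
    · nlinarith [norm_nonneg (y - z)]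
  have h2 : ∀ y, ‖fderiv ℝ Y y‖ ≤ K * L * gk d 0 (2 * ρ) y := fun y => by
    rw [mul_assoc]
    refine le_trans ?_ (mul_le_mul_of_nonneg_left (hL y) hK0)
    have e1 : fderiv ℝ Y y = _ :=
      ((hφ y).hasFDerivAt.smul (hX.differentiable one_ne_zero y).hasFDerivAt).fderiv
    have n1 : ‖(ψ y * gk d z ρ y) • fderiv ℝ X y‖ ≤ gk d z ρ y * B := by
      rw [norm_smul, Real.norm_eq_abs, abs_mul, abs_of_nonneg (hG y)]
      exact mul_le_mul (mul_le_of_le_one_left (hG y) (hψ1 y)) (hX1 y) (norm_nonneg _) (hG y)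
    have n2 : ‖ψ y • ((-(gk d z ρ y) / ρ ^ 2) • (y - z)) + gk d z ρ y • g y‖ ≤
        gk d z ρ y * ((ρ ^ 2)⁻¹ * ‖y - z‖ + A) := by
      refine (norm_add_le _ _).trans ?_
      rw [norm_smul, norm_smul, norm_smul, Real.norm_eq_abs, Real.norm_eq_abs, abs_div, abs_neg,
        Real.norm_of_nonneg (hG y), abs_of_nonneg (hG y), abs_of_nonneg (sq_nonneg ρ), mul_add]
      refine add_le_add ((mul_le_of_le_one_left (by have := hG y; positivity) (hψ1 y)).trans_eq ?_)
        (mul_le_mul_of_nonneg_left (hgA y) (hG y))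
      ring
    rw [e1]
    refine (norm_add_le _ _).trans ?_
    rw [ContinuousLinearMap.norm_smulRight_apply, LinearIsometryEquiv.norm_map]
    refine (add_le_add n1 (mul_le_mul n2 (hX0 y) (norm_nonneg _)
      (by have := hG y; positivity))).trans ?_
    have : B + ((ρ ^ 2)⁻¹ * ‖y - z‖ + A) * (B * (1 + ‖y - z‖)) ≤ K * (1 + ‖y - z‖) ^ 2 := by
      have hn := norm_nonneg (y - z)
      have hi : 0 ≤ (ρ ^ 2)⁻¹ := by positivity
      rw [hK]
      generalize (ρ ^ 2)⁻¹ = i at *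
      generalize ‖y - z‖ = n at *
      have : 0 ≤ B * (2 * n + n ^ 2 + A * (n + n ^ 2) + i * (1 + n)) := by positivity
      nlinarith
    nlinarith [mul_le_mul_of_nonneg_left this (hG y)]
  have hm : Measurable fun y => (y, wv ε u y) := measurable_id'.prodMk (meas_wv h.crit)
  refine ⟨?_, ?_⟩
  · rw [hDY]
    refine (((h.integ 0 (2 * ρ) (by positivity)).const_mul (K * L)).const_mul
      (finrank ℝ E + 1)).mono' ((C1.continuous_divT hYc).measurable.comp hm).aestronglyMeasurable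
      (Eventually.of_forall fun y => ?_)
    exact (C1.abs_divT_le Y (z := (y, wv ε u y)) (h.wv_le y)).trans
      (mul_le_mul_of_nonneg_left (h2 y) (by positivity))
  · have hYm := hYc.continuous.measurable
    have key := h.ident Y (K * L) (2 * ρ) (by positivity) hYc h1 h2
    rw [integral_vA h.crit (C1.continuous_divT hYc).measurable,
      integral_vA h.crit (by fun_prop)] at key
    rw [hDY, key]
    refine le_trans ?_ (mul_le_mul_of_nonneg_left (h.inv z r hr hrz) hC)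
    rw [← integral_const_mul, ← Real.norm_eq_abs]
    refine norm_integral_le_of_norm_le ((h.integ' z r hr).const_mul C)
      (Eventually.of_forall fun y => ?_)
    rcases eq_or_ne y 0 with rfl | hy
    · simp
    have hy' := norm_pos_iff.2 hy
    have w1 : ‖wv ε u y‖ ^ 2 ≤ 1 := pow_le_one₀ (norm_nonneg _) (h.wv_le y)
    rw [Real.norm_eq_abs, abs_div, abs_mul, abs_of_nonneg (sq_nonneg ‖y‖), ← mul_div_assoc,
      div_le_div_iff₀ (by positivity) hy']
    have i1 := (abs_real_inner_le_norm (Y y) y).trans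
      (mul_le_mul_of_nonneg_right ((h0 y).trans (hXC y)) hy'.le)
    have i2 : |1 - ‖wv ε u y‖ ^ 2| ≤ 1 := abs_le.2 ⟨by linarith, sub_le_self _ (sq_nonneg _)⟩
    have i3 := mul_le_mul i2 i1 (abs_nonneg _) zero_le_one
    nlinarith [mul_le_mul_of_nonneg_right i3 hy'.le]

end Crest.Agent.R246.B2
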