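import Crest.Agent.R246.B2.Defs

/-!
# Row 246, block B2: elementary inequalities for the Gaussian kernel
-/

set_option autoImplicit false
set_option linter.unusedSectionVars false

open MeasureTheory Metric Filter Topology Set Module
open scoped RealInnerProductSpace ENNReal ContDiff Real

noncomputable section

namespace Crest.Agent.R246.B2

variable {E : Type} [NormedAddCommGroup E] [InnerProductSpace ℝ E] [FiniteDimensional ℝ E]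
  [MeasurableSpace E] [BorelSpace E]

theorem gk_le (d : ℕ) (q : E) {ρ : ℝ} (hρ : 0 < ρ) (y : E) : gk d q ρ y ≤ (√(2 * π) * ρ)⁻¹ ^ d := by
  have := Real.pi_pos
  unfold gk
  refine mul_le_of_le_one_right (by positivity) (Real.exp_le_one_iff.2 ?_)
  rw [neg_div]
  exact neg_nonpos.2 (by positivity)

/-- lower bound on a ball -/
theorem gk_low (d : ℕ) (M : ℝ) : ∃ k : ℝ, 0 < k ∧ ∀ (q : E) (ρ : ℝ) (y : E), 0 < ρ →
    ‖y - q‖ ≤ M * ρ → k * (ρ⁻¹) ^ d ≤ gk d q ρ y := by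
  have := Real.pi_pos
  refine ⟨(√(2 * π))⁻¹ ^ d * Real.exp (-M ^ 2 / 2), by positivity, fun q ρ y hρ h => ?_⟩
  unfold gk
  rw [mul_inv, mul_pow, mul_right_comm]
  refine mul_le_mul_of_nonneg_left (Real.exp_le_exp.2 ?_) (by positivity)
  rw [div_le_div_iff₀ (by norm_num) (by positivity)]
  have h1 : ‖y - q‖ ^ 2 ≤ (M * ρ) ^ 2 := by gcongr
  nlinarith

theorem gk_double (d : ℕ) (q : E) {ρ : ℝ} (hρ : 0 < ρ) (y : E) :
    gk d q ρ y = 2 ^ d * Real.exp (-(3 / 8 * ‖y - q‖ ^ 2 / ρ ^ 2)) * gk d q (2 * ρ) y := by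
  have hs : 0 < √(2 * π) := by have := Real.pi_pos; positivity
  unfold gk
  rw [mul_mul_mul_comm, ← mul_pow, ← Real.exp_add]
  congr 2 <;> field_simp
  ring

theorem gk_shift_aux (d : ℕ) {θ ρ κ : ℝ} (h0 : 0 < θ) (h1 : θ < 1) (hρ : 0 < ρ) {z q : E}
    (h : ‖z - q‖ ^ 2 ≤ 2 * κ * (1 - θ ^ 2) * ρ ^ 2) (y : E) :
    gk d z (θ * ρ) y ≤ θ⁻¹ ^ d * Real.exp κ * gk d q ρ y := by
  have hs : 0 < √(2 * π) := by have := Real.pi_pos; positivity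
  have h3 : 0 < 1 - θ ^ 2 := by nlinarith
  unfold gk
  rw [mul_mul_mul_comm, ← mul_pow, ← Real.exp_add,
    show θ⁻¹ * (√(2 * π) * ρ)⁻¹ = (√(2 * π) * (θ * ρ))⁻¹ by field_simp]
  gcongr
  have h4 : ‖y - q‖ ≤ ‖y - z‖ + ‖z - q‖ := norm_sub_le_norm_sub_add_norm_sub y z q
  have h5 : ‖y - q‖ ^ 2 ≤ (‖y - z‖ + ‖z - q‖) ^ 2 := by gcongr
  set a := ‖y - z‖
  set b := ‖z - q‖
  have h6 : θ ^ 2 * (1 - θ ^ 2) * (a + b) ^ 2 ≤ (1 - θ ^ 2) * a ^ 2 + θ ^ 2 * b ^ 2 := by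
    nlinarith [sq_nonneg ((1 - θ ^ 2) * a - θ ^ 2 * b)]
  have h7 : θ ^ 2 * ‖y - q‖ ^ 2 ≤ a ^ 2 + θ ^ 2 * (2 * κ * ρ ^ 2) := by
    refine le_of_mul_le_mul_left ?_ h3
    have h8 := mul_le_mul_of_nonneg_left h5 (mul_pos (pow_pos h0 2) h3).le
    have h9 := mul_le_mul_of_nonneg_left h (pow_pos h0 2).le
    nlinarith
  rw [div_le_iff₀ (by positivity), add_mul, show -‖y - q‖ ^ 2 / (2 * ρ ^ 2) * (2 * (θ * ρ) ^ 2) =
    -(θ ^ 2 * ‖y - q‖ ^ 2) by field_simp]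
  nlinarith

/-- `gk ρ = 2^d exp(-3|y-q|²/(8ρ²)) gk (2ρ)` -/
theorem gk_tail (d : ℕ) {η : ℝ} (hη : 0 < η) : ∃ L : ℝ, 1 ≤ L ∧ ∀ (q : E) (ρ : ℝ) (y : E), 0 < ρ →
    L * ρ ≤ ‖y - q‖ → gk d q ρ y ≤ η * gk d q (2 * ρ) y := by
  obtain ⟨L, hL1, hL⟩ : ∃ L : ℝ, 1 ≤ L ∧ 2 ^ d * Real.exp (-(3 / 8 * L)) ≤ η := by
    have h := (Real.tendsto_exp_neg_atTop_nhds_zero.comp
      (tendsto_id.const_mul_atTop (show (0 : ℝ) < 3 / 8 by norm_num))).const_mul ((2 : ℝ) ^ d)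
    rw [mul_zero] at h
    exact ((eventually_ge_atTop 1).and (h.eventually (eventually_le_nhds hη))).exists
  refine ⟨L, hL1, fun q ρ y hρ h => ?_⟩
  rw [gk_double d q hρ y]
  refine mul_le_mul_of_nonneg_right (le_trans ?_ hL) (gk_pos d q (by positivity) y).le
  gcongr
  rw [le_div_iff₀ (by positivity)]
  have h1 : (L * ρ) ^ 2 ≤ ‖y - q‖ ^ 2 := by gcongr
  have h2 : L * ρ ^ 2 ≤ (L * ρ) ^ 2 := by
    rw [mul_pow]
    gcongr
    nlinarith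
  linarith

theorem gk_sq (d : ℕ) : ∃ K : ℝ, 0 < K ∧ ∀ (q : E) (ρ : ℝ) (y : E), 0 < ρ →
    ‖y - q‖ ^ 2 * gk d q ρ y ≤ K * ρ ^ 2 * gk d q (2 * ρ) y ∧
    ‖y - q‖ * gk d q ρ y ≤ K * ρ * gk d q (2 * ρ) y := by
  refine ⟨2 ^ d * 4, by positivity, fun q ρ y hρ => ?_⟩
  have hg := (gk_pos d q (show 0 < 2 * ρ by positivity) y).le
  set x := ‖y - q‖ / ρ with hx
  have hx0 : 0 ≤ x := by positivity
  have e1 : ‖y - q‖ = x * ρ := by rw [hx]; field_simp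
  have e2 : 3 / 8 * ‖y - q‖ ^ 2 / ρ ^ 2 = 3 / 8 * x ^ 2 := by rw [e1]; field_simp
  have h1 : (1 + 3 / 8 * x ^ 2) * Real.exp (-(3 / 8 * x ^ 2)) ≤ 1 := by
    rw [Real.exp_neg, ← div_eq_mul_inv, div_le_one (Real.exp_pos _)]
    linarith [Real.add_one_le_exp (3 / 8 * x ^ 2)]
  have h0 := (Real.exp_pos (-(3 / 8 * x ^ 2))).le
  have h2 : x ^ 2 * Real.exp (-(3 / 8 * x ^ 2)) ≤ 4 := by nlinarith
  have h3 : x * Real.exp (-(3 / 8 * x ^ 2)) ≤ 4 := by nlinarith [mul_nonneg h0 (sq_nonneg (x - 1))]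
  rw [gk_double d q hρ y, e2, e1]
  constructor
  · calc _ = 2 ^ d * (x ^ 2 * Real.exp (-(3 / 8 * x ^ 2))) * ρ ^ 2 * gk d q (2 * ρ) y := by ring
      _ ≤ _ := by gcongr
  · calc _ = 2 ^ d * (x * Real.exp (-(3 / 8 * x ^ 2))) * ρ * gk d q (2 * ρ) y := by ring
      _ ≤ _ := by gcongr

/-- shifting the centre: `|y-q|² ≤ θ⁻²|y-z|² + (1-θ²)⁻¹ |z-q|²`
(`|a+b|² ≤ (1+κ)|a|² + (1+1/κ)|b|²`), choose `θ` with `θ^{-d} ≤ 1+η/3`, then `s`. -/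
theorem gk_shift (d : ℕ) {η : ℝ} (hη : 0 < η) : ∃ θ s : ℝ, 1 / 2 ≤ θ ∧ θ < 1 ∧ 0 < s ∧
    ∀ (z q : E) (ρ : ℝ) (y : E), 0 < ρ → ‖z - q‖ ≤ s * ρ →
      gk d z (θ * ρ) y ≤ (1 + η) * gk d q ρ y := by
  have hc : ContinuousAt (fun z : ℝ × ℝ => (z.1⁻¹) ^ d * Real.exp z.2) (1, 0) :=
    ((continuousAt_fst.inv₀ one_ne_zero).pow d).mul (Real.continuous_exp.continuousAt.comp
      continuousAt_snd)
  have h1 := hc.eventually (gt_mem_nhds (show _ < 1 + η by simpa using hη))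
  rw [nhds_prod_eq] at h1
  obtain ⟨A, hA, B, hB, hAB⟩ := eventually_prod_iff.1 h1
  obtain ⟨θ, hθA, hθ1, hθ2⟩ : ∃ θ, A θ ∧ 1 / 2 ≤ θ ∧ θ < 1 :=
    ((hA.filter_mono nhdsWithin_le_nhds).and
      (((eventually_ge_nhds (show (1 / 2 : ℝ) < 1 by norm_num)).filter_mono nhdsWithin_le_nhds).and
        (self_mem_nhdsWithin : ∀ᶠ θ in 𝓝[<] (1 : ℝ), θ < 1))).exists
  obtain ⟨κ, hκB, hκ⟩ : ∃ κ, B κ ∧ 0 < κ := ((hB.filter_mono nhdsWithin_le_nhds).and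
    (self_mem_nhdsWithin : ∀ᶠ θ in 𝓝[>] (0 : ℝ), 0 < θ)).exists
  have hθ0 : 0 < θ := by linarith
  have h3 : 0 < 1 - θ ^ 2 := by nlinarith
  refine ⟨θ, √(2 * κ * (1 - θ ^ 2)), hθ1, hθ2, by positivity, fun z q ρ y hρ h => ?_⟩
  refine (gk_shift_aux d hθ0 hθ2 hρ (κ := κ) ?_ y).trans
    (mul_le_mul_of_nonneg_right (hAB hθA hκB).le (gk_pos d q hρ y).le)
  calc _ ≤ (√(2 * κ * (1 - θ ^ 2)) * ρ) ^ 2 := by gcongr
    _ = _ := by rw [mul_pow, Real.sq_sqrt (by positivity)]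

theorem gk_far (d : ℕ) (L : ℝ) : ∃ K : ℝ, 0 < K ∧ ∀ (p q y : E), ‖q - p‖ ≤ L →
    gk d q 1 y ≤ K * gk d p (3 / 2) y := by
  refine ⟨(2 / 3 : ℝ)⁻¹ ^ d * Real.exp (L ^ 2), by positivity, fun p q y h => ?_⟩
  have := gk_shift_aux d (θ := 2 / 3) (by norm_num) (by norm_num) (ρ := 3 / 2) (by norm_num)
    (κ := L ^ 2) (z := q) (q := p) (by
      have : ‖q - p‖ ^ 2 ≤ L ^ 2 := by gcongr
      nlinarith [sq_nonneg L]) y
  rwa [show (2 / 3 : ℝ) * (3 / 2) = 1 by norm_num] at this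

/-- domination needed for `Dat.ident` -/
theorem gk_dom (d : ℕ) (q : E) {ρ : ℝ} (hρ : 0 < ρ) : ∃ L : ℝ, ∀ y : E,
    (1 + ‖y - q‖) ^ 2 * gk d q ρ y ≤ L * gk d 0 (2 * ρ) y := by
  have hs : 0 < √(2 * π) := by have := Real.pi_pos; positivity
  obtain ⟨k, hk, hk2⟩ : ∃ k : ℝ, 0 < k ∧ k = 5 / (18 * ρ ^ 2) := ⟨_, by positivity, rfl⟩
  refine ⟨(2 + 2 / k) * (3 / 2) ^ d * ((3 / 4 : ℝ)⁻¹ ^ d * Real.exp (‖q‖ ^ 2 / ρ ^ 2)), fun y => ?_⟩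
  have h1 := gk_shift_aux d (θ := 3 / 4) (by norm_num) (by norm_num) (ρ := 2 * ρ) (by positivity)
    (κ := ‖q‖ ^ 2 / ρ ^ 2) (z := q) (q := 0) (by
      rw [sub_zero]
      field_simp
      nlinarith [sq_nonneg ‖q‖]) y
  have h2 : gk d q ρ y = (3 / 2) ^ d * Real.exp (-(k * ‖y - q‖ ^ 2)) *
      gk d q (3 / 4 * (2 * ρ)) y := by
    unfold gk
    rw [mul_mul_mul_comm, ← mul_pow, ← Real.exp_add, hk2]
    congr 2 <;> field_simp <;> ring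
  set a := ‖y - q‖
  have h3 : (1 + k * a ^ 2) * Real.exp (-(k * a ^ 2)) ≤ 1 := by
    rw [Real.exp_neg, ← div_eq_mul_inv, div_le_one (Real.exp_pos _)]
    linarith [Real.add_one_le_exp (k * a ^ 2)]
  have h0 := (Real.exp_pos (-(k * a ^ 2))).le
  have h4 : (1 + a) ^ 2 ≤ (2 + 2 / k) * (1 + k * a ^ 2) := by
    have : (2 + 2 / k) * (1 + k * a ^ 2) = 2 + 2 * a ^ 2 + (2 / k + 2 * k * a ^ 2) := by
      field_simp
      ring
    have h5 : 0 ≤ 2 / k + 2 * k * a ^ 2 := by positivity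
    nlinarith [sq_nonneg (a - 1)]
  have h5 : (1 + a) ^ 2 * Real.exp (-(k * a ^ 2)) ≤ 2 + 2 / k :=
    calc _ ≤ (2 + 2 / k) * (1 + k * a ^ 2) * Real.exp (-(k * a ^ 2)) := by gcongr
      _ = (2 + 2 / k) * ((1 + k * a ^ 2) * Real.exp (-(k * a ^ 2))) := by ring
      _ ≤ _ := mul_le_of_le_one_right (by positivity) h3
  have h6 := (gk_pos d q (show 0 < 3 / 4 * (2 * ρ) by positivity) y).le
  rw [h2]
  calc _ = (1 + a) ^ 2 * Real.exp (-(k * a ^ 2)) * (3 / 2) ^ d * gk d q (3 / 4 * (2 * ρ)) y := by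
        ring
    _ ≤ (2 + 2 / k) * (3 / 2) ^ d * ((3 / 4 : ℝ)⁻¹ ^ d * Real.exp (‖q‖ ^ 2 / ρ ^ 2) *
        gk d 0 (2 * ρ) y) := by gcongr
    _ = _ := by ring

theorem hasGradientAt_gk (d : ℕ) (q : E) (ρ : ℝ) (y : E) :
    HasGradientAt (gk d q ρ) ((-(gk d q ρ y) / ρ ^ 2) • (y - q)) y := by
  have h1 : HasFDerivAt (fun y : E => ‖y - q‖ ^ 2) (2 • innerSL ℝ (y - q)) y := by
    simpa using ((hasFDerivAt_id y).sub_const q).norm_sq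
  have h2 := (((h1.neg.const_mul (2 * ρ ^ 2)⁻¹).exp).const_mul ((√(2 * π) * ρ)⁻¹ ^ d))
  rw [hasGradientAt_iff_hasFDerivAt]
  have e1 : gk d q ρ = fun y => (√(2 * π) * ρ)⁻¹ ^ d *
      Real.exp ((2 * ρ ^ 2)⁻¹ * (-fun y => ‖y - q‖ ^ 2) y) := by
    ext x
    simp [gk, div_eq_inv_mul]
  rw [e1]
  refine h2.congr_fderiv ?_
  ext v
  simp [div_eq_inv_mul]
  ring

theorem hasDerivAt_gk (d : ℕ) (q : E) {ρ : ℝ} (hρ : 0 < ρ) (y : E) :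
    HasDerivAt (fun r => gk d q r y) ((‖y - q‖ ^ 2 / ρ ^ 2 - d) / ρ * gk d q ρ y) ρ := by
  have hs : 0 < √(2 * π) := by have := Real.pi_pos; positivity
  have h1 := (((hasDerivAt_id' ρ).const_mul √(2 * π)).fun_inv (by positivity)).fun_pow d
  have h2 := ((hasDerivAt_const ρ (-‖y - q‖ ^ 2)).fun_div
    (((hasDerivAt_id' ρ).fun_pow 2).const_mul 2) (by positivity)).exp
  refine (h1.fun_mul h2).congr_deriv ?_
  unfold gk
  generalize √(2 * π) = a at hs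
  rcases d with _ | d
  · simp
    field_simp
  · simp only [Nat.add_sub_cancel, pow_succ (a * ρ)⁻¹]
    generalize (a * ρ)⁻¹ ^ d = b
    push_cast
    field_simp
    ring

/-- `divT` of a product with a scalar -/
theorem divT_smul {φ : E → ℝ} {X : E → E} {g y : E} (w : E) (hφ : HasGradientAt φ g y)
    (hX : DifferentiableAt ℝ X y) :
    divT (fun x => φ x • X x) (y, w) = φ y * divT X (y, w) + (⟪g, X y⟫ - ⟪g, w⟫ * ⟪w, X y⟫) := by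
  have h1 := (hφ.hasFDerivAt.smul hX.hasFDerivAt).fderiv
  have h2 : fderiv ℝ (fun x => φ x • X x) y = φ y • fderiv ℝ X y +
      (InnerProductSpace.toDual ℝ E g).smulRight (X y) := h1
  have h3 : trc ((InnerProductSpace.toDual ℝ E g).smulRight (X y)) = ⟪g, X y⟫ := by
    have := LinearMap.trace_smulRight (R := ℝ)
      ((InnerProductSpace.toDual ℝ E g : E →L[ℝ] ℝ) : E →ₗ[ℝ] ℝ) (X y)
    exact this
  simp only [divT, h2]
  rw [show trc (φ y • fderiv ℝ X y + (InnerProductSpace.toDual ℝ E g).smulRight (X y)) =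
    φ y * trc (fderiv ℝ X y) + trc ((InnerProductSpace.toDual ℝ E g).smulRight (X y)) by
      simp [trc], h3]
  simp [inner_add_right, inner_smul_right]
  ring

theorem divT_const (a y w : E) : divT (fun _ => a) (y, w) = 0 := by
  simp [divT, trc]

theorem divT_sub_const (q y w : E) :
    divT (fun x => x - q) (y, w) = (finrank ℝ E : ℝ) - ‖w‖ ^ 2 := by
  have : fderiv ℝ (fun x : E => x - q) y = ContinuousLinearMap.id ℝ E :=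
    ((hasFDerivAt_id y).sub_const q).fderiv
  simp [divT, trc, this]

end Crest.Agent.R246.B2
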