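import Crest.Agent.R246.B2.Loc
import Crest.Agent.R246.B2.Const

/-!
# Row 246, block B2: energy on vertical lines
-/

set_option autoImplicit false
set_option linter.unusedSectionVars false

open MeasureTheory Metric Filter Topology Set Module
open scoped RealInnerProductSpace ENNReal ContDiff Real

noncomputable section

namespace Crest.Agent.R246.B2

variable {E : Type} [NormedAddCommGroup E] [InnerProductSpace ℝ E] [FiniteDimensional ℝ E]
  [MeasurableSpace E] [BorelSpace E]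

theorem tanh_mono {a b : ℝ} (h : a ≤ b) : Real.tanh a ≤ Real.tanh b := by
  rw [← Real.artanh_le_artanh_iff ⟨Real.neg_one_lt_tanh a, Real.tanh_lt_one a⟩
    ⟨Real.neg_one_lt_tanh b, Real.tanh_lt_one b⟩, Real.artanh_tanh, Real.artanh_tanh]
  exact h

theorem sign_const {ε : ℝ} {u : E → ℝ} (hc : Crit ε u) {K : Set E} (hK : Convex ℝ K)
    (h0 : (0 : E) ∉ K) (h : ∀ y ∈ K, 3 / 4 ≤ |u y|) {a b : E} (ha : a ∈ K) (hb : b ∈ K) {ς : ℝ}
    (hς : ς = 1 ∨ ς = -1) (h1 : 0 ≤ ς * u a) : 3 / 4 ≤ ς * u b := by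
  have hcont : ContinuousOn (fun y => ς * u y) K :=
    continuousOn_const.mul (hc.smooth.continuousOn.mono fun y hy h' => h0 (h' ▸ hy))
  by_contra h2
  have h3 : ς * u b ≤ 0 := by
    have := h b hb
    rcases hς with h' | h' <;> subst h' <;> rcases le_abs.1 this with h4 | h4 <;> linarith
  obtain ⟨y, hy, h4⟩ := hK.isPreconnected.intermediate_value hb ha hcont ⟨h3, h1⟩
  have := h y hy
  have h5 : u y = 0 := by rcases hς with h' | h' <;> subst h' <;> simpa using h4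
  rw [h5] at this
  norm_num at this

theorem line_A {f : E → ℝ≥0∞} {S S' : Set E} (hS : S' ⊆ S) {e : E} {ρ : E → ℝ} {B : ℝ≥0∞}
    (h1 : ∀ z ∈ S, ∫⁻ t in Icc (-ρ z) (ρ z), f (z + t • e) ≤ B)
    (h2 : ∀ z ∈ S, ∀ ℓ : ℝ, z + ℓ • e ∈ S → |ℓ| ≤ ρ z) (x : E) :
    ∫⁻ t : ℝ, S'.indicator f (x + t • e) ≤ B := by
  by_cases h : ∃ t₀ : ℝ, x + t₀ • e ∈ S'
  · obtain ⟨t₀, ht⟩ := h
    rw [← lintegral_add_left_eq_self _ t₀]
    refine le_trans ?_ (h1 _ (hS ht))
    rw [← lintegral_indicator measurableSet_Icc]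
    refine lintegral_mono fun t => ?_
    have e1 : x + (t₀ + t) • e = x + t₀ • e + t • e := by rw [add_smul, add_assoc]
    by_cases h3 : x + (t₀ + t) • e ∈ S'
    · have := h2 _ (hS ht) t (e1 ▸ hS h3)
      rw [indicator_of_mem h3, indicator_of_mem (mem_Icc.2 (abs_le.1 this)), e1]
    · simp [indicator_of_notMem h3]
  · push Not at h
    simp [indicator_of_notMem (h _)]

theorem line_B {ε : ℝ} {u : E → ℝ} (hε : 0 < ε) (hc : Crit ε u) {p e : E} (he : ‖e‖ = 1)
    {L s₀ R T s ς₀ : ℝ} {S : Set E} (hs₀ : 0 < s₀) (hL : 3 * s₀ ≤ L) (hp : 2 * L ≤ ‖p‖)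
    (hR : 0 < R) (hς : ς₀ = 1 ∨ ς₀ = -1)
    (hP : ∀ z ∈ S, Prof ε u e z R T s) (hT : 3 / 4 + s ≤ Real.tanh ((R - T) / √2))
    (h2 : ∀ z ∈ S, ∀ ℓ : ℝ, z + ℓ • e ∈ S → |ℓ| ≤ R * (ε * ‖z‖))
    (h3 : ∀ z ∈ S, |⟪e, z - p⟫| ≤ s₀ ∧ R * (ε * ‖z‖) ≤ s₀)
    (h4 : ∀ y ∈ ball p (2 * L), s₀ < |⟪e, y - p⟫| → 3 / 4 ≤ ς₀ * u y)
    {z : E} (hz : z ∈ S) (hzL : z ∈ ball p L) :
    ENNReal.ofReal (1 / 2) ≤
      ∫⁻ t : ℝ, (Sᶜ ∩ ball p (2 * L)).indicator (fun y => ENNReal.ofReal (ed ε u y)) (z + t • e) := by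
  obtain ⟨ς, t₀, hς', ht₀, hpr⟩ := hP z hz
  obtain ⟨hh, hRs⟩ := h3 z hz
  rw [mem_ball, dist_eq_norm] at hzL
  have hball : ∀ t : ℝ, |t| ≤ 3 * s₀ → z + t • e ∈ ball p (2 * L) := fun t ht => by
    rw [mem_ball, dist_eq_norm, show z + t • e - p = (z - p) + t • e by abel]
    refine (norm_add_le _ _).trans_lt ?_
    rw [norm_smul, he, Real.norm_eq_abs]
    linarith
  have hne : ∀ t : ℝ, |t| ≤ 3 * s₀ → z + t • e ≠ 0 := fun t ht h0 => by
    have := hball t ht
    rw [h0, mem_ball, dist_zero_left] at this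
    linarith
  have hz0 : z ≠ 0 := by simpa using hne 0 (by simp; positivity)
  have hρ : 0 < R * (ε * ‖z‖) := by have := norm_pos_iff.2 hz0; positivity
  set ρ := R * (ε * ‖z‖) with hρdef
  have hee : ⟪e, e⟫ = (1 : ℝ) := by rw [real_inner_self_eq_norm_sq, he]; norm_num
  -- the end of the profile with sign `-ς₀`
  have hend : ∀ κ : ℝ, (κ = 1 ∨ κ = -1) → 3 / 4 ≤ κ * ς * u (z + (κ * ρ) • e) := by
    intro κ hκ
    have hκ2 : κ * κ = 1 := by rcases hκ with h | h <;> simp [h]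
    have hκa : |κ| = 1 := by rcases hκ with h | h <;> simp [h]
    have := hpr ((κ * R) • e) (by
      rw [norm_smul, he, Real.norm_eq_abs, abs_mul, hκa, abs_of_pos hR]
      simp)
    rw [smul_smul, show ε * ‖z‖ * (κ * R) = κ * ρ by rw [hρdef]; ring, inner_smul_right, hee,
      mul_one] at this
    have h5 : Real.tanh ((R - T) / √2) ≤ κ * Real.tanh ((κ * R - t₀) / √2) := by
      have h6 := abs_le.1 ht₀
      rcases hκ with h | h
      · rw [h, one_mul, one_mul]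
        exact tanh_mono (by gcongr; exact h6.2)
      · rw [h, neg_one_mul, ← Real.tanh_neg]
        refine tanh_mono ?_
        rw [← neg_div]
        gcongr
        linarith [h6.1]
    have h7 := abs_le.1 this
    rcases hκ with h | h <;> rcases hς' with h' | h' <;> subst h <;> subst h' <;>
      simp only [one_mul, neg_mul, mul_neg, mul_one, neg_neg] at * <;> linarith [h7.1, h7.2]
  have hfar : ∀ κ : ℝ, (κ = 1 ∨ κ = -1) → 3 / 4 ≤ ς₀ * u (z + (κ * (3 * s₀)) • e) := by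
    intro κ hκ
    have hκa : |κ| = 1 := by rcases hκ with h | h <;> simp [h]
    refine h4 _ (hball _ (by rw [abs_mul, hκa, one_mul, abs_of_pos (by positivity)])) ?_
    rw [show z + (κ * (3 * s₀)) • e - p = (z - p) + (κ * (3 * s₀)) • e by abel, inner_add_right,
      inner_smul_right, hee, mul_one]
    have := abs_le.1 hh
    rcases hκ with h | h <;> subst h
    · exact lt_abs.2 (Or.inl (by linarith [this.1]))
    · exact lt_abs.2 (Or.inr (by linarith [this.2]))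
  have hsub : ∀ a b : ℝ, (∀ t ∈ Ioo a b, ρ < |t| ∧ |t| ≤ 3 * s₀) →
      ∫⁻ t in Ioo a b, ENNReal.ofReal (ed ε u (z + t • e)) ≤
        ∫⁻ t : ℝ, (Sᶜ ∩ ball p (2 * L)).indicator (fun y => ENNReal.ofReal (ed ε u y))
          (z + t • e) := by
    intro a b hab
    rw [← lintegral_indicator measurableSet_Ioo]
    refine lintegral_mono fun t => ?_
    by_cases ht : t ∈ Ioo a b
    · have hm : z + t • e ∈ Sᶜ ∩ ball p (2 * L) :=
        ⟨fun h => absurd (h2 z hz t h) (not_le.2 (hab t ht).1), hball t (hab t ht).2⟩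
      rw [indicator_of_mem ht, indicator_of_mem hm]
    · simp [indicator_of_notMem ht]
  have habs : ∀ κ v : ℝ, (κ = 1 ∨ κ = -1) → 3 / 4 ≤ κ * v → 3 / 4 ≤ |v| := by
    intro κ v hκ h
    rcases hκ with h' | h' <;> subst h'
    · exact le_abs.2 (Or.inl (by linarith))
    · exact le_abs.2 (Or.inr (by linarith))
  by_cases hcase : ς₀ = ς
  · -- go down
    have a1 := hend (-1) (Or.inr rfl)
    have a2 := hfar (-1) (Or.inr rfl)
    refine le_trans (mm1d hε hc he (a := -1 * (3 * s₀)) (b := -1 * ρ) (by linarith)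
      (fun t ht => hne t (abs_le.2 ⟨by linarith [ht.1], by linarith [ht.2]⟩))
      (habs _ _ hς a2) (habs (-1 * ς) _ (by rcases hς' with h | h <;> simp [h]) a1) ?_)
      (hsub _ _ fun t ht => ⟨lt_abs.2 (Or.inr (by linarith [ht.2])),
        abs_le.2 ⟨by linarith [ht.1], by linarith [ht.2]⟩⟩)
    subst hcase
    rcases hς with h | h <;> subst h <;> nlinarith
  · have a1 := hend 1 (Or.inl rfl)
    have a2 := hfar 1 (Or.inl rfl)
    refine le_trans (mm1d hε hc he (a := 1 * ρ) (b := 1 * (3 * s₀)) (by linarith)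
      (fun t ht => hne t (abs_le.2 ⟨by linarith [ht.1], by linarith [ht.2]⟩))
      (habs (1 * ς) _ (by rcases hς' with h | h <;> simp [h]) a1) (habs _ _ hς a2) ?_)
      (hsub _ _ fun t ht => ⟨lt_abs.2 (Or.inl (by linarith [ht.1])),
        abs_le.2 ⟨by linarith [ht.1], by linarith [ht.2]⟩⟩)
    rcases hς with h | h <;> rcases hς' with h' | h' <;> subst h <;> subst h' <;>
      first | exact absurd rfl hcase | nlinarith

theorem lintegral_mu_ind {ε : ℝ} {u : E → ℝ} (hc : Crit ε u) {S : Set E} (hS : MeasurableSet S)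
    {φ : E → ℝ≥0∞} (hφ : Measurable φ) :
    ∫⁻ y in S, φ y ∂mu ε u = ∫⁻ y, φ y * S.indicator (fun y => ENNReal.ofReal (ed ε u y)) y := by
  rw [mu_eq hc, ← lintegral_indicator hS, lintegral_withDensity_eq_lintegral_mul _
    (meas_ed hc).ennreal_ofReal (hφ.indicator hS)]
  refine lintegral_congr fun y => ?_
  by_cases h : y ∈ S <;> simp [h, mul_comm]

theorem setIntegral_gk_le {d : ℕ} {c : ℝ → ℝ} {Λ ε : ℝ} {u : E → ℝ} (h : Dat d c Λ ε u) (p : E)
    {S : Set E} {B : ℝ} (hB : 0 ≤ B)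
    (hb : ∫⁻ y in S, ENNReal.ofReal (gk d p 1 y) ∂mu ε u ≤ ENNReal.ofReal B) :
    ∫ y in S, gk d p 1 y ∂mu ε u ≤ B := by
  rw [integral_eq_lintegral_of_nonneg_ae (Eventually.of_forall fun y => (gk_pos d p one_pos y).le)
    (continuous_gk d p 1).aestronglyMeasurable]
  exact ENNReal.toReal_le_of_le_ofReal hB hb

/-- if every vertical line carries energy at most `B` in `S`, so does the Gaussian average -/
theorem sum_A {d : ℕ} {c : ℝ → ℝ} {Λ ε : ℝ} {u : E → ℝ} (h : Dat d c Λ ε u) (p : E) {e : E}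
    (he : ‖e‖ = 1) {S : Set E} (hS : MeasurableSet S) {B : ℝ} (hB : 0 ≤ B)
    (hl : ∀ x : E, ∫⁻ t : ℝ, S.indicator (fun y => ENNReal.ofReal (ed ε u y)) (x + t • e) ≤
      ENNReal.ofReal B) :
    ∫ y in S, gk d p 1 y ∂mu ε u ≤ B := by
  refine setIntegral_gk_le h p hB ?_
  have hm : Measurable fun y => ENNReal.ofReal (gk d p 1 y) :=
    (continuous_gk d p 1).measurable.ennreal_ofReal
  have hi := (meas_ed h.crit).ennreal_ofReal.indicator hS
  rw [lintegral_mu_ind h.crit hS hm, lintegral_line he p (f := fun y => ENNReal.ofReal (gk d p 1 y) *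
    S.indicator (fun y => ENNReal.ofReal (ed ε u y)) y) (hm.mul hi)]
  have h1 : ∫⁻ x : (ℝ ∙ e)ᗮ, ENNReal.ofReal (gk d 0 1 x) = 1 := by
    rw [← ofReal_integral_eq_lintegral_ofReal (integrable_gk d 0 one_pos)
      (Eventually.of_forall fun y => (gk_pos d 0 one_pos y).le), ← finrank_orth' h.dim he,
      integral_gk 0 one_pos, ENNReal.ofReal_one]
  calc _ ≤ ∫⁻ x : (ℝ ∙ e)ᗮ, ENNReal.ofReal (gk d 0 1 x) * ENNReal.ofReal B := by
        refine lintegral_mono fun x => ?_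
        refine le_trans (lintegral_mono fun t => ?_)
          ((lintegral_const_mul' _ _ ENNReal.ofReal_ne_top).le.trans
            (mul_le_mul_right (hl (p + x)) _))
        refine mul_le_mul_left (ENNReal.ofReal_le_ofReal ?_) _
        rw [gk_line d he]
        refine mul_le_of_le_one_right (gk_pos d 0 one_pos _).le (Real.exp_le_one_iff.2 ?_)
        have := sq_nonneg t
        rw [neg_div]
        exact neg_nonpos.2 (by positivity)
    _ = _ := by rw [lintegral_mul_const' _ _ ENNReal.ofReal_ne_top, h1, one_mul]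

theorem sum_B {d : ℕ} {c : ℝ → ℝ} {Λ ε : ℝ} {u : E → ℝ} (h : Dat d c Λ ε u) {e : E}
    (he : ‖e‖ = 1) {S S' : Set E} (hS : MeasurableSet S) (hS' : MeasurableSet S')
    (hl : ∀ x : E, ∫⁻ t : ℝ, S.indicator (fun y => ENNReal.ofReal (ed ε u y)) (x + t • e) ≤
      4 * ∫⁻ t : ℝ, S'.indicator (fun y => ENNReal.ofReal (ed ε u y)) (x + t • e)) :
    mu ε u S ≤ 4 * mu ε u S' := by
  have hi := (meas_ed h.crit).ennreal_ofReal.indicator hS
  have hi' := (meas_ed h.crit).ennreal_ofReal.indicator hS'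
  rw [mu_eq h.crit, withDensity_apply _ hS, withDensity_apply _ hS', ← lintegral_indicator hS,
    ← lintegral_indicator hS', lintegral_line he 0 hi, lintegral_line he 0 hi',
    ← lintegral_const_mul' _ _ (by norm_num)]
  exact lintegral_mono fun x => hl _

theorem setIntegral_gk_le_mu {d : ℕ} {c : ℝ → ℝ} {Λ ε : ℝ} {u : E → ℝ} (h : Dat d c Λ ε u) (p : E)
    {S : Set E} {B : ℝ} (hB : 0 ≤ B) (hb : mu ε u S ≤ ENNReal.ofReal B) :
    ∫ y in S, gk d p 1 y ∂mu ε u ≤ B := by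
  refine setIntegral_gk_le h p hB (le_trans ?_ hb)
  rw [← setLIntegral_one]
  refine lintegral_mono fun y => ?_
  rw [← ENNReal.ofReal_one]
  refine ENNReal.ofReal_le_ofReal ((gk_le d p one_pos y).trans (pow_le_one₀ (by positivity) ?_))
  refine inv_le_one_of_one_le₀ ?_
  rw [mul_one]
  exact Real.one_le_sqrt.2 (by linarith [Real.pi_gt_three])

/-- from a point of the strip to the centre -/
theorem transfer (d : ℕ) {Λ : ℝ} (L : ℝ) {η : ℝ} (hΛ : 0 < Λ) (hη : 0 < η) :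
    ∃ s₀ δ : ℝ, 0 < s₀ ∧ 0 < δ ∧
    ∀ (c : ℝ → ℝ) (ε : ℝ) (u : E → ℝ), Dat d c Λ ε u → ∀ p e : E, ‖e‖ = 1 → 1 ≤ δ * ‖p‖ →
      tg d ε u e p (3 / 2) ≤ δ → ∀ z : E, ‖z - p‖ ≤ L → |⟪e, z - p⟫| ≤ s₀ →
        ∀ a, 0 < a → a ≤ 1 / 2 → th d (mu ε u) z a ≤ th d (mu ε u) p 1 + η := by
  obtain ⟨θ, s, hθ1, hθ2, hs, hsh⟩ := gk_shift (E := E) d (η := η / (3 * Λ)) (by positivity)
  obtain ⟨δ₁, hδ₁, hco⟩ := constancy (E := E) d Λ (|L| + s) (η := η / 3) (by positivity)
  have hL := abs_nonneg L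
  refine ⟨s, min δ₁ (min (1 / (2 * |L| + 2)) (η / (6 * Λ))), hs, by positivity, ?_⟩
  intro c ε u h p e he hp ht z hz hh a ha ha2
  have hn := norm_nonneg p
  have p1 : 1 ≤ δ₁ * ‖p‖ := hp.trans (by gcongr; exact min_le_left _ _)
  have p2 : 1 ≤ 1 / (2 * |L| + 2) * ‖p‖ :=
    hp.trans (by gcongr; exact (min_le_right _ _).trans (min_le_left _ _))
  have p3 : 1 ≤ η / (6 * Λ) * ‖p‖ :=
    hp.trans (by gcongr; exact (min_le_right _ _).trans (min_le_right _ _))
  rw [div_mul_eq_mul_div, one_mul, le_div_iff₀ (by positivity), one_mul] at p2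
  rw [div_mul_eq_mul_div, le_div_iff₀ (by positivity), one_mul] at p3
  have hzn : ‖p‖ / 2 + 1 ≤ ‖z‖ := by
    have := norm_sub_norm_le p z
    rw [norm_sub_rev] at this
    linarith [le_abs_self L]
  have hee : ⟪e, e⟫ = (1 : ℝ) := by rw [real_inner_self_eq_norm_sq, he]; norm_num
  set k := ⟪e, z - p⟫ with hk
  have c1 := hco c ε u h p e he p1 (ht.trans (min_le_left _ _)) (z - p - k • e)
    (by rw [inner_sub_right, inner_smul_right, hee, mul_one, sub_self])
    ((norm_sub_le _ _).trans (by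
      rw [norm_smul, he, mul_one, Real.norm_eq_abs]; linarith [le_abs_self L]))
  set q := p + (z - p - k • e) with hq
  have c2 : th d (mu ε u) z (θ * 1) ≤ (1 + η / (3 * Λ)) * th d (mu ε u) q 1 := by
    rw [th, th, ← integral_const_mul]
    refine integral_mono (h.integ _ _ (by linarith)) ((h.integ _ _ one_pos).const_mul _)
      fun y => hsh z q 1 y one_pos ?_
    rw [show z - q = k • e by rw [hq]; abel, norm_smul, he, Real.norm_eq_abs]
    simpa using hh
  have c3 := h.mono z a (θ * 1) ha (by linarith) (by linarith)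
  have c4 := h.upper q 1 one_pos
  have c5 : Λ * (θ * 1 / ‖z‖) ≤ η / 3 := by
    rw [← mul_div_assoc, div_le_iff₀ (by linarith)]
    nlinarith
  have c6 : η / (3 * Λ) * th d (mu ε u) q 1 ≤ η / 3 := by
    calc _ ≤ η / (3 * Λ) * Λ := by gcongr
      _ = _ := by field_simp
  have := (abs_le.1 c1).2
  nlinarith

end Crest.Agent.R246.B2
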