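import Crest.Agent.R246.B2.Bas

/-!
# Row 246, block B2: energy near a good transition point, one-dimensional lemmas
-/

set_option autoImplicit false
set_option linter.unusedSectionVars false

open MeasureTheory Metric Filter Topology Set Module
open scoped RealInnerProductSpace ENNReal ContDiff Real

noncomputable section

namespace Crest.Agent.R246.B2

variable {E : Type} [NormedAddCommGroup E] [InnerProductSpace ℝ E] [FiniteDimensional ℝ E]
  [MeasurableSpace E] [BorelSpace E]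

theorem loca_deriv (x : ℝ) : HasDerivAt Real.tanh (1 - Real.tanh x ^ 2) x := by
  have hc := (Real.cosh_pos x).ne'
  have h := (Real.hasDerivAt_sinh x).div (Real.hasDerivAt_cosh x) hc
  have e : Real.tanh = Real.sinh / Real.cosh := funext fun x => Real.tanh_eq_sinh_div_cosh x
  rw [← e] at h
  refine h.congr_deriv ?_
  rw [Real.tanh_eq_sinh_div_cosh]
  field_simp

theorem loca_top : Tendsto Real.tanh atTop (𝓝 1) := by
  have h : Tendsto (fun x : ℝ => Real.exp (-x) ^ 2) atTop (𝓝 (0 ^ 2)) := Real.tendsto_exp_neg_atTop_nhds_zero.pow 2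
  have h2 := ((tendsto_const_nhds (x := (1 : ℝ))).sub h).div ((tendsto_const_nhds (x := (1 : ℝ))).add h)
    (by norm_num)
  rw [show ((1 : ℝ) - 0 ^ 2) / (1 + 0 ^ 2) = 1 by norm_num] at h2
  refine h2.congr fun x => ?_
  have := (Real.exp_pos x).ne'
  simp only [Pi.div_apply, Real.tanh_eq, Real.exp_neg]
  field_simp

theorem loca_W {a b : ℝ} (ha : |a| ≤ 1) (hb : |b| ≤ 1) : W a ≤ W b + |a - b| := by
  have e : W a - W b = (a - b) * (-(a + b) * (2 - a ^ 2 - b ^ 2) / 4) := by unfold W; ring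
  have h1 : |a + b| ≤ 2 := (abs_add_le _ _).trans (by linarith)
  have a2 := (sq_le_one_iff_abs_le_one a).2 ha
  have b2 := (sq_le_one_iff_abs_le_one b).2 hb
  have h2 : |2 - a ^ 2 - b ^ 2| ≤ 2 := abs_le.2 ⟨by linarith, by nlinarith [sq_nonneg a, sq_nonneg b]⟩
  have h3 : |-(a + b) * (2 - a ^ 2 - b ^ 2) / 4| ≤ 1 := by
    rw [abs_div, abs_mul, abs_neg, div_le_one (by norm_num)]
    have := mul_le_mul h1 h2 (abs_nonneg _) zero_le_two
    rw [abs_of_pos (by norm_num : (0 : ℝ) < 4)]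
    linarith
  have h4 := le_abs_self (W a - W b)
  rw [e, abs_mul] at h4
  have h5 := mul_le_of_le_one_right (abs_nonneg (a - b)) h3
  linarith

/-- primitive `(h - h³/3)/√2`, `h = tanh(t/√2)`; limits `±σ/2` -/
theorem integral_W_tanh : Integrable (fun t : ℝ => 2 * W (Real.tanh (t / √2)) / sig) ∧
    ∫ t : ℝ, 2 * W (Real.tanh (t / √2)) / sig = 1 := by
  have hs : (0 : ℝ) < √2 := by positivity
  have hs2 : √2 * √2 = (2 : ℝ) := Real.mul_self_sqrt zero_le_two
  have hd : ∀ t : ℝ, HasDerivAt (fun t : ℝ => 3 / 4 * (Real.tanh (t / √2) - Real.tanh (t / √2) ^ 3 / 3))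
      (2 * W (Real.tanh (t / √2)) / sig) t := fun t => by
    have h1 : HasDerivAt (fun t : ℝ => Real.tanh (t / √2)) ((1 - Real.tanh (t / √2) ^ 2) * (1 / √2)) t :=
      HasDerivAt.comp (h := fun t : ℝ => t / √2) t (loca_deriv (t / √2)) ((hasDerivAt_id' t).div_const √2)
    refine ((h1.sub ((h1.pow 3).div_const 3)).const_mul (3 / 4)).congr_deriv ?_
    simp only [W, sig]
    field_simp
    ring
  have t1 : Tendsto (fun t : ℝ => Real.tanh (t / √2)) atTop (𝓝 1) := loca_top.comp (tendsto_id.atTop_div_const hs)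
  have t2 : Tendsto (fun t : ℝ => Real.tanh (t / √2)) atBot (𝓝 (-1)) := by
    refine (t1.comp tendsto_neg_atBot_atTop).neg.congr fun t => ?_
    simp only [Function.comp, neg_div, Real.tanh_neg, neg_neg]
  have u1 := (t1.sub ((t1.pow 3).div_const 3)).const_mul (3 / 4)
  have u2 := (t2.sub ((t2.pow 3).div_const 3)).const_mul (3 / 4)
  have hc : Continuous fun t : ℝ => 2 * W (Real.tanh (t / √2)) / sig := by
    have : Continuous Real.tanh := continuous_iff_continuousAt.2 fun x => (loca_deriv x).continuousAt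
    unfold W
    fun_prop
  have hi : Integrable fun t : ℝ => 2 * W (Real.tanh (t / √2)) / sig := by
    refine integrable_of_intervalIntegral_norm_tendsto (a := fun i : ℝ => -i) (b := fun i => i) (l := atTop) _
      (fun i => hc.integrableOn_Ioc) tendsto_neg_atTop_atBot tendsto_id
      ((u1.sub (u2.comp tendsto_neg_atTop_atBot)).congr fun i => ?_)
    have : ∀ t : ℝ, ‖2 * W (Real.tanh (t / √2)) / sig‖ = 2 * W (Real.tanh (t / √2)) / sig := fun t =>
      Real.norm_of_nonneg (div_nonneg (mul_nonneg zero_le_two (W_nonneg _)) sig_pos.le)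
    simp only [this]
    rw [intervalIntegral.integral_eq_sub_of_hasDerivAt (fun t _ => hd t) (hc.intervalIntegrable _ _)]
    rfl
  refine ⟨hi, ?_⟩
  rw [integral_of_hasDerivAt_of_tendsto hd hi u2 u1]
  norm_num

theorem locb_W {a b : ℝ} (ha : |a| ≤ 1) (hb : |b| ≤ 1) : W b - |a - b| ≤ W a := by
  have h1 : a ^ 2 ≤ 1 := (sq_le_one_iff_abs_le_one a).2 ha
  have h2 : b ^ 2 ≤ 1 := (sq_le_one_iff_abs_le_one b).2 hb
  have h3 : a ^ 2 - b ^ 2 ≤ 2 * |a - b| := by
    have h4 : |a + b| ≤ 2 := (abs_add_le a b).trans (by linarith)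
    calc a ^ 2 - b ^ 2 = (a + b) * (a - b) := by ring
      _ ≤ |a + b| * |a - b| := by rw [← abs_mul]; exact le_abs_self _
      _ ≤ _ := by gcongr
  have h4 : (a ^ 2 - b ^ 2) * (2 - a ^ 2 - b ^ 2) ≤ 2 * |a - b| * 2 :=
    (mul_le_mul_of_nonneg_right h3 (by linarith)).trans
      (mul_le_mul_of_nonneg_left (by nlinarith [sq_nonneg a, sq_nonneg b]) (by positivity))
  unfold W
  nlinarith

theorem locb_1d {θ : ℝ} (hθ : 0 < θ) (T : ℝ) : ∃ b : ℝ, 0 < b ∧ ∀ t₀ : ℝ, |t₀| ≤ T → ∀ ϵ : ℝ, 0 < ϵ →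
    1 - θ ≤ ∫ t in (-(b * ϵ))..(b * ϵ), 2 * W (Real.tanh ((t / ϵ - t₀) / √2)) / sig / ϵ := by
  obtain ⟨h1, h2⟩ := integral_W_tanh
  have h3 := intervalIntegral_tendsto_integral h1 tendsto_neg_atTop_atBot tendsto_id
  rw [h2] at h3
  obtain ⟨b, hb, hb0⟩ := ((h3.eventually (lt_mem_nhds (sub_lt_self 1 hθ))).and (eventually_gt_atTop 0)).exists
  refine ⟨b + |T|, by positivity, fun t₀ ht ϵ hϵ => ?_⟩
  rw [intervalIntegral.integral_div, intervalIntegral.integral_comp_div_sub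
    (fun t => 2 * W (Real.tanh (t / √2)) / sig) hϵ.ne', smul_eq_mul, mul_div_cancel_left₀ _ hϵ.ne',
    neg_div, mul_div_cancel_right₀ _ hϵ.ne']
  have h4 := abs_le.1 (ht.trans (le_abs_self T))
  exact hb.le.trans (intervalIntegral.integral_mono_interval (by linarith) (by simp only [id]; linarith)
    (by simp only [id]; linarith)
    (Eventually.of_forall fun t => div_nonneg (mul_nonneg zero_le_two (W_nonneg _)) sig_pos.le)
    h1.intervalIntegrable)

theorem locb_ball {H : Type} [NormedAddCommGroup H] [InnerProductSpace ℝ H] [FiniteDimensional ℝ H]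
    [MeasurableSpace H] [BorelSpace H] {θ ρ r : ℝ} (hθ : 0 ≤ θ) (hρ : 0 < ρ)
    (h : ∀ x : H, r ≤ ‖x‖ → gk (finrank ℝ H) 0 ρ x ≤ θ * gk (finrank ℝ H) 0 (2 * ρ) x) :
    1 - θ ≤ ∫ x in ball (0 : H) r, gk (finrank ℝ H) 0 ρ x := by
  have h1 := integral_add_compl (measurableSet_ball (x := (0 : H)) (ε := r))
    (integrable_gk (finrank ℝ H) (0 : H) hρ)
  have h2 : 0 < 2 * ρ := by positivity
  have h3 := (integrable_gk (finrank ℝ H) (0 : H) h2).const_mul θ
  have h4 : ∫ x in (ball (0 : H) r)ᶜ, gk (finrank ℝ H) 0 ρ x ≤ ∫ x : H, θ * gk (finrank ℝ H) 0 (2 * ρ) x :=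
    (setIntegral_mono_on (integrable_gk _ _ hρ).integrableOn h3.integrableOn measurableSet_ball.compl
      fun x hx => h x (by simpa using hx)).trans (setIntegral_le_integral h3
        (Eventually.of_forall fun x => mul_nonneg hθ (gk_pos _ _ h2 x).le))
  rw [integral_const_mul, integral_gk _ h2, mul_one] at h4
  rw [integral_gk _ hρ] at h1
  linarith

theorem locb_int {ε : ℝ} {u : E → ℝ} (h : Crit ε u) (hε : 0 < ε) {φ : E → ℝ} (hφ : Integrable φ (mu ε u)) :
    Integrable fun y => ed ε u y * φ y := by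
  rw [mu_eq h, integrable_withDensity_iff_integrable_smul' (meas_ed h).ennreal_ofReal
    (Eventually.of_forall fun _ => ENNReal.ofReal_lt_top)] at hφ
  simpa only [ENNReal.toReal_ofReal (ed_nonneg hε _), smul_eq_mul] using hφ

/-- the pointwise lower bound on the cylinder -/
theorem locb_pt {d : ℕ} {c : ℝ → ℝ} {Λ ε : ℝ} {u : E → ℝ} (h : Dat d c Λ ε u) {e z : E} (he : ‖e‖ = 1)
    (hz : z ≠ 0) {θ R s ς t₀ ρ t : ℝ} (hθ : 0 < θ) (hθ1 : θ < 1) (hR : R * ε ≤ θ) (hς : ς = 1 ∨ ς = -1)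
    (hP : ∀ x : E, ‖x‖ ≤ R → |u (z + (ε * ‖z‖) • x) - ς * Real.tanh ((⟪e, x⟫ - t₀) / √2)| ≤ s)
    (hρ : 0 < ρ) (x : (ℝ ∙ e)ᗮ) (h1 : ‖(x : E) + t • e‖ ≤ R * (ε * ‖z‖)) (h2 : |t| ≤ θ * ρ) :
    (1 - θ) ^ 2 * (gk d 0 ρ x *
      (2 * W (Real.tanh ((t / (ε * ‖z‖) - t₀) / √2)) / sig / (ε * ‖z‖) - 2 * s / sig / (ε * ‖z‖))) ≤
      (ed ε u (z + x + t • e) + ed ε u (z + x + t • e) * tl ε u e (z + x + t • e)) *
        gk d z ρ (z + x + t • e) := by
  have hε := h.pos
  have hz0 : 0 < ‖z‖ := norm_pos_iff.2 hz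
  have hϵ : 0 < ε * ‖z‖ := by positivity
  have hs := sig_pos
  have h3 : ‖(x : E) + t • e‖ ≤ θ * ‖z‖ := h1.trans (by rw [← mul_assoc]; gcongr)
  have h4 : ‖z + x + t • e‖ ≤ (1 + θ) * ‖z‖ := by
    rw [add_assoc]
    linarith [norm_add_le z ((x : E) + t • e)]
  have h5 : 0 < ‖z + x + t • e‖ := by
    have := norm_sub_le (z + x + t • e) ((x : E) + t • e)
    rw [add_assoc, add_sub_cancel_right, ← add_assoc] at this
    nlinarith
  have h6 := hP ((ε * ‖z‖)⁻¹ • ((x : E) + t • e)) (by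
    rw [norm_smul, norm_inv, Real.norm_of_nonneg hϵ.le, inv_mul_le_iff₀ hϵ, mul_comm]
    exact h1)
  rw [smul_inv_smul₀ hϵ.ne', ← add_assoc, inner_smul_right, inner_add_right, inner_orth, inner_smul_right,
    real_inner_self_eq_norm_sq, he, one_pow, mul_one, zero_add, ← div_eq_inv_mul] at h6
  have h7 : |Real.tanh ((t / (ε * ‖z‖) - t₀) / √2)| ≤ 1 := (Real.abs_tanh_lt_one _).le
  set τ := Real.tanh ((t / (ε * ‖z‖) - t₀) / √2)
  have h8 : W τ - s ≤ W (u (z + x + t • e)) := by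
    have h9 := locb_W (h.crit.abs_le (z + x + t • e)) (b := ς * τ)
      (by rcases hς with rfl | rfl <;> simpa using h7)
    have h10 : W (ς * τ) = W τ := by rcases hς with rfl | rfl <;> simp [W]
    linarith
  have h9 := h.le_ed he (norm_pos_iff.1 h5)
  have hW := W_nonneg (u (z + x + t • e))
  set w := W (u (z + x + t • e))
  have h10 : (1 - θ) * (2 * w / sig / (ε * ‖z‖)) ≤ 2 * w / (sig * (ε * ‖z + x + t • e‖)) := by
    rw [div_div, ← mul_div_assoc, div_le_div_iff₀ (by positivity) (by positivity)]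
    have h11 : (1 - θ) * ‖z + x + t • e‖ ≤ ‖z‖ := by nlinarith [mul_pos (mul_pos hθ hθ) hz0]
    calc _ = 2 * w * (sig * (ε * ((1 - θ) * ‖z + x + t • e‖))) := by ring
      _ ≤ _ := by gcongr
  have h11 : 1 - θ ≤ Real.exp (-t ^ 2 / (2 * ρ ^ 2)) := by
    refine le_trans ?_ (Real.add_one_le_exp _)
    have h12 : t ^ 2 ≤ (θ * ρ) ^ 2 := sq_le_sq' (abs_le.1 h2).1 (abs_le.1 h2).2
    have h13 : t ^ 2 / (2 * ρ ^ 2) ≤ θ := by
      rw [div_le_iff₀ (by positivity)]
      nlinarith [mul_pos hθ (mul_pos hρ hρ), mul_pos (mul_pos hθ (sub_pos.2 hθ1)) (mul_pos hρ hρ)]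
    rw [neg_div]
    linarith
  have hg := gk_pos d (0 : (ℝ ∙ e)ᗮ) hρ x
  have hθ2 : 0 ≤ 1 - θ := by linarith
  rw [gk_line d he]
  calc _ = (1 - θ) ^ 2 * (gk d 0 ρ x * (2 * (W τ - s) / sig / (ε * ‖z‖))) := by ring
    _ ≤ (1 - θ) ^ 2 * (gk d 0 ρ x * (2 * w / sig / (ε * ‖z‖))) := by gcongr
    _ = (1 - θ) * (2 * w / sig / (ε * ‖z‖)) * (gk d 0 ρ x * (1 - θ)) := by ring
    _ ≤ _ := mul_le_mul (h10.trans h9) (by gcongr) (by positivity) ((by positivity : (0 : ℝ) ≤ _).trans h9)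

/-- `le_ed`, change of variables `y = z + ϵx`, `|W a - W b| ≤ |a - b|` on `[-1,1]`, and
`∫ gk 0 R' x · 2W(tanh((⟪e,x⟫-t₀)/√2))/σ dx = ∫ exp(-t²/2R'²) 2W(tanh((t-t₀)/√2))/σ dt ≥ 1 - η/4`
for `R'` large (`mp_line`, `gk_line`, `integral_gk`, `finrank_orth'`), and the part `‖x‖ ≥ R₁`
is small for `R₁` large (dominated convergence; `W ≤ 1/4`). -/
theorem loc_low (d : ℕ) {η : ℝ} (hη : 0 < η) (T : ℝ) :
    ∃ R' R₁ s γ δ : ℝ, 1 ≤ R' ∧ R' ≤ R₁ ∧ 0 < s ∧ 0 < γ ∧ 0 < δ ∧
    ∀ (c : ℝ → ℝ) (Λ ε : ℝ) (u : E → ℝ), Dat d c Λ ε u → ε ≤ δ → ∀ e z : E, ‖e‖ = 1 → z ≠ 0 →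
      Prof ε u e z R₁ T s → tg d ε u e z (R' * (ε * ‖z‖)) ≤ γ →
        1 - η ≤ ∫ y in ball z (R₁ * (ε * ‖z‖)), gk d z (R' * (ε * ‖z‖)) y ∂mu ε u := by
  obtain ⟨θ, hθ, hθ1, hθη⟩ : ∃ θ : ℝ, 0 < θ ∧ θ ≤ 1 / 6 ∧ 6 * θ ≤ η :=
    ⟨min η 1 / 6, by positivity, by linarith [min_le_right η 1], by linarith [min_le_left η 1]⟩
  obtain ⟨b, hb, hb1⟩ := locb_1d hθ T
  obtain ⟨L, hL, hL1⟩ := gk_tail (E := E) d hθ
  have hs := sig_pos
  have hR' : 1 ≤ 1 + b / θ := le_add_of_nonneg_right (by positivity)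
  have hbR : b ≤ θ * (1 + b / θ) := by
    rw [mul_add, mul_div_cancel₀ _ hθ.ne']
    linarith
  set R' := 1 + b / θ
  refine ⟨R', L * R' + b, θ * sig / (4 * b), θ, θ / (L * R' + b), hR', by nlinarith, by positivity, hθ,
    by positivity, fun c Λ ε u h hεδ e z he hz hP htg => ?_⟩
  obtain ⟨ς, t₀, hς, ht₀, hP⟩ := hP
  have hε := h.pos
  have hz0 : 0 < ‖z‖ := norm_pos_iff.2 hz
  have hϵ : 0 < ε * ‖z‖ := by positivity
  have hRε : (L * R' + b) * ε ≤ θ := by rwa [le_div_iff₀' (by positivity)] at hεδ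
  have hpt := fun x t => locb_pt h he hz (t := t) hθ (by linarith) hRε hς hP
    (by positivity : 0 < R' * (ε * ‖z‖)) x
  have hb2 := hb1 t₀ ht₀ _ hϵ
  set ϵ := ε * ‖z‖
  have hρ : 0 < R' * ϵ := by positivity
  have hd := finrank_orth' h.dim he
  have i1 := locb_int h.crit hε ((h.integ z _ hρ).indicator
    (measurableSet_ball (x := z) (ε := (L * R' + b) * ϵ)))
  have i2 := locb_int h.crit hε (h.integrable_tl he z hρ)
  rw [tg, integral_mu h.crit hε] at htg
  rw [← integral_indicator measurableSet_ball, integral_mu h.crit hε]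
  have hc : Continuous fun t : ℝ => 2 * W (Real.tanh ((t / ϵ - t₀) / √2)) / sig / ϵ := by
    have : Continuous Real.tanh := by
      rw [show Real.tanh = fun x => Real.sinh x / Real.cosh x from funext Real.tanh_eq_sinh_div_cosh]
      exact Real.continuous_sinh.div Real.continuous_cosh fun x => (Real.cosh_pos x).ne'
    unfold W
    fun_prop
  have j1 := (integrable_gk d (0 : (ℝ ∙ e)ᗮ) hρ).indicator
    (measurableSet_ball (x := 0) (ε := L * (R' * ϵ)))
  have j2 : Integrable ((Ioc (-(b * ϵ)) (b * ϵ)).indicator fun t : ℝ =>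
      2 * W (Real.tanh ((t / ϵ - t₀) / √2)) / sig / ϵ - 2 * (θ * sig / (4 * b)) / sig / ϵ) :=
    (integrable_indicator_iff measurableSet_Ioc).2 ((hc.sub continuous_const).integrableOn_Ioc)
  have k1 : 1 - θ ≤ ∫ x, (ball (0 : (ℝ ∙ e)ᗮ) (L * (R' * ϵ))).indicator (gk d 0 (R' * ϵ)) x := by
    rw [integral_indicator measurableSet_ball, ← hd]
    refine locb_ball hθ.le hρ fun x hx => ?_
    rw [hd]
    simpa [gk] using hL1 0 _ x hρ (by simpa using hx)
  have k2 : 1 - 2 * θ ≤ ∫ t, (Ioc (-(b * ϵ)) (b * ϵ)).indicator (fun t : ℝ =>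
      2 * W (Real.tanh ((t / ϵ - t₀) / √2)) / sig / ϵ - 2 * (θ * sig / (4 * b)) / sig / ϵ) t := by
    rw [integral_indicator measurableSet_Ioc, ← intervalIntegral.integral_of_le (by nlinarith [mul_pos hb hϵ]),
      intervalIntegral.integral_sub (hc.intervalIntegrable _ _) intervalIntegrable_const,
      intervalIntegral.integral_const, smul_eq_mul]
    have : (b * ϵ - -(b * ϵ)) * (2 * (θ * sig / (4 * b)) / sig / ϵ) = θ := by
      field_simp
      ring
    linarith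
  have mp := mp_line he z
  have k3 := integral_mono ((j1.mul_prod j2).const_mul ((1 - θ) ^ 2))
    (mp.integrable_comp_of_integrable (i1.add i2)) fun p => by
      obtain ⟨x, t⟩ := p
      have p1 := ed_nonneg (u := u) hε (z + x + t • e)
      have p2 := h.tl_nonneg he (z + x + t • e)
      have p3 := gk_pos d z hρ (z + x + t • e)
      have p4 : 0 ≤ (ball z ((L * R' + b) * ϵ)).indicator (gk d z (R' * ϵ)) (z + x + t • e) :=
        indicator_nonneg (fun y _ => (gk_pos d z hρ y).le) _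
      simp only [Function.comp, Pi.add_apply]
      by_cases hx : x ∈ ball (0 : (ℝ ∙ e)ᗮ) (L * (R' * ϵ))
      swap
      · rw [indicator_of_notMem hx, zero_mul, mul_zero]
        positivity
      by_cases ht : t ∈ Ioc (-(b * ϵ)) (b * ϵ)
      swap
      · rw [indicator_of_notMem ht, mul_zero, mul_zero]
        positivity
      have q1 : |t| ≤ b * ϵ := abs_le.2 ⟨ht.1.le, ht.2⟩
      have q2 : ‖(x : E) + t • e‖ < (L * R' + b) * ϵ := by
        have := norm_add_le (x : E) (t • e)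
        rw [norm_smul, he, mul_one, Real.norm_eq_abs] at this
        rw [mem_ball_zero_iff, Submodule.coe_norm] at hx
        linarith
      rw [indicator_of_mem hx, indicator_of_mem ht, indicator_of_mem (by
        rwa [mem_ball, dist_eq_norm, add_assoc, add_sub_cancel_left])]
      refine (hpt x t q2.le (q1.trans
        ((mul_le_mul_of_nonneg_right hbR hϵ.le).trans_eq (mul_assoc _ _ _)))).trans (le_of_eq ?_)
      ring
  rw [integral_const_mul, integral_prod_mul] at k3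
  have k4 := integral_map (μ := (volume : Measure ((ℝ ∙ e)ᗮ × ℝ))) mp.aemeasurable
    (mp.map_eq.symm ▸ (i1.add i2).aestronglyMeasurable)
  rw [mp.map_eq, integral_add' i1 i2] at k4
  have k5 := mul_le_mul k1 k2 (by linarith) (by linarith)
  have k6 := mul_le_mul_of_nonneg_left k5 (sq_nonneg (1 - θ))
  have k7 : 1 - 5 * θ ≤ (1 - θ) ^ 2 * ((1 - θ) * (1 - 2 * θ)) := by
    nlinarith [mul_pos hθ hθ, mul_pos (mul_pos hθ hθ) hθ, mul_pos (mul_pos hθ hθ) (mul_pos hθ hθ)]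
  have k8 := k7.trans (k6.trans (k3.trans k4.ge))
  linarith

/-- `ed_le`, `integral_W_tanh` -/
theorem loc_up (d : ℕ) {η R : ℝ} (hη : 0 < η) (hR : 0 < R) : ∃ s δ : ℝ, 0 < s ∧ 0 < δ ∧
    ∀ (c : ℝ → ℝ) (Λ ε : ℝ) (u : E → ℝ), Dat d c Λ ε u → ε ≤ δ → ∀ (e z : E) (T : ℝ), ‖e‖ = 1 →
      z ≠ 0 → Prof ε u e z R T s →
        ∫⁻ t in Icc (-(R * (ε * ‖z‖))) (R * (ε * ‖z‖)), ENNReal.ofReal (ed ε u (z + t • e)) ≤
          ENNReal.ofReal (1 + η) := by
  obtain ⟨κ, hκ, hκ2⟩ : ∃ κ : ℝ, 1 < κ ∧ κ * κ = 1 + η :=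
    ⟨√(1 + η), Real.lt_sqrt_of_sq_lt (by linarith), Real.mul_self_sqrt (by linarith)⟩
  have hσ := sig_pos
  have hκ0 : 0 < κ := by linarith
  have hκ1 : 0 < κ - 1 := by linarith
  refine ⟨(κ - 1) * sig / (4 * R), (κ - 1) / (κ * R), by positivity, by positivity, ?_⟩
  rintro c Λ ε u h hε e z T he hz ⟨ς, t₀, hς, -, hp⟩
  have hε0 := h.pos
  have hz0 : 0 < ‖z‖ := norm_pos_iff.2 hz
  set r := ε * ‖z‖ with hr
  have hr0 : 0 < r := by positivity
  obtain ⟨i1, e1⟩ := integral_W_tanh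
  set f : ℝ → ℝ := fun t => 2 * W (Real.tanh (t / √2)) / sig with hf
  have hf0 : ∀ t, 0 ≤ f t := fun t => div_nonneg (mul_nonneg zero_le_two (W_nonneg _)) hσ.le
  have i2 : Integrable fun t => f (t / r - t₀) := (i1.comp_sub_right t₀).comp_div hr0.ne'
  have e2 : ∫ t, f (t / r - t₀) = r := by
    rw [Measure.integral_comp_div (fun t => f (t - t₀)), integral_sub_right_eq_self f, e1, abs_of_pos hr0,
      smul_eq_mul, mul_one]
  have i3 : IntegrableOn (fun _ : ℝ => (κ - 1) / (2 * R)) (Icc (-(R * r)) (R * r)) :=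
    integrableOn_const measure_Icc_lt_top.ne
  have i4 : IntegrableOn (fun t => κ / r * (f (t / r - t₀) + (κ - 1) / (2 * R))) (Icc (-(R * r)) (R * r)) :=
    (i2.integrableOn.add i3).const_mul _
  have pt : ∀ t ∈ Icc (-(R * r)) (R * r), ed ε u (z + t • e) ≤ κ / r * (f (t / r - t₀) + (κ - 1) / (2 * R)) := by
    intro t ht
    have ht' : |t| ≤ R * r := abs_le.2 ht
    have hn : ‖z‖ ≤ κ * ‖z + t • e‖ := by
      have a1 := norm_sub_le (z + t • e) (t • e)
      rw [add_sub_cancel_right, norm_smul, he, mul_one, Real.norm_eq_abs] at a1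
      have a2 : ε * (κ * R) ≤ κ - 1 := (le_div_iff₀ (by positivity)).1 hε
      have a3 : κ * |t| ≤ κ * (R * r) := mul_le_mul_of_nonneg_left ht' hκ0.le
      have a4 : ε * (κ * R) * ‖z‖ ≤ (κ - 1) * ‖z‖ := mul_le_mul_of_nonneg_right a2 hz0.le
      have a5 := mul_le_mul_of_nonneg_left a1 hκ0.le
      rw [hr] at a3
      linarith
    have hy : 0 < ‖z + t • e‖ := (pos_iff_pos_of_mul_pos (hz0.trans_le hn)).1 hκ0
    have b1 := hp ((t / r) • e) (by
      rw [norm_smul, he, mul_one, Real.norm_eq_abs, abs_div, abs_of_pos hr0, div_le_iff₀ hr0]; exact ht')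
    rw [smul_smul, mul_div_cancel₀ _ hr0.ne', real_inner_smul_right, real_inner_self_eq_norm_sq, he, one_pow,
      mul_one] at b1
    have b2 : W (ς * Real.tanh ((t / r - t₀) / √2)) = W (Real.tanh ((t / r - t₀) / √2)) := by
      rcases hς with rfl | rfl <;> simp [W]
    have b3 := loca_W (h.crit.abs_le (z + t • e)) (b := ς * Real.tanh ((t / r - t₀) / √2)) (by
      rcases hς with rfl | rfl <;> simpa using (Real.abs_tanh_lt_one _).le)
    rw [b2] at b3
    have b4 : 2 * W (u (z + t • e)) / sig ≤ f (t / r - t₀) + (κ - 1) / (2 * R) := by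
      have : (κ - 1) / (2 * R) = 2 * ((κ - 1) * sig / (4 * R)) / sig := by field_simp; norm_num
      rw [this, hf, ← add_div]
      exact div_le_div_of_nonneg_right (by linarith) hσ.le
    have b5 : (ε * ‖z + t • e‖)⁻¹ ≤ κ / r := by
      rw [inv_eq_one_div, div_le_div_iff₀ (by positivity) hr0, hr]
      nlinarith
    calc ed ε u (z + t • e) ≤ _ := h.ed_le (norm_pos_iff.1 hy)
      _ = (ε * ‖z + t • e‖)⁻¹ * (2 * W (u (z + t • e)) / sig) := by field_simp
      _ ≤ _ := mul_le_mul b5 b4 (div_nonneg (mul_nonneg zero_le_two (W_nonneg _)) hσ.le) (by positivity)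
  refine (setLIntegral_mono' measurableSet_Icc fun t ht => ENNReal.ofReal_le_ofReal (pt t ht)).trans ?_
  rw [← ofReal_integral_eq_lintegral_ofReal i4 (Eventually.of_forall fun t =>
    mul_nonneg (by positivity) (add_nonneg (hf0 _) (by positivity)))]
  refine ENNReal.ofReal_le_ofReal ?_
  rw [integral_const_mul, integral_add i2.integrableOn i3, setIntegral_const, Real.volume_real_Icc_of_le
    (by linarith [mul_pos hR hr0]), smul_eq_mul]
  have b6 := setIntegral_le_integral (s := Icc (-(R * r)) (R * r)) i2 (Eventually.of_forall fun t => hf0 _)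
  rw [e2] at b6
  calc _ ≤ κ / r * (r + (R * r - -(R * r)) * ((κ - 1) / (2 * R))) := by gcongr
    _ = 1 + η := by rw [← hκ2]; field_simp; ring

/-- Modica–Mortola on a segment: `σ ed ≥ √(2W)|∂_e u| = |∂_t Φ(u)|`, `Φ h = (h - h³/3)/√2`
monotone on `[-1,1]`, `Φ(3/4) - Φ(-3/4) ≥ σ/2`. -/
theorem mm1d {ε : ℝ} {u : E → ℝ} (hε : 0 < ε) (h : Crit ε u) {z e : E} (he : ‖e‖ = 1) {a b : ℝ}
    (hab : a ≤ b) (h0 : ∀ t ∈ Icc a b, z + t • e ≠ 0) (ha : 3 / 4 ≤ |u (z + a • e)|)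
    (hb : 3 / 4 ≤ |u (z + b • e)|) (hs : u (z + a • e) * u (z + b • e) < 0) :
    ENNReal.ofReal (1 / 2) ≤ ∫⁻ t in Ioo a b, ENNReal.ofReal (ed ε u (z + t • e)) := by
  have hl : ContDiff ℝ 1 fun t : ℝ => z + t • e := by fun_prop
  have hu : ContDiffOn ℝ 1 (fun t : ℝ => u (z + t • e)) (Icc a b) :=
    (h.smooth.of_le (by exact_mod_cast le_top)).comp hl.contDiffOn h0
  have hψ : ContDiffOn ℝ 1 (fun t : ℝ => 3 / 4 * (u (z + t • e) - u (z + t • e) ^ 3 / 3)) (Icc a b) :=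
    contDiffOn_const.mul (hu.sub ((hu.pow 3).div_const 3))
  have h1 := enorm_sub_le_lintegral_deriv_of_contDiffOn_Icc hψ hab
  rw [← restrict_Ioo_eq_restrict_Icc] at h1
  refine le_trans ?_ (h1.trans (setLIntegral_mono' measurableSet_Ioo fun t ht => ?_))
  · rw [← ofReal_norm, Real.norm_eq_abs]
    refine ENNReal.ofReal_le_ofReal ?_
    have a1 := abs_le.1 (h.abs_le (z + a • e))
    have b1 := abs_le.1 (h.abs_le (z + b • e))
    generalize u (z + a • e) = p at *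
    generalize u (z + b • e) = q at *
    have key : ∀ x : ℝ, 3 / 4 ≤ x → x ≤ 1 → 1 / 3 ≤ x - x ^ 3 / 3 := fun x h1 h2 => by
      nlinarith [mul_le_mul h2 h2 (by linarith) zero_le_one]
    rcases le_abs.1 ha with ha | ha <;> rcases le_abs.1 hb with hb | hb
    · nlinarith
    · have := key p ha a1.2
      have := key (-q) hb (by linarith)
      exact le_abs.2 (Or.inr (by nlinarith))
    · have := key (-p) ha (by linarith)
      have := key q hb b1.2
      exact le_abs.2 (Or.inl (by nlinarith))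
    · nlinarith
  · have hy := h0 t (Ioo_subset_Icc_self ht)
    have hd : DifferentiableAt ℝ u (z + t • e) :=
      (h.smooth.contDiffAt (isOpen_compl_singleton.mem_nhds hy)).differentiableAt (by simp)
    have d1 : HasDerivAt (fun t : ℝ => z + t • e) e t := by
      simpa using ((hasDerivAt_id t).smul_const e).const_add z
    have d2 : HasDerivAt (fun t : ℝ => u (z + t • e)) _ t := hd.hasGradientAt.hasFDerivAt.comp_hasDerivAt t d1
    have d3 : HasDerivAt (fun t : ℝ => 3 / 4 * (u (z + t • e) - u (z + t • e) ^ 3 / 3)) _ t :=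
      (d2.sub ((d2.pow 3).div_const 3)).const_mul (3 / 4)
    rw [d3.deriv, ← ofReal_norm, Real.norm_eq_abs]
    refine ENNReal.ofReal_le_ofReal ?_
    have c1 := abs_real_inner_le_norm (gradient u (z + t • e)) e
    rw [he, mul_one] at c1
    have c2 := (sq_le_one_iff_abs_le_one _).2 (h.abs_le (z + t • e))
    have hA : 0 < ε * ‖z + t • e‖ := mul_pos hε (norm_pos_iff.2 hy)
    simp only [InnerProductSpace.toDual_apply_apply, ed, W, sig]
    generalize ε * ‖z + t • e‖ = A at *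
    generalize ‖gradient u (z + t • e)‖ = g at *
    generalize ⟪gradient u (z + t • e), e⟫ = k at *
    generalize u (z + t • e) = v at *
    have hs : (0 : ℝ) < √2 := by positivity
    have hs2 : √2 * √2 = (2 : ℝ) := Real.mul_self_sqrt zero_le_two
    have e1 : 3 / 4 * (k - ((3 : ℕ) : ℝ) * v ^ (3 - 1) * k / 3) = 3 / 4 * (1 - v ^ 2) * k := by push_cast; ring
    rw [e1, abs_mul, abs_of_nonneg (by linarith : 0 ≤ 3 / 4 * (1 - v ^ 2)), le_div_iff₀ (by positivity)]
    have e2 : A * g ^ 2 / 2 + (1 - v ^ 2) ^ 2 / 4 / A =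
        (√2 * A * g - (1 - v ^ 2)) ^ 2 / (4 * A) + √2 / 2 * ((1 - v ^ 2) * g) := by
      field_simp
      linear_combination (-(A ^ 2 * g ^ 2 * 2)) * hs2
    have c3 : (1 - v ^ 2) * |k| ≤ (1 - v ^ 2) * g := mul_le_mul_of_nonneg_left c1 (by linarith)
    have c4 : 0 ≤ (√2 * A * g - (1 - v ^ 2)) ^ 2 / (4 * A) := by positivity
    rw [e2]
    nlinarith

end Crest.Agent.R246.B2
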