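import Crest.Agent.R246.B2.Bas
import Crest.Agent.R246.B2.Habs

/-!
# Row 246, block B2: the profile at a good transition point
-/

set_option autoImplicit false
set_option linter.unusedSectionVars false

open MeasureTheory Metric Filter Topology Set Module
open scoped RealInnerProductSpace ENNReal ContDiff Real

noncomputable section

namespace Crest.Agent.R246.B2

variable {E : Type} [NormedAddCommGroup E] [InnerProductSpace ℝ E] [FiniteDimensional ℝ E]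
  [MeasurableSpace E] [BorelSpace E]

/-- Modica: `g = 1 - u²` satisfies `|∇g| ≤ √2 g/(ε|y|)`; Gronwall along the segment
(`ε‖y‖ ≥ ε‖z‖/2` on the ball), e.g. `t ↦ g(z + t v) exp(k t)` is monotone. -/
theorem one_sub_sq_low {d : ℕ} {c : ℝ → ℝ} {Λ ε : ℝ} {u : E → ℝ} (h : Dat d c Λ ε u) {z : E}
    (hz : z ≠ 0) {R : ℝ} (hR : 0 < R) (hε : 2 * R * ε ≤ 1) {x : E} (hx : ‖x‖ ≤ R) :
    (1 - u z ^ 2) * Real.exp (-3 * R) ≤ 1 - u (z + (ε * ‖z‖) • x) ^ 2 := by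
  have hz0 : 0 < ‖z‖ := norm_pos_iff.2 hz
  have hε0 := h.pos
  obtain ⟨v, hv⟩ : ∃ v, v = (ε * ‖z‖) • x := ⟨_, rfl⟩
  rw [← hv]
  have hvn : ‖v‖ ≤ ε * ‖z‖ * R := by
    rw [hv, norm_smul, Real.norm_eq_abs, abs_of_pos (by positivity)]
    gcongr
  have hy : ∀ t ∈ Icc (0 : ℝ) 1, ‖z‖ ≤ 2 * ‖z + t • v‖ := fun t ht => by
    have h1 : ‖t • v‖ ≤ ‖v‖ := by
      rw [norm_smul, Real.norm_eq_abs, abs_of_nonneg ht.1]
      exact mul_le_of_le_one_left (norm_nonneg _) ht.2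
    have h2 := norm_sub_le (z + t • v) (t • v)
    rw [add_sub_cancel_right] at h2
    nlinarith
  have hd : ∀ t ∈ Icc (0 : ℝ) 1, HasDerivAt (fun t : ℝ => (1 - u (z + t • v) ^ 2) * Real.exp (3 * R * t))
      ((-(2 * u (z + t • v) * fderiv ℝ u (z + t • v) v) + (1 - u (z + t • v) ^ 2) * (3 * R)) *
        Real.exp (3 * R * t)) t := fun t ht => by
    have hne : z + t • v ≠ 0 := fun h0 => by
      have := hy t ht
      rw [h0, norm_zero] at this
      linarith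
    have h1 : HasFDerivAt u (fderiv ℝ u (z + t • v)) (z + t • v) :=
      ((h.crit.smooth.contDiffAt (isOpen_compl_singleton.mem_nhds hne)).differentiableAt (by simp)).hasFDerivAt
    have h2 : HasDerivAt (fun t : ℝ => z + t • v) v t := by
      simpa using ((hasDerivAt_id t).smul_const v).const_add z
    have h3 : HasDerivAt (fun t : ℝ => u (z + t • v)) (fderiv ℝ u (z + t • v) v) t := h1.comp_hasDerivAt t h2
    refine HasDerivAt.congr_deriv (((h3.fun_pow 2).const_sub 1).fun_mul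
      ((hasDerivAt_id t).const_mul (3 * R)).exp) ?_
    simp only [id, Nat.cast_ofNat, Nat.add_one_sub_one, pow_one, mul_one]
    ring
  have hm : MonotoneOn (fun t : ℝ => (1 - u (z + t • v) ^ 2) * Real.exp (3 * R * t)) (Icc 0 1) := by
    refine monotoneOn_of_deriv_nonneg (convex_Icc 0 1) (fun t ht => (hd t ht).continuousAt.continuousWithinAt)
      (fun t ht => (hd t (interior_subset ht)).differentiableAt.differentiableWithinAt) fun t ht => ?_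
    have ht' := interior_subset ht
    rw [(hd t ht').deriv]
    refine mul_nonneg ?_ (Real.exp_pos _).le
    have h1 := h.modica (z + t • v)
    have h2 := h.crit.abs_le (z + t • v)
    have h3 := hy t ht'
    have h4 : |fderiv ℝ u (z + t • v) v| ≤ ‖gradient u (z + t • v)‖ * (ε * ‖z‖ * R) := by
      rw [gradient, LinearIsometryEquiv.norm_map]
      exact ((fderiv ℝ u (z + t • v)).le_opNorm v).trans (by gcongr)
    have h5 : 0 ≤ 1 - u (z + t • v) ^ 2 := by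
      rw [← sq_abs]
      nlinarith [abs_nonneg (u (z + t • v))]
    have h6 : ε * ‖z + t • v‖ * ‖gradient u (z + t • v)‖ ≤ 3 / 4 * (1 - u (z + t • v) ^ 2) := by
      refine le_of_pow_le_pow_left₀ two_ne_zero (by positivity) ?_
      rw [W] at h1
      nlinarith [sq_nonneg (1 - u (z + t • v) ^ 2)]
    have h7 : ‖gradient u (z + t • v)‖ * (ε * ‖z‖ * R) ≤
        ‖gradient u (z + t • v)‖ * (ε * (2 * ‖z + t • v‖) * R) := by gcongr
    have h8 : u (z + t • v) * fderiv ℝ u (z + t • v) v ≤ |fderiv ℝ u (z + t • v) v| := by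
      refine (le_abs_self _).trans ?_
      rw [abs_mul]
      exact mul_le_of_le_one_left (abs_nonneg _) h2
    nlinarith [mul_le_mul_of_nonneg_right h6 hR.le]
  have h1 := hm (left_mem_Icc.2 zero_le_one) (right_mem_Icc.2 zero_le_one) zero_le_one
  simp only [zero_smul, add_zero, mul_zero, Real.exp_zero, mul_one, one_smul] at h1
  rw [neg_mul, Real.exp_neg, ← div_eq_mul_inv, div_le_iff₀ (Real.exp_pos _)]
  exact h1

/-- `√2 artanh` -/
def prb_L (t : ℝ) : ℝ := (Real.log (1 + t) - Real.log (1 - t)) / √2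

theorem prb_pos {t : ℝ} (h : t ^ 2 < 1) : 0 < 1 + t ∧ 0 < 1 - t := by
  have := abs_lt.1 ((sq_lt_one_iff_abs_lt_one t).1 h)
  constructor <;> linarith [this.1, this.2]

theorem prb_der {t : ℝ} (h : t ^ 2 < 1) : HasDerivAt prb_L (√2 / (1 - t ^ 2)) t := by
  obtain ⟨h1, h2⟩ := prb_pos h
  refine (((((hasDerivAt_id' t).const_add 1).log h1.ne').fun_sub
    (((hasDerivAt_id' t).const_sub 1).log h2.ne')).div_const √2).congr_deriv ?_
  have h3 : √2 * √2 = 2 := Real.mul_self_sqrt zero_le_two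
  rw [show 1 - t ^ 2 = (1 + t) * (1 - t) by ring]
  field_simp
  linarith

theorem prb_tanh {t : ℝ} (h : t ^ 2 < 1) : Real.tanh (prb_L t / √2) = t := by
  obtain ⟨h1, h2⟩ := prb_pos h
  have e : prb_L t / √2 = Real.artanh t := by
    rw [Real.artanh_eq_half_log ⟨by linarith, by linarith⟩, Real.log_div h1.ne' h2.ne', prb_L, div_div,
      Real.mul_self_sqrt zero_le_two]
    ring
  rw [e, Real.tanh_artanh ⟨by linarith, by linarith⟩]

theorem prb_lip (a b : ℝ) : |Real.tanh a - Real.tanh b| ≤ |a - b| := by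
  have hd : ∀ y, HasDerivAt Real.tanh ((Real.cosh y ^ 2)⁻¹) y := fun y => by
    rw [funext Real.tanh_eq_sinh_div_cosh]
    refine ((Real.hasDerivAt_sinh y).fun_div (Real.hasDerivAt_cosh y) (Real.cosh_pos y).ne').congr_deriv ?_
    rw [← sq, ← sq, Real.cosh_sq_sub_sinh_sq, one_div]
  have := Convex.norm_image_sub_le_of_norm_hasDerivWithin_le (C := 1) (s := univ)
    (fun y _ => (hd y).hasDerivWithinAt) (fun y _ => by
      rw [Real.norm_of_nonneg (by positivity)]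
      exact inv_le_one_of_one_le₀ (one_le_pow₀ (Real.one_le_cosh y))) convex_univ (mem_univ b) (mem_univ a)
  simpa using this

theorem prb_bd {τ t : ℝ} (hτ : 0 < τ) (h : τ ≤ 1 - t ^ 2) : |prb_L t| ≤ |Real.log 2 - Real.log (τ / 2)| := by
  obtain ⟨h1, h2⟩ := prb_pos (t := t) (by linarith)
  have a1 := Real.log_le_log h1 (show 1 + t ≤ 2 by linarith)
  have a2 := Real.log_le_log h2 (show 1 - t ≤ 2 by linarith)
  have a3 := Real.log_le_log (half_pos hτ) (show τ / 2 ≤ 1 + t by nlinarith)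
  have a4 := Real.log_le_log (half_pos hτ) (show τ / 2 ≤ 1 - t by nlinarith)
  rw [prb_L, abs_div, abs_of_pos (show (0 : ℝ) < √2 by positivity)]
  refine (div_le_self (abs_nonneg _) Real.one_lt_sqrt_two.le).trans (le_trans ?_ (le_abs_self _))
  rw [abs_le]
  constructor <;> linarith

theorem prb_aff (z : E) (ϵ : ℝ) (x : E) :
    HasFDerivAt (fun x : E => z + ϵ • x) (ϵ • ContinuousLinearMap.id ℝ E) x :=
  ((hasFDerivAt_id x).const_smul ϵ).const_add z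

theorem prb_grad {u : E → ℝ} {z x : E} {ϵ : ℝ} (hu : DifferentiableAt ℝ u (z + ϵ • x))
    (h1 : u (z + ϵ • x) ^ 2 < 1) : gradient (fun x => prb_L (u (z + ϵ • x))) x =
      (ϵ * √2 * (1 - u (z + ϵ • x) ^ 2)⁻¹) • gradient u (z + ϵ • x) := by
  refine HasGradientAt.gradient (hasGradientAt_iff_hasFDerivAt.2 ?_)
  refine ((prb_der h1).comp_hasFDerivAt x
    (hu.hasGradientAt.hasFDerivAt.comp x (prb_aff z ϵ x))).congr_fderiv ?_
  ext v
  simp [div_eq_mul_inv]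
  ring

theorem prb_lap {u : E → ℝ} {z x : E} {ϵ : ℝ} (hu : ContDiffAt ℝ 2 u (z + ϵ • x))
    (h1 : u (z + ϵ • x) ^ 2 < 1) : lap (fun x => prb_L (u (z + ϵ • x))) x =
      ϵ ^ 2 * √2 * (1 - u (z + ϵ • x) ^ 2)⁻¹ * lap u (z + ϵ • x) +
        √2 * u (z + ϵ • x) * (2 * ϵ ^ 2 * (1 - u (z + ϵ • x) ^ 2)⁻¹ ^ 2 * ‖gradient u (z + ϵ • x)‖ ^ 2) := by
  have hc : ContinuousAt (fun x : E => z + ϵ • x) x := (prb_aff z ϵ x).continuousAt
  have e : gradient (fun x => prb_L (u (z + ϵ • x))) =ᶠ[𝓝 x] fun x =>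
      (ϵ * √2 * (1 - u (z + ϵ • x) ^ 2)⁻¹) • gradient u (z + ϵ • x) := by
    filter_upwards [hc.eventually (hu.eventually (by simp)),
      hc.eventually ((hu.continuousAt.pow 2).eventually (gt_mem_nhds h1))] with x' a b
    exact prb_grad (a.differentiableAt (by simp)) b
  have d1 := (hu.differentiableAt (by simp)).hasGradientAt.hasFDerivAt.comp x (prb_aff z ϵ x)
  have d2 : DifferentiableAt ℝ (gradient u) (z + ϵ • x) :=
    (InnerProductSpace.toDual ℝ E).symm.differentiableAt.comp _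
      ((hu.fderiv_right (m := 1) (by norm_num)).differentiableAt one_ne_zero)
  have d3 := d2.hasFDerivAt.comp x (prb_aff z ϵ x)
  have d4 : HasDerivAt (fun t : ℝ => ϵ * √2 * (1 - t ^ 2)⁻¹)
      (ϵ * √2 * (2 * u (z + ϵ • x) * (1 - u (z + ϵ • x) ^ 2)⁻¹ ^ 2)) (u (z + ϵ • x)) := by
    refine (((((hasDerivAt_id' _).fun_pow 2).const_sub 1).fun_inv (by linarith)).const_mul _).congr_deriv ?_
    simp [div_eq_mul_inv]
  have d5 := (d4.comp_hasFDerivAt x d1).smul d3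
  have t1 : ∀ (L : E →L[ℝ] ℝ) (v : E), trc (L.smulRight v) = L v := fun L v =>
    LinearMap.trace_smulRight (R := ℝ) (L : E →ₗ[ℝ] ℝ) v
  have t2 : ∀ (a : ℝ) (A B : E →L[ℝ] E), trc (a • A + B) = a * trc A + trc B := fun a A B => by simp [trc]
  have t3 : ∀ A : E →L[ℝ] E, trc (A ∘L (ϵ • ContinuousLinearMap.id ℝ E)) = ϵ * trc A := fun A => by simp [trc]
  rw [lap, hess, e.fderiv_eq]
  refine (congrArg trc d5.fderiv).trans ?_
  rw [t2, t3, t1]
  simp only [lap, hess, Function.comp, smul_apply, ContinuousLinearMap.comp_apply, ContinuousLinearMap.id_apply,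
    map_smul, InnerProductSpace.toDual_apply_apply, real_inner_self_eq_norm_sq, smul_eq_mul]
  ring

theorem prb_alg {a b P Q η D : ℝ} (ha : |a - 1| ≤ η) (hη : η ≤ 1 / 2) (hab : a * b = 1) (hQ : Q ≤ P)
    (hP : a * P ≤ b) (hD : D = a * (P - Q) + (b - a * P) / 2) :
    P ≤ (1 + 2 * η) ^ 2 ∧ |P - b ^ 2| ≤ 4 * D ∧ |1 - Q| ≤ 6 * η + 6 * D := by
  obtain ⟨a1, a2⟩ := abs_le.1 ha
  have a0 : 0 < a := by linarith
  have b0 : 0 < b := pos_of_mul_pos_left (by rw [mul_comm, hab]; exact one_pos) a0.le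
  have b1 : b ≤ 2 := by nlinarith
  have b2 : b ≤ 1 + 2 * η := by nlinarith
  have b3 : 1 - 2 * η ≤ b := by nlinarith
  have e1 : b ^ 2 - P = b * (b - a * P) := by linear_combination P * hab
  have e2 : P - Q = b * (a * (P - Q)) := by linear_combination (Q - P) * hab
  have c1 : 0 ≤ a * (P - Q) := mul_nonneg a0.le (by linarith)
  have c2 := mul_le_mul_of_nonneg_right b1 (sub_nonneg.2 hP)
  have c3 := mul_le_mul_of_nonneg_right b1 c1
  have c4 := mul_nonneg b0.le (sub_nonneg.2 hP)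
  have c5 : b ^ 2 ≤ 1 + 6 * η := by nlinarith
  have c6 : 1 - 6 * η ≤ b ^ 2 := by nlinarith
  refine ⟨by nlinarith, abs_le.2 ⟨by linarith, by linarith⟩, abs_le.2 ⟨by linarith, by linarith⟩⟩

theorem prb_pt {d : ℕ} {c : ℝ → ℝ} {Λ ε : ℝ} {u : E → ℝ} (h : Dat d c Λ ε u) {e z x : E} (he : ‖e‖ = 1)
    (hz : z ≠ 0) {η κ : ℝ} (hx : ε * ‖x‖ ≤ η) (hη : η ≤ 1 / 2) (hκ : 0 < κ)
    (hg : κ ≤ 1 - u (z + (ε * ‖z‖) • x) ^ 2) :
    ContDiffAt ℝ 2 (fun x => prb_L (u (z + (ε * ‖z‖) • x))) x ∧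
      ‖gradient (fun x => prb_L (u (z + (ε * ‖z‖) • x))) x‖ ≤ 1 + 2 * η ∧
      |lap (fun x => prb_L (u (z + (ε * ‖z‖) • x))) x| ≤ 6 * (2 * sig / κ ^ 2 * (ε * ‖z‖ *
        (ed ε u (z + (ε * ‖z‖) • x) * tl ε u e (z + (ε * ‖z‖) • x)))) ∧
      |1 - ⟪gradient (fun x => prb_L (u (z + (ε * ‖z‖) • x))) x, e⟫ ^ 2| ≤ 6 * η + 6 * (2 * sig / κ ^ 2 *
        (ε * ‖z‖ * (ed ε u (z + (ε * ‖z‖) • x) * tl ε u e (z + (ε * ‖z‖) • x)))) := by
  have hε := h.pos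
  have hz0 : 0 < ‖z‖ := norm_pos_iff.2 hz
  have hϵ : 0 < ε * ‖z‖ := by positivity
  have ha : |‖z + (ε * ‖z‖) • x‖ / ‖z‖ - 1| ≤ η := by
    have h1 := abs_norm_sub_norm_le (z + (ε * ‖z‖) • x) z
    rw [add_sub_cancel_left, norm_smul, Real.norm_of_nonneg hϵ.le] at h1
    rw [div_sub_one hz0.ne', abs_div, abs_of_pos hz0, div_le_iff₀ hz0]
    nlinarith
  have hy0 : 0 < ‖z + (ε * ‖z‖) • x‖ := by
    have : 0 < ‖z + (ε * ‖z‖) • x‖ / ‖z‖ := by linarith [(abs_le.1 ha).1]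
    exact (div_pos_iff_of_pos_right hz0).1 this
  have hy := norm_pos_iff.1 hy0
  have hu : ContDiffAt ℝ 2 u (z + (ε * ‖z‖) • x) :=
    (h.crit.smooth.contDiffAt (isOpen_compl_singleton.mem_nhds hy)).of_le (by norm_cast)
  have h1 : u (z + (ε * ‖z‖) • x) ^ 2 < 1 := by linarith
  have hU : ContDiffAt ℝ 2 (fun x => u (z + (ε * ‖z‖) • x)) x :=
    ContDiffAt.comp (g := u) x hu (contDiffAt_const.add (contDiffAt_id.const_smul _))
  refine ⟨(((contDiffAt_const.add hU).log (prb_pos h1).1.ne').sub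
    ((contDiffAt_const.sub hU).log (prb_pos h1).2.ne')).div_const _, ?_⟩
  rw [prb_lap hu h1, prb_grad (hu.differentiableAt (by simp)) h1, real_inner_smul_left]
  have m1 := h.modica (z + (ε * ‖z‖) • x)
  have m2 := h.crit.eq _ hy
  have m3 := sig_ed_tl (u := u) hε e hy
  have m4 := h.crit.abs_le (z + (ε * ‖z‖) • x)
  have m5 := mul_nonneg (ed_nonneg (u := u) hε (z + (ε * ‖z‖) • x)) (h.tl_nonneg he (z + (ε * ‖z‖) • x))
  have m6 : ⟪gradient u (z + (ε * ‖z‖) • x), e⟫ ^ 2 ≤ ‖gradient u (z + (ε * ‖z‖) • x)‖ ^ 2 := by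
    have := abs_real_inner_le_norm (gradient u (z + (ε * ‖z‖) • x)) e
    rw [he, mul_one] at this
    exact sq_le_sq.2 (this.trans (le_abs_self _))
  simp only [W] at m1 m3
  generalize z + (ε * ‖z‖) • x = y at *
  have hσ := sig_pos
  have s2 : √2 ^ 2 = 2 := Real.sq_sqrt zero_le_two
  have s3 : √2 ≤ 3 / 2 := by nlinarith [Real.sqrt_nonneg 2]
  have g0 : 0 < 1 - u y ^ 2 := by linarith
  have n1 : ‖(ε * ‖z‖ * √2 * (1 - u y ^ 2)⁻¹) • gradient u y‖ ^ 2 =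
      2 * (ε * ‖z‖) ^ 2 * (1 - u y ^ 2)⁻¹ ^ 2 * ‖gradient u y‖ ^ 2 := by
    rw [norm_smul, mul_pow, Real.norm_eq_abs, sq_abs, mul_pow, mul_pow, s2]
    ring
  have n2 : (ε * ‖z‖ * √2 * (1 - u y ^ 2)⁻¹ * ⟪gradient u y, e⟫) ^ 2 =
      2 * (ε * ‖z‖) ^ 2 * (1 - u y ^ 2)⁻¹ ^ 2 * ⟪gradient u y, e⟫ ^ 2 := by
    rw [mul_pow, mul_pow, mul_pow, s2]
    ring
  obtain ⟨r1, r2, r3⟩ := prb_alg (b := ‖z‖ / ‖y‖)
    (P := 2 * (ε * ‖z‖) ^ 2 * (1 - u y ^ 2)⁻¹ ^ 2 * ‖gradient u y‖ ^ 2)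
    (Q := 2 * (ε * ‖z‖) ^ 2 * (1 - u y ^ 2)⁻¹ ^ 2 * ⟪gradient u y, e⟫ ^ 2)
    (D := 2 * (1 - u y ^ 2)⁻¹ ^ 2 * (ε * ‖z‖) * (sig * (ed ε u y * tl ε u e y))) ha hη (by field_simp)
    (mul_le_mul_of_nonneg_left m6 (by positivity)) (by field_simp; linarith) (by rw [m3]; field_simp; ring)
  have r4 : 2 * (1 - u y ^ 2)⁻¹ ^ 2 * (ε * ‖z‖) * (sig * (ed ε u y * tl ε u e y)) ≤
      2 * sig / κ ^ 2 * (ε * ‖z‖ * (ed ε u y * tl ε u e y)) :=
    calc _ ≤ 2 * κ⁻¹ ^ 2 * (ε * ‖z‖) * (sig * (ed ε u y * tl ε u e y)) := by gcongr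
      _ = _ := by rw [inv_pow]; ring
  have r5 : (ε * ‖z‖) ^ 2 * √2 * (1 - u y ^ 2)⁻¹ * lap u y = -(√2 * u y * (‖z‖ / ‖y‖) ^ 2) := by
    field_simp
    linear_combination m2
  refine ⟨abs_le_of_sq_le_sq' (n1.trans_le r1) (by linarith [abs_nonneg (‖y‖ / ‖z‖ - 1)]) |>.2, ?_,
    by rw [n2]; linarith⟩
  rw [r5, neg_add_eq_sub, ← mul_sub, abs_mul, abs_mul, abs_of_nonneg (Real.sqrt_nonneg 2)]
  have r6 : √2 * |u y| ≤ 3 / 2 := (mul_le_of_le_one_right (Real.sqrt_nonneg 2) m4).trans s3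
  refine (mul_le_mul r6 r2 (abs_nonneg _) (by norm_num)).trans ?_
  linarith

theorem prb_G {d : ℕ} {c : ℝ → ℝ} {Λ ε : ℝ} {u : E → ℝ} (h : Dat d c Λ ε u) {e : E} (he : ‖e‖ = 1) (z : E)
    {ρ ϵ : ℝ} (hρ : 0 < ρ) (hϵ : 0 < ϵ) :
    Integrable (fun x : E => ϵ ^ (d + 1) * (ed ε u (z + ϵ • x) * (tl ε u e (z + ϵ • x) * gk d z ρ (z + ϵ • x)))) ∧
      ∫ x : E, ϵ ^ (d + 1) * (ed ε u (z + ϵ • x) * (tl ε u e (z + ϵ • x) * gk d z ρ (z + ϵ • x))) =
        tg d ε u e z ρ := by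
  have h1 := h.integrable_tl he z hρ
  rw [mu_eq h.crit, integrable_withDensity_iff_integrable_smul' (meas_ed h.crit).ennreal_ofReal
    (Eventually.of_forall fun _ => ENNReal.ofReal_lt_top)] at h1
  simp only [ENNReal.toReal_ofReal (ed_nonneg h.pos _), smul_eq_mul] at h1
  refine ⟨((h1.comp_add_left z).comp_smul hϵ.ne').const_mul _, ?_⟩
  rw [integral_const_mul, Measure.integral_comp_smul volume
    (fun x => ed ε u (z + x) * (tl ε u e (z + x) * gk d z ρ (z + x))) ϵ, h.dim,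
    integral_add_left_eq_self (fun x => ed ε u x * (tl ε u e x * gk d z ρ x)) z, tg, integral_mu h.crit h.pos,
    abs_of_pos (by positivity), smul_eq_mul, mul_inv_cancel_left₀ (by positivity)]

theorem prb_int {G f : E → ℝ} (hG : Integrable G) (h0 : ∀ x, 0 ≤ G x) {r b A γ : ℝ} (hb : 0 ≤ b) (hA : 0 ≤ A)
    (hf : ∀ x ∈ ball (0 : E) r, |f x| ≤ b + A * G x) (hγ : b * volume.real (ball (0 : E) r) + A * ∫ x, G x ≤ γ) :
    ∫⁻ x in ball (0 : E) r, ‖f x‖ₑ ≤ ENNReal.ofReal γ := by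
  have hc : IntegrableOn (fun _ => b) (ball (0 : E) r) := integrableOn_const measure_ball_lt_top.ne
  have hi : IntegrableOn (fun x => b + A * G x) (ball (0 : E) r) := hc.add (hG.const_mul A).integrableOn
  calc ∫⁻ x in ball (0 : E) r, ‖f x‖ₑ ≤ ∫⁻ x in ball (0 : E) r, ENNReal.ofReal (b + A * G x) :=
        setLIntegral_mono' measurableSet_ball fun x hx => by
          rw [← ofReal_norm]
          exact ENNReal.ofReal_le_ofReal (hf x hx)
    _ = ENNReal.ofReal (∫ x in ball (0 : E) r, (b + A * G x)) :=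
        (ofReal_integral_eq_lintegral_ofReal hi (Eventually.of_forall fun x =>
          add_nonneg hb (mul_nonneg hA (h0 x)))).symm
    _ ≤ _ := by
        refine ENNReal.ofReal_le_ofReal (le_trans ?_ hγ)
        rw [integral_add hc (hG.const_mul A).integrableOn, setIntegral_const, integral_const_mul, smul_eq_mul,
          mul_comm b]
        exact add_le_add le_rfl (mul_le_mul_of_nonneg_left
          (setIntegral_le_integral hG (Eventually.of_forall h0)) hA)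

/-- `Ψ x = √2 artanh (u (z + ϵ x)) = log((1+U)/(1-U))/√2`, `ϵ = ε‖z‖`, `a = ‖z+ϵx‖/‖z‖`:
`∇Ψ = √2 ∇U/(1-U²)`, `|∇Ψ| ≤ 1/a` (Modica), `ΔΨ = √2 U (|∇Ψ|² - a⁻²)`,
`σ ϵ ed tl = ((1-U²)²/2)(a(|∇Ψ|² - ⟪∇Ψ,e⟫²) + (a⁻¹ - a|∇Ψ|²)/2)` (`sig_ed_tl`); with
`one_sub_sq_low` (radius `4R`) and `gk_low` both `L¹` norms in `habs` are small (change of variables
`y = z + ϵx`); `U = tanh(Ψ/√2)`, `tanh` is 1-Lipschitz and odd, `t₀ = -ς Ψ 0`. -/
theorem prof (d : ℕ) {τ : ℝ} (hτ : 0 < τ) : ∃ T : ℝ, 0 < T ∧ ∀ R s : ℝ, 0 < R → 0 < s →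
    ∃ γ δ : ℝ, 0 < γ ∧ 0 < δ ∧ ∀ (c : ℝ → ℝ) (Λ ε : ℝ) (u : E → ℝ), Dat d c Λ ε u → ε ≤ δ →
      ∀ e z : E, ‖e‖ = 1 → z ≠ 0 → τ ≤ 1 - u z ^ 2 → tg d ε u e z (R * (ε * ‖z‖)) ≤ γ →
        Prof ε u e z R T s := by
  refine ⟨|Real.log 2 - Real.log (τ / 2)| + 1, by positivity, fun R s hR hs => ?_⟩
  obtain ⟨γ₀, hγ₀, hab⟩ := habs (E := E) hR hs
  obtain ⟨k, hk, hgk⟩ := gk_low (E := E) d 4
  have hσ := sig_pos
  obtain ⟨κ, hκe, hκ⟩ : ∃ κ, κ = τ * Real.exp (-3 * (4 * R)) ∧ 0 < κ := ⟨_, rfl, by positivity⟩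
  obtain ⟨A, hAe, hA⟩ : ∃ A, A = 2 * sig / κ ^ 2 * (R ^ d / k) ∧ 0 < A := ⟨_, rfl, by positivity⟩
  have hV : 0 ≤ volume.real (ball (0 : E) (4 * R)) := measureReal_nonneg
  refine ⟨γ₀ / (12 * A), min (1 / (8 * R)) (γ₀ / (4 * R * (2 + 12 * volume.real (ball (0 : E) (4 * R))))),
    by positivity, by positivity, fun c Λ ε u h hε e z he hz hτz htg => ?_⟩
  have hε0 := h.pos
  have h1 : ε * (8 * R) ≤ 1 := (le_div_iff₀ (by positivity)).1 (hε.trans (min_le_left _ _))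
  have h2 : ε * (4 * R * (2 + 12 * volume.real (ball (0 : E) (4 * R)))) ≤ γ₀ :=
    (le_div_iff₀ (by positivity)).1 (hε.trans (min_le_right _ _))
  have h3 : tg d ε u e z (R * (ε * ‖z‖)) * (12 * A) ≤ γ₀ := (le_div_iff₀ (by positivity)).1 htg
  have hz0 : 0 < ‖z‖ := norm_pos_iff.2 hz
  have hϵ : 0 < ε * ‖z‖ := by positivity
  have hη : 0 ≤ 4 * R * ε := by positivity
  have hηV := mul_nonneg hη hV
  have hg : ∀ x : E, ‖x‖ ≤ 4 * R → κ ≤ 1 - u (z + (ε * ‖z‖) • x) ^ 2 := fun x hx =>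
    hκe.trans_le ((mul_le_mul_of_nonneg_right hτz (Real.exp_pos _).le).trans
      (one_sub_sq_low h hz (by positivity) (by linarith) hx))
  obtain ⟨hGi, hGe⟩ := prb_G h he z (ρ := R * (ε * ‖z‖)) (by positivity) hϵ
  have hG0 : ∀ y, 0 ≤ ed ε u y * tl ε u e y := fun y => mul_nonneg (ed_nonneg hε0 y) (h.tl_nonneg he y)
  have hG1 : ∀ x : E, 0 ≤ (ε * ‖z‖) ^ (d + 1) * (ed ε u (z + (ε * ‖z‖) • x) * (tl ε u e (z + (ε * ‖z‖) • x) *
      gk d z (R * (ε * ‖z‖)) (z + (ε * ‖z‖) • x))) := fun x => by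
    rw [← mul_assoc (ed _ _ _)]
    exact mul_nonneg (by positivity) (mul_nonneg (hG0 _) (gk_pos _ _ (by positivity) _).le)
  have hG2 : 0 ≤ A * tg d ε u e z (R * (ε * ‖z‖)) := mul_nonneg hA.le (hGe ▸ integral_nonneg hG1)
  have key : ∀ x ∈ ball (0 : E) (4 * R),
      ContDiffAt ℝ 2 (fun x => prb_L (u (z + (ε * ‖z‖) • x))) x ∧
      ‖gradient (fun x => prb_L (u (z + (ε * ‖z‖) • x))) x‖ ≤ 1 + 2 * (4 * R * ε) ∧
      |lap (fun x => prb_L (u (z + (ε * ‖z‖) • x))) x| ≤ 0 + 6 * A * ((ε * ‖z‖) ^ (d + 1) *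
        (ed ε u (z + (ε * ‖z‖) • x) * (tl ε u e (z + (ε * ‖z‖) • x) *
          gk d z (R * (ε * ‖z‖)) (z + (ε * ‖z‖) • x)))) ∧
      |1 - ⟪gradient (fun x => prb_L (u (z + (ε * ‖z‖) • x))) x, e⟫ ^ 2| ≤ 6 * (4 * R * ε) +
        6 * A * ((ε * ‖z‖) ^ (d + 1) * (ed ε u (z + (ε * ‖z‖) • x) * (tl ε u e (z + (ε * ‖z‖) • x) *
          gk d z (R * (ε * ‖z‖)) (z + (ε * ‖z‖) • x)))) := by
    intro x hx
    have hx' := (mem_ball_zero_iff.1 hx).le
    obtain ⟨p1, p2, p3, p4⟩ := prb_pt h he hz (x := x) (η := 4 * R * ε)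
      (by rw [mul_comm]; exact mul_le_mul_of_nonneg_right hx' hε0.le) (by linarith) hκ (hg x hx')
    have q1 := hgk z (R * (ε * ‖z‖)) (z + (ε * ‖z‖) • x) (by positivity) (by
      rw [add_sub_cancel_left, norm_smul, Real.norm_of_nonneg hϵ.le]
      nlinarith)
    have q2 : 2 * sig / κ ^ 2 * (ε * ‖z‖ * (ed ε u (z + (ε * ‖z‖) • x) * tl ε u e (z + (ε * ‖z‖) • x))) ≤
        A * ((ε * ‖z‖) ^ (d + 1) * (ed ε u (z + (ε * ‖z‖) • x) * (tl ε u e (z + (ε * ‖z‖) • x) *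
          gk d z (R * (ε * ‖z‖)) (z + (ε * ‖z‖) • x)))) := by
      have q3 := mul_le_mul_of_nonneg_left q1 (mul_nonneg (mul_nonneg hA.le (pow_pos hϵ (d + 1)).le)
        (hG0 (z + (ε * ‖z‖) • x)))
      refine le_of_eq_of_le ?_ (q3.trans_eq (by ring))
      rw [hAe, inv_pow, mul_pow R, pow_succ (ε * ‖z‖) d]
      field_simp
    exact ⟨p1, p2, by linarith, by linarith⟩
  obtain ⟨ς, hς, hΨ⟩ := hab (fun x => prb_L (u (z + (ε * ‖z‖) • x))) e he
    (fun x hx => (key x hx).1.contDiffWithinAt) (fun x hx => (key x hx).2.1.trans (by linarith))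
    (prb_int hGi hG1 le_rfl (by positivity) (fun x hx => (key x hx).2.2.1) (by
      rw [hGe]; linarith))
    (prb_int hGi hG1 (by positivity) (by positivity) (fun x hx => (key x hx).2.2.2) (by rw [hGe]; linarith))
  simp only [smul_zero, add_zero] at hΨ
  have hT := prb_bd hτ hτz
  refine ⟨ς, -(ς * prb_L (u z)), hς, ?_, fun x hx => ?_⟩
  · rcases hς with rfl | rfl <;> simp only [one_mul, neg_mul, neg_neg, abs_neg] <;> linarith
  · have e1 : ς * Real.tanh ((⟪e, x⟫ - -(ς * prb_L (u z))) / √2) =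
        Real.tanh ((ς * ⟪e, x⟫ + prb_L (u z)) / √2) := by
      rcases hς with rfl | rfl
      · simp
      · rw [neg_one_mul, ← Real.tanh_neg]
        congr 1
        ring
    rw [e1, ← prb_tanh (t := u (z + (ε * ‖z‖) • x)) (by linarith [hg x (by linarith)])]
    refine (prb_lip _ _).trans ?_
    rw [← sub_div, abs_div, abs_of_pos (show (0 : ℝ) < √2 by positivity)]
    refine (div_le_self (abs_nonneg _) Real.one_lt_sqrt_two.le).trans (le_of_eq_of_le ?_ (hΨ x hx))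
    congr 1
    ring

end Crest.Agent.R246.B2
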