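import Crest.Agent.R246.B2.Bas

/-!
# Row 246, block B2: reduction to scale one
-/

set_option autoImplicit false
set_option linter.unusedSectionVars false

open MeasureTheory Metric Filter Topology Set Module
open scoped RealInnerProductSpace ENNReal ContDiff Real

noncomputable section

namespace Crest.Agent.R246.B2

variable {E : Type} [NormedAddCommGroup E] [InnerProductSpace ℝ E] [FiniteDimensional ℝ E]
  [MeasurableSpace E] [BorelSpace E]

section aux

variable {d : ℕ} {ε t : ℝ} {u : E → ℝ}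

theorem scl_grad (h : Hom0 u) (ht : 0 < t) (y : E) : gradient u (t • y) = t⁻¹ • gradient u y := by
  have h1 := fderiv_comp_smul (𝕜 := ℝ) (f := u) (x := y) t
  simp only [h t ht] at h1
  rw [gradient, gradient, h1, map_smul]
  exact (inv_smul_smul₀ ht.ne' _).symm

theorem scl_ed (h : Hom0 u) (ht : 0 < t) (y : E) : ed ε u (t • y) = t⁻¹ * ed ε u y := by
  simp only [ed, scl_grad h ht, h t ht, norm_smul, Real.norm_of_nonneg ht.le, norm_inv]
  field_simp

theorem scl_wv (h : Hom0 u) (ht : 0 < t) (y : E) : wv ε u (t • y) = wv ε u y := by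
  rw [wv, wv, scl_grad h ht, scl_ed h ht, norm_smul, Real.norm_of_nonneg ht.le, smul_smul,
    show ε * (t * ‖y‖) / (sig * (t⁻¹ * ed ε u y)) = t ^ 2 * (ε * ‖y‖ / (sig * ed ε u y)) by field_simp,
    Real.sqrt_mul (sq_nonneg _), Real.sqrt_sq ht.le, mul_right_comm, mul_inv_cancel₀ ht.ne', one_mul]

theorem scl_int (hE : finrank ℝ E = d + 1) (h : Crit ε u) (hε : 0 < ε) (ht : 0 < t) (φ : E → ℝ) :
    ∫ y, φ y ∂mu ε u = ∫ y, t ^ d * φ (t • y) ∂mu ε u := by
  have h1 := Measure.integral_comp_smul (volume : Measure E) (fun y => ed ε u y * φ y) t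
  simp only [scl_ed h.hom ht, mul_assoc] at h1
  rw [integral_const_mul, hE, abs_of_pos (by positivity), smul_eq_mul] at h1
  rw [integral_const_mul, integral_mu h hε, integral_mu h hε, (inv_mul_eq_iff_eq_mul₀ ht.ne').1 h1, pow_succ]
  field_simp

theorem scl_gk (ht : 0 < t) (p : E) (r : ℝ) (y : E) : t ^ d * gk d (t • p) (r * t) (t • y) = gk d p r y := by
  rw [gk, gk, ← mul_assoc, ← mul_pow, ← smul_sub, norm_smul, Real.norm_of_nonneg ht.le]
  congr 2 <;> field_simp

end aux

/-- `ed (t y) = ed y / t`, `wv (t y) = wv y` (gradient of a `0`-homogeneous function), change of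
variables `Measure.integral_comp_smul`: for `t > 0`,
`∫ φ(y, wv y) dμ = t^d ∫ φ(t y, wv y) dμ`.  Apply with `t = r` to `th`, `hx` and the tilt; build
`Dat` from `StAC` with `Λ' = K Λ + 1` (`ε ≤ δ² ≤ 1`; `p ≠ 0`; the extra integral in the last item
of `StAC` is nonnegative), use `StQ1` at `p / r`. -/
theorem stQ_of_one (hA : StAC E) (h1 : StQ1 E) : StQ E := by
  intro d hE hd Λ η hη
  obtain ⟨K, hK, c, hc, hA⟩ := hA d hE hd
  obtain ⟨δ, hδ, h1⟩ := h1 d c (K * |Λ| + 1) η hη
  refine ⟨min δ 1, by positivity, fun ε u hε hu hEn p r e hr a1 a2 he a3 a4 => ?_⟩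
  obtain ⟨b1, b2, b3, -, b5, b6, b7, b8, b9⟩ := hA ε u hε hu
  obtain ⟨p, rfl⟩ : ∃ q, p = r • q := ⟨r⁻¹ • p, (smul_inv_smul₀ hr.ne' p).symm⟩
  rw [norm_smul, Real.norm_of_nonneg hr.le, mul_left_comm] at a1 a2
  have a5 : 1 ≤ min δ 1 * ‖p‖ := le_of_mul_le_mul_left ((mul_one r).trans_le a1) hr
  have a6 : ε * ‖p‖ ≤ min δ 1 := le_of_mul_le_mul_left (a2.trans_eq (mul_comm _ _)) hr
  have a7 : 1 ≤ ‖p‖ := a5.trans (mul_le_of_le_one_left (norm_nonneg _) (min_le_right _ _))
  have hε1 : ε ≤ 1 := (le_mul_of_one_le_right hε.le a7).trans (a6.trans (min_le_right _ _))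
  have hΛ : K * En d ε u ≤ K * |Λ| + 1 :=
    (mul_le_mul_of_nonneg_left (hEn.trans (le_abs_self _)) hK).trans (le_add_of_nonneg_right zero_le_one)
  have hD : Dat d c (K * |Λ| + 1) ε u :=
    ⟨hE, hd, hc, hε, hε1, by positivity, hu, b1, fun y => (b2 y).1, fun p r h => (b3 p r h).1,
      fun p r h => (b3 p r h).2, b5, fun p r h => (b6 p r h).trans hΛ,
      fun p r h h' => (b7 p r h h').trans (div_le_div_of_nonneg_right hΛ (norm_nonneg _)), b8 hε1,
      fun p a b ha hab hb => (le_add_of_nonneg_right (intervalIntegral.integral_nonneg hab fun ρ hρ => by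
        rw [integral_vA hu ((by fun_prop : Measurable fun z : E × E => 1 - ‖z.2‖ ^ 2).fun_mul
          ((continuous_gk d p ρ).measurable.fun_comp measurable_fst))]
        exact div_nonneg (integral_nonneg fun y => mul_nonneg (sub_nonneg.2 (pow_le_one₀ (norm_nonneg _) (b2 y).1))
          (gk_pos d p (ha.trans_le hρ.1) y).le) (ha.le.trans hρ.1))).trans ((b9 p a b ha hab hb).trans
        (add_le_add_right (mul_le_mul_of_nonneg_right hΛ (div_nonneg (ha.le.trans hab) (norm_nonneg _))) _))⟩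
  have e1 : th d (mu ε u) (r • p) r = th d (mu ε u) p 1 := by
    rw [th, th, scl_int hE hu hε hr]
    simp only [← scl_gk hr p 1, one_mul]
  have e2 : hx d (mu ε u) (r • p) r e = hx d (mu ε u) p 1 e := by
    rw [hx, hx, scl_int hE hu hε hr]
    refine integral_congr_ae (Eventually.of_forall fun y => ?_)
    simp only [← scl_gk hr p 2, mul_one, ← smul_sub, real_inner_smul_right]
    field_simp
  have e3 : ∫ z, (1 - ⟪z.2, e⟫ ^ 2) * gk d (r • p) (3 / 2 * r) z.1 ∂vA ε u = tg d ε u e p (3 / 2) := by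
    rw [integral_vA hu ((by fun_prop : Measurable fun z : E × E => 1 - ⟪z.2, e⟫ ^ 2).fun_mul
      ((continuous_gk d _ _).measurable.fun_comp measurable_fst)), tg, scl_int hE hu hε hr]
    refine integral_congr_ae (Eventually.of_forall fun y => ?_)
    simp only [← scl_gk hr p (3 / 2), scl_wv hu.hom hr, tl]
    ring
  rw [← smul_add, ← smul_sub, hu.hom r hr, hu.hom r hr, e1]
  exact h1 ε u hD p e (a5.trans (mul_le_mul_of_nonneg_right (min_le_left _ _) (norm_nonneg _)))
    (a6.trans (min_le_left _ _)) he (e2 ▸ a3.trans (min_le_left _ _)) (e3 ▸ a4.trans (min_le_left _ _))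

end Crest.Agent.R246.B2
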