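import Crest.Agent.R246.B2.Line
import Crest.Agent.R246.B2.Scale
import Crest.Agent.R246.B2.Far
import Crest.Agent.R246.B2.Bad
import Crest.Agent.R246.B2.Prof
import Crest.Agent.R246.B2.Cut

/-! Row 246, block B2: final statements (see `R246/Blueprint.lean`). -/

set_option autoImplicit false
set_option linter.unusedSectionVars false

open MeasureTheory Metric Filter Topology Set Module
open scoped RealInnerProductSpace ENNReal ContDiff Real

namespace Crest.Agent.R246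

namespace B2

variable {E : Type} [NormedAddCommGroup E] [InnerProductSpace ℝ E] [FiniteDimensional ℝ E]
  [MeasurableSpace E] [BorelSpace E]

theorem Prof.mono {ε : ℝ} {u : E → ℝ} {e z : E} {R T s R' s' : ℝ} (h : Prof ε u e z R T s)
    (hR : R' ≤ R) (hs : s ≤ s') : Prof ε u e z R' T s' := by
  obtain ⟨ς, t₀, h1, h2, h3⟩ := h
  exact ⟨ς, t₀, h1, h2, fun x hx => (h3 x (hx.trans hR)).trans hs⟩

/-- the combinatorial end of the proof -/
theorem core {d : ℕ} {c : ℝ → ℝ} {Λ ε : ℝ} {u : E → ℝ} (h : Dat d c Λ ε u) {p e : E}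
    (he : ‖e‖ = 1) {L s₀ R T s η τ : ℝ} {S : Set E} (hS : MeasurableSet S) (hη : 0 < η)
    (hη1 : η ≤ 1) (hs₀ : 0 < s₀) (hs1 : s₀ < 1) (hL1 : 1 ≤ L) (hL : 3 * s₀ ≤ L) (hp : 2 * L ≤ ‖p‖)
    (hR : 0 < R) (hτ : τ ≤ 1 / 6)
    (htail : ∫ y in (ball p L)ᶜ, gk d p 1 y ∂mu ε u ≤ η)
    (hrest : mu ε u (Sᶜ ∩ ball p (2 * L)) ≤ ENNReal.ofReal (2 * η))
    (hP : ∀ z ∈ S, Prof ε u e z R T s) (hT : 3 / 4 + s ≤ Real.tanh ((R - T) / √2))
    (hup : ∀ z ∈ S, ∫⁻ t in Icc (-(R * (ε * ‖z‖))) (R * (ε * ‖z‖)),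
      ENNReal.ofReal (ed ε u (z + t • e)) ≤ ENNReal.ofReal (1 + η))
    (hlow : ∀ z ∈ S, 1 - 2 * η ≤ th d (mu ε u) p 1)
    (h2 : ∀ z ∈ S, ∀ ℓ : ℝ, z + ℓ • e ∈ S → |ℓ| ≤ R * (ε * ‖z‖))
    (h3 : ∀ z ∈ S, |⟪e, z - p⟫| ≤ s₀ ∧ R * (ε * ‖z‖) ≤ s₀)
    (h4 : ∀ y ∈ ball p (2 * L), τ ≤ 1 - u y ^ 2 → |⟪e, y - p⟫| ≤ s₀) :
    th d (mu ε u) p 1 ≤ 11 * η ∨
      (|th d (mu ε u) p 1 - 1| ≤ 4 * η ∧ u (p + e) * u (p - e) < 0) := by
  have hi := h.integ p 1 one_pos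
  have hsplit : th d (mu ε u) p 1 ≤ ∫ y in S ∩ ball p L, gk d p 1 y ∂mu ε u + 3 * η := by
    have e1 := integral_add_compl (μ := mu ε u) (measurableSet_ball (x := p) (ε := L)) hi
    have e2 := integral_inter_add_diff (μ := mu ε u) (s := ball p L) hS hi.integrableOn
    have e3 : ∫ y in ball p L \ S, gk d p 1 y ∂mu ε u ≤ 2 * η :=
      setIntegral_gk_le_mu h p (by positivity) (le_trans (measure_mono
        (t := Sᶜ ∩ ball p (2 * L)) fun y hy => ⟨hy.2, ball_subset_ball (by linarith) hy.1⟩) hrest)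
    rw [inter_comm] at e2
    rw [th]
    linarith
  have hSL := hS.inter (measurableSet_ball (x := p) (ε := L))
  have hA := line_A (f := fun y => ENNReal.ofReal (ed ε u y)) (S' := S ∩ ball p L)
    inter_subset_left (ρ := fun z => R * (ε * ‖z‖)) hup h2
  have hee : ⟪e, e⟫ = (1 : ℝ) := by rw [real_inner_self_eq_norm_sq, he]; norm_num
  by_cases hsg : u (p + e) * u (p - e) < 0
  · by_cases hne : S.Nonempty
    · obtain ⟨z, hz⟩ := hne
      have a1 := sum_A h p he hSL (by positivity) hA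
      have a2 := hlow z hz
      exact Or.inr ⟨abs_le.2 ⟨by linarith, by linarith⟩, hsg⟩
    · rw [not_nonempty_iff_eq_empty.1 hne] at hsplit
      simp only [empty_inter, Measure.restrict_empty, integral_zero_measure] at hsplit
      exact Or.inl (by linarith)
  · left
    have hbig : ∀ y ∈ ball p (2 * L), s₀ < |⟪e, y - p⟫| → 3 / 4 ≤ |u y| := fun y hy hh => by
      have : 1 - u y ^ 2 < τ := by
        by_contra h5
        exact absurd (h4 y hy (not_lt.1 h5)) (not_le.2 hh)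
      refine (pow_le_pow_iff_left₀ (by norm_num) (abs_nonneg _) two_ne_zero).1 ?_
      rw [sq_abs]
      linarith
    have h0 : (0 : E) ∉ ball p (2 * L) := by
      rw [mem_ball, dist_zero_left]
      exact not_lt.2 hp
    have hlin : IsLinearMap ℝ fun y : E => ⟪e, y⟫ :=
      ⟨fun a b => inner_add_right _ _ _, fun a b => inner_smul_right _ _ _⟩
    have hpe : p + e ∈ ball p (2 * L) := by
      rw [mem_ball, dist_eq_norm, add_sub_cancel_left, he]; linarith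
    have hpe' : p - e ∈ ball p (2 * L) := by
      rw [mem_ball, dist_eq_norm, sub_sub_cancel_left, norm_neg, he]; linarith
    obtain ⟨ς₀, hς, b1, b2⟩ : ∃ ς₀ : ℝ, (ς₀ = 1 ∨ ς₀ = -1) ∧ 0 ≤ ς₀ * u (p + e) ∧
        0 ≤ ς₀ * u (p - e) := by
      rcases mul_nonneg_iff.1 (not_lt.1 hsg) with h5 | h5
      · exact ⟨1, Or.inl rfl, by linarith [h5.1], by linarith [h5.2]⟩
      · exact ⟨-1, Or.inr rfl, by linarith [h5.1], by linarith [h5.2]⟩
    have h5 : ∀ y ∈ ball p (2 * L), s₀ < |⟪e, y - p⟫| → 3 / 4 ≤ ς₀ * u y := fun y hy hh => by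
      rcases lt_abs.1 hh with h6 | h6
      · refine sign_const h.crit (K := ball p (2 * L) ∩ {y | s₀ + ⟪e, p⟫ < ⟪e, y⟫})
          ((convex_ball _ _).inter (convex_halfSpace_gt hlin _)) (fun h7 => h0 h7.1)
          (fun y hy => hbig y hy.1 (lt_abs.2 (Or.inl ?_))) (a := p + e) ⟨hpe, ?_⟩ ⟨hy, ?_⟩ hς b1
        · have := hy.2
          rw [mem_setOf_eq] at this
          rw [inner_sub_right]; linarith
        · rw [mem_setOf_eq, inner_add_right, hee]; linarith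
        · rw [inner_sub_right] at h6
          rw [mem_setOf_eq]; linarith
      · refine sign_const h.crit (K := ball p (2 * L) ∩ {y | ⟪e, y⟫ < ⟪e, p⟫ - s₀})
          ((convex_ball _ _).inter (convex_halfSpace_lt hlin _)) (fun h7 => h0 h7.1)
          (fun y hy => hbig y hy.1 (lt_abs.2 (Or.inr ?_))) (a := p - e) ⟨hpe', ?_⟩ ⟨hy, ?_⟩ hς b2
        · have := hy.2
          rw [mem_setOf_eq] at this
          rw [inner_sub_right]; linarith
        · rw [mem_setOf_eq, inner_sub_right, hee]; linarith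
        · rw [inner_sub_right] at h6
          rw [mem_setOf_eq]; linarith
    have hB := sum_B h he hSL (hS.compl.inter (measurableSet_ball (x := p) (ε := 2 * L)))
      fun x => by
        by_cases hx : ∃ t₀ : ℝ, x + t₀ • e ∈ S ∩ ball p L
        · obtain ⟨t₀, ht⟩ := hx
          have b3 := line_B h.pos h.crit he hs₀ hL hp hR hς hP hT h2 h3 h5 ht.1 ht.2
          simp_rw [add_assoc, ← add_smul] at b3
          rw [lintegral_add_left_eq_self (fun t : ℝ => (Sᶜ ∩ ball p (2 * L)).indicator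
            (fun y => ENNReal.ofReal (ed ε u y)) (x + t • e)) t₀] at b3
          refine (hA x).trans (le_trans ?_ (mul_le_mul_right b3 4))
          rw [← ENNReal.ofReal_ofNat 4, ← ENNReal.ofReal_mul (by norm_num)]
          exact ENNReal.ofReal_le_ofReal (by linarith)
        · push Not at hx
          simp [indicator_of_notMem (hx _)]
    have a1 := setIntegral_gk_le_mu h p (B := 8 * η) (by positivity) (hB.trans (by
      refine (mul_le_mul_right hrest 4).trans ?_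
      rw [← ENNReal.ofReal_ofNat 4, ← ENNReal.ofReal_mul (by norm_num)]
      exact ENNReal.ofReal_le_ofReal (by linarith)))
    linarith

theorem stQ1 : StQ1 E := by
  intro d c Λ η₁ hη₁
  rcases le_or_gt Λ 0 with hΛ | hΛ
  · exact ⟨1, one_pos, fun ε u h => absurd h.Lpos (not_lt.2 hΛ)⟩
  obtain ⟨η, hη, hη1, hη2⟩ : ∃ η : ℝ, 0 < η ∧ η ≤ 1 ∧ 11 * η ≤ η₁ :=
    ⟨min 1 (η₁ / 11), by positivity, min_le_left _ _, by linarith [min_le_right 1 (η₁ / 11)]⟩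
  obtain ⟨L, hL1, htail⟩ := tail (E := E) d Λ hη
  obtain ⟨τ₁, δf, hτ₁, hδf, hfar⟩ := far (E := E) d Λ (L := 2 * L) (by linarith) hη
  obtain ⟨T, hT, hprof⟩ := prof (E := E) d hτ₁
  obtain ⟨R', R₁, s₁, γ₁, δ₁, hR', hR₁, hs₁, hγ₁, hδ₁, hlow⟩ := loc_low (E := E) d hη T
  have hart : 0 ≤ Real.artanh (7 / 8) := Real.artanh_nonneg (by norm_num)
  obtain ⟨R, hR6, hRT⟩ : ∃ R : ℝ, 6 * R₁ ≤ R ∧ 7 / 8 ≤ Real.tanh ((R - T) / √2) := by
    refine ⟨6 * R₁ + T + √2 * Real.artanh (7 / 8), by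
      have : 0 ≤ √2 * Real.artanh (7 / 8) := by positivity
      linarith, ?_⟩
    rw [← Real.tanh_artanh (x := 7 / 8) (by constructor <;> norm_num)]
    refine tanh_mono ?_
    rw [Real.tanh_artanh (x := 7 / 8) (by constructor <;> norm_num), le_div_iff₀ (by positivity)]
    linarith
  have hR : 0 < R := by linarith
  obtain ⟨s₂, δ₂, hs₂, hδ₂, hup⟩ := loc_up (E := E) d hη hR
  obtain ⟨γ₂, δ₃, hγ₂, hδ₃, hprof⟩ := hprof R (min (min s₁ s₂) (1 / 8)) hR (by positivity)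
  obtain ⟨M, γ₃, δ₄, hM, hγ₃, hδ₄, htwo⟩ := two (E := E) d Λ hη
  obtain ⟨ρ₀, δ₅, hρ₀, hρ1, hδ₅, hbad⟩ := bad (E := E) d Λ (2 * L) hη
    (γ := min (min γ₁ γ₂) γ₃) (by positivity)
  obtain ⟨s', δ₆, hs', hδ₆, htr⟩ := transfer (E := E) d (2 * L) hΛ hη
  obtain ⟨s₀, hs₀, q1, q2⟩ : ∃ s₀ : ℝ, 0 < s₀ ∧ s₀ ≤ s' ∧ s₀ ≤ ρ₀ / (4 * M) :=
    ⟨min s' (ρ₀ / (4 * M)), by positivity, min_le_left _ _, min_le_right _ _⟩
  rw [le_div_iff₀ (by positivity)] at q2
  have q3 : s₀ ≤ ρ₀ / 4 := by linarith [mul_le_mul_of_nonneg_left hM hs₀.le]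
  obtain ⟨δ₇, hδ₇, hstrip⟩ := strip (E := E) d c Λ (2 * L) hτ₁ hs₀
  obtain ⟨δ, hδ, d0, d1, d2, d3, d4, d5, d6, d7, d8, d9, d10⟩ : ∃ δ : ℝ, 0 < δ ∧ δ ≤ δf ∧ δ ≤ δ₁ ∧
      δ ≤ δ₂ ∧ δ ≤ δ₃ ∧ δ ≤ δ₄ ∧ δ ≤ δ₅ ∧ δ ≤ δ₆ ∧ δ ≤ δ₇ ∧ δ ≤ 1 / (4 * L) ∧ δ ≤ s₀ / (2 * R) ∧
      δ ≤ 1 := by
    have : ∀ᶠ δ in 𝓝[>] (0 : ℝ), 0 < δ ∧ δ ≤ δf ∧ δ ≤ δ₁ ∧
        δ ≤ δ₂ ∧ δ ≤ δ₃ ∧ δ ≤ δ₄ ∧ δ ≤ δ₅ ∧ δ ≤ δ₆ ∧ δ ≤ δ₇ ∧ δ ≤ 1 / (4 * L) ∧ δ ≤ s₀ / (2 * R) ∧
        δ ≤ 1 := by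
      have k : ∀ a : ℝ, 0 < a → ∀ᶠ δ in 𝓝[>] (0 : ℝ), δ ≤ a := fun a ha =>
        mem_nhdsWithin_of_mem_nhds (Iic_mem_nhds ha)
      filter_upwards [self_mem_nhdsWithin, k _ hδf, k _ hδ₁, k _ hδ₂, k _ hδ₃, k _ hδ₄, k _ hδ₅,
        k _ hδ₆, k _ hδ₇, k (1 / (4 * L)) (by positivity), k (s₀ / (2 * R)) (by positivity),
        k 1 one_pos] with δ a0 a1 a2 a3 a4 a5 a6 a7 a8 a9 a10 a11
      exact ⟨a0, a1, a2, a3, a4, a5, a6, a7, a8, a9, a10, a11⟩
    exact this.exists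
  refine ⟨δ, hδ, fun ε u h p e hp hεp he hhx htg => ?_⟩
  have hn := norm_nonneg p
  have up : ∀ a, δ ≤ a → 1 ≤ a * ‖p‖ := fun a ha => hp.trans (by gcongr)
  have hp4 : 4 * L ≤ ‖p‖ := by
    have := up _ d8
    rwa [div_mul_eq_mul_div, one_mul, le_div_iff₀ (by positivity), one_mul] at this
  have hε := h.pos
  have hεδ : ε ≤ δ := (le_mul_of_one_le_right hε.le (by linarith)).trans hεp
  have mr : ∀ {a b x : ℝ}, a ≤ b → 0 < x → a * x ≤ b * x := fun h1 h2 =>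
    mul_le_mul_of_nonneg_right h1 h2.le
  have r1 : R' ≤ R := by linarith
  have r2 : 2 * R' ≤ R := by linarith
  obtain ⟨τ, t1, t2, hfar⟩ := hfar c ε u h p (up _ d0) (hεp.trans d0)
  have hbad := hbad c ε u h p e he (htg.trans d5)
  set Bh := toMeasurable (mu ε u)
    (ball p (2 * L) ∩ {z | ¬ Good d ε u e (min (min γ₁ γ₂) γ₃) ρ₀ z}) with hBh
  set S : Set E := Bhᶜ ∩ {y | τ ≤ 1 - u y ^ 2} ∩ ball p (2 * L) with hSdef
  have hu := meas_u h.crit
  have hS : MeasurableSet S := ((measurableSet_toMeasurable _ _).compl.inter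
    (measurableSet_le measurable_const (measurable_const.sub (hu.pow_const 2)))).inter
    measurableSet_ball
  have h4 : ∀ y ∈ ball p (2 * L), τ ≤ 1 - u y ^ 2 → |⟪e, y - p⟫| ≤ s₀ := fun y hy ht =>
    hstrip ε u h p e he (up _ d7) (hεp.trans d7) (hhx.trans d7) y
      (by rw [← dist_eq_norm]; exact (mem_ball.1 hy).le) (t1.trans ht)
  have hz : ∀ z ∈ S, ‖z - p‖ ≤ 2 * L ∧ ‖p‖ / 2 ≤ ‖z‖ ∧ ‖z‖ ≤ 2 * ‖p‖ ∧ z ≠ 0 ∧
      R * (ε * ‖z‖) ≤ s₀ ∧ 0 < ε * ‖z‖ ∧ Good d ε u e (min (min γ₁ γ₂) γ₃) ρ₀ z := fun z hz => by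
    have a1 : ‖z - p‖ ≤ 2 * L := by rw [← dist_eq_norm]; exact (mem_ball.1 hz.2).le
    have a2 := norm_sub_norm_le p z
    have a3 := norm_sub_norm_le z p
    rw [norm_sub_rev] at a2
    have a4 : ‖p‖ / 2 ≤ ‖z‖ := by linarith
    have a5 : 0 < ‖z‖ := by linarith
    refine ⟨a1, a4, by linarith, norm_pos_iff.1 a5, ?_, by positivity, ?_⟩
    · rw [le_div_iff₀ (by positivity)] at d9
      have a6 : ε * ‖z‖ ≤ ε * (2 * ‖p‖) := mul_le_mul_of_nonneg_left (by linarith) hε.le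
      have a7 : R * (ε * ‖z‖) ≤ R * (2 * δ) := mul_le_mul_of_nonneg_left (by linarith) hR.le
      linarith
    · by_contra hg
      exact hz.1.1 (subset_toMeasurable _ _ ⟨hz.2, hg⟩)
  have hP : ∀ z ∈ S, Prof ε u e z R T (min (min s₁ s₂) (1 / 8)) := fun z hzS => by
    obtain ⟨-, -, -, a4, a5, a6, a7⟩ := hz z hzS
    exact hprof c Λ ε u h (hεδ.trans d3) e z he a4 (t1.trans hzS.1.2)
      ((a7 _ (by positivity) (by linarith)).trans ((min_le_left _ _).trans (min_le_right _ _)))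
  have hlo : ∀ z ∈ S, 1 - η ≤
      ∫ y in ball z (R₁ * (ε * ‖z‖)), gk d z (R' * (ε * ‖z‖)) y ∂mu ε u := fun z hzS => by
    obtain ⟨-, -, -, a4, a5, a6, a7⟩ := hz z hzS
    exact hlow c Λ ε u h (hεδ.trans d1) e z he a4
      ((hP z hzS).mono (by linarith) ((min_le_left _ _).trans (min_le_left _ _)))
      ((a7 _ (by positivity) (by linarith [mr r1 a6])).trans
        ((min_le_left _ _).trans (min_le_left _ _)))
  have hlo' : ∀ z ∈ S, ∀ ρ, R₁ * (ε * ‖z‖) ≤ ρ →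
      1 - η ≤ ∫ y in ball z ρ, gk d z (R' * (ε * ‖z‖)) y ∂mu ε u := fun z hzS ρ hρ => by
    obtain ⟨-, -, -, -, -, a6, -⟩ := hz z hzS
    exact (hlo z hzS).trans (setIntegral_mono_set (h.integ _ _ (by positivity)).integrableOn
      (Eventually.of_forall fun y => (gk_pos d z (by positivity) y).le)
      (ball_subset_ball hρ).eventuallyLE)
  have htr' := fun z (hzS : z ∈ S) => htr c ε u h p e he (up _ d6) (htg.trans d6) z (hz z hzS).1
    ((h4 z hzS.2 hzS.1.2).trans q1)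
  by_cases h2 : ∀ z ∈ S, ∀ ℓ : ℝ, z + ℓ • e ∈ S → |ℓ| ≤ R * (ε * ‖z‖)
  · have := core h he hS hη hη1 hs₀ (by linarith) hL1 (by linarith) (by linarith) hR t2
      (by simpa using htail c ε u h p 1 one_pos) ?_ hP
      (by linarith [min_le_right (min s₁ s₂) (1 / 8)])
      (fun z hzS => hup c Λ ε u h (hεδ.trans d2) e z T he (hz z hzS).2.2.2.1
        ((hP z hzS).mono le_rfl ((min_le_left _ _).trans (min_le_right _ _))))
      (fun z hzS => ?_) h2 (fun z hzS => ⟨h4 z hzS.2 hzS.1.2, (hz z hzS).2.2.2.2.1⟩) h4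
    · rcases this with h5 | h5
      · exact Or.inl (by linarith)
      · exact Or.inr (Or.inr ⟨h5.1.trans (by linarith), h5.2⟩)
    · refine (measure_mono (t := Bh ∪ ball p (2 * L) ∩ {y | 1 - u y ^ 2 < τ}) fun y hy => ?_).trans
        ((measure_union_le _ _).trans ?_)
      · by_cases h6 : y ∈ Bh
        · exact Or.inl h6
        · exact Or.inr ⟨hy.2, (not_le (a := τ)).1 fun h7 => hy.1 ⟨⟨h6, h7⟩, hy.2⟩⟩
      · rw [two_mul η, ENNReal.ofReal_add hη.le hη.le, hBh, measure_toMeasurable]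
        exact add_le_add hbad hfar
    · obtain ⟨-, -, -, -, a5, a6, -⟩ := hz z hzS
      have b1 := htr' z hzS (R' * (ε * ‖z‖)) (by positivity) (by linarith [mr r1 a6])
      have b2 := (hlo z hzS).trans (setIntegral_le_integral (h.integ _ _ (by positivity))
        (Eventually.of_forall fun y => (gk_pos d z (by positivity) y).le))
      rw [th] at b1
      linarith
  · push Not at h2
    obtain ⟨z, hzS, ℓ, hz', hℓ⟩ := h2
    obtain ⟨-, a2, a3, -, a5, a6, a7⟩ := hz z hzS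
    obtain ⟨b1, -, -, -, -, b6, b7⟩ := hz _ hz'
    have hee : ⟪e, e⟫ = (1 : ℝ) := by rw [real_inner_self_eq_norm_sq, he]; norm_num
    have hℓ0 : 0 < |ℓ| := lt_trans (by positivity) hℓ
    have hℓs : |ℓ| ≤ 2 * s₀ := by
      have c1 := abs_le.1 (h4 z hzS.2 hzS.1.2)
      have c2 := h4 _ hz'.2 hz'.1.2
      rw [show z + ℓ • e - p = (z - p) + ℓ • e by abel, inner_add_right, inner_smul_right, hee,
        mul_one] at c2
      have c3 := abs_le.1 c2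
      exact abs_le.2 ⟨by linarith [c1.2, c3.1], by linarith [c1.1, c3.2]⟩
    have hMℓ : M * |ℓ| ≤ ρ₀ / 2 := by
      linarith [mul_le_mul_of_nonneg_left hℓs (zero_le_one.trans hM)]
    have hz2 : ‖z + ℓ • e‖ ≤ 2 * ‖z‖ := by
      refine (norm_add_le _ _).trans ?_
      rw [norm_smul, he, Real.norm_eq_abs]
      linarith
    have hz3 : ε * ‖z + ℓ • e‖ ≤ 2 * (ε * ‖z‖) := by
      linarith [mul_le_mul_of_nonneg_left hz2 hε.le]
    have k1 := mr r1 a6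
    have k2 := mr r2 a6
    have k3 := mul_le_mul_of_nonneg_left hz3 (zero_le_one.trans hR')
    have k4 := mul_le_mul_of_nonneg_left a2 hδ₄.le
    have k5 := mr hR6 a6
    have k6 := mul_le_mul_of_nonneg_left hz3 (zero_le_one.trans (hR'.trans hR₁))
    have k7 : 0 ≤ R₁ * (ε * ‖z‖) := mul_nonneg (zero_le_one.trans (hR'.trans hR₁)) a6.le
    have hg : ∀ y, Good d ε u e (min (min γ₁ γ₂) γ₃) ρ₀ y → Good d ε u e γ₃ (M * |ℓ|) y :=
      fun y hy ρ r1 r2 => (hy ρ r1 (by linarith)).trans (min_le_right _ _)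
    have c1 := htwo c ε u h e z ℓ (R' * (ε * ‖z‖)) (R' * (ε * ‖z + ℓ • e‖)) he (abs_pos.1 hℓ0)
      (by positivity) (by linarith) (by positivity) (by linarith)
      (by linarith [up _ d4]) (hg _ a7) (hg _ b7) (hlo' z hzS _ (by linarith))
      (hlo' _ hz' _ (by linarith))
    have c2 := htr' z hzS (M * |ℓ|) (by positivity) (by linarith)
    exact Or.inr (Or.inl (by linarith))

end B2

theorem stQ (hA : All fun E => StAC E) : All fun E => StQ E :=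
  fun E => B2.stQ_of_one (hA E) B2.stQ1

end Crest.Agent.R246
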